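import Vale.Agent.P147.Words

open MeasureTheory Set
open scoped ENNReal

namespace Vale.Agent.P147

variable {σ G : Type} [AddCommGroup G]

/-- displacement of a word -/
def pos (v : σ → G) (w : List σ) : G := (w.map v).sum

@[simp] theorem pos_nil (v : σ → G) : pos v [] = 0 := by simp [pos]
@[simp] theorem pos_cons (v : σ → G) (e : σ) (w : List σ) : pos v (e :: w) = v e + pos v w := by
  simp [pos]
@[simp] theorem pos_append (v : σ → G) (w r : List σ) : pos v (w ++ r) = pos v w + pos v r := by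
  simp [pos]

/-- departure sites of `w` from `0` and of `r` from `z` are disjoint -/
def Disj (v : σ → G) (w : List σ) (z : G) (r : List σ) : Prop :=
  ∀ u, u <+: w → u ≠ w → ∀ u', u' <+: r → u' ≠ r → pos v u ≠ z + pos v u'

/-- properties of the annealed law of the steps -/
structure Ann [MeasurableSpace σ] (v : σ → G) (P : Measure (ℕ → σ)) : Prop where
  prob : IsProbabilityMeasure P
  mul : ∀ w r, Disj v w (pos v w) r → P (cyl (w ++ r)) = P (cyl w) * P (cyl r)
  ne : ∀ w, P (cyl w) ≠ 0
  le : ∀ w r, P (cyl (w ++ r)) ≤ P (cyl r)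

variable [MeasurableSpace σ] [DiscreteMeasurableSpace σ] [Countable σ]
  {v : σ → G} {P : Measure (ℕ → σ)}

theorem Ann.aft_opn (hP : Ann v P) (w : List σ) (R : Set (List σ))
    (h : ∀ r ∈ R, Disj v w (pos v w) r) : P (aft w (opn R)) = P (cyl w) * P (opn R) := by
  rw [meas_aft_opn, meas_opn, ← ENNReal.tsum_mul_left]
  refine tsum_congr fun r => ?_
  rw [mul_left_comm]
  exact ind_mul_congr fun hr => hP.mul w r (h r hr.1)

theorem Ann.aft_opn_le (hP : Ann v P) (w : List σ) (R : Set (List σ)) :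
    P (aft w (opn R)) ≤ P (opn R) := by
  rw [meas_aft_opn, meas_opn]
  exact ENNReal.tsum_le_tsum fun r => mul_le_mul_right (hP.le w r) _

/-- success after the first word of a family -/
theorem Ann.success (hP : Ann v P) (A R : Set (List σ)) (T : Set (ℕ → σ))
    (h : ∀ w ∈ mn A, ∀ r ∈ R, Disj v w (pos v w) r)
    (hT : ∀ w ∈ mn A, ∀ r ∈ R, cyl (w ++ r) ⊆ T) : P (opn A) * P (opn R) ≤ P T := by
  rw [meas_opn P A, ← ENNReal.tsum_mul_right]
  refine le_trans (le_of_eq (tsum_congr fun w => ?_))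
    (sum_mn_aft P A (fun _ => opn R) T (fun _ _ => measurableSet_opn R) ?_)
  · rw [mul_assoc]
    exact ind_mul_congr fun hw => (hP.aft_opn w R (h w hw)).symm
  · intro w hw ζ hζ
    obtain ⟨r, hr, h'⟩ := mem_aft_opn.1 hζ
    exact hT w hw r hr h'

end Vale.Agent.P147
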