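import Vale.Agent.P147.Entropy

open MeasureTheory Set
open scoped ENNReal

namespace Vale.Agent.P147

variable {σ G : Type} [AddCommGroup G] [MeasurableSpace σ] {v : σ → G}

/-- a Markov family of laws of step sequences -/
structure Mk (v : σ → G) (Q : G → Measure (ℕ → σ)) : Prop where
  prob : ∀ x, IsProbabilityMeasure (Q x)
  markov : ∀ x w B, MeasurableSet B → Q x (aft w B) = Q x (cyl w) * Q (x + pos v w) B

namespace Sys

variable (S : Sys v)

def Dif (l T : ℝ) : Set (ℕ → σ) := opn (S.Esc 0 l) \ opn (S.Esc 0 T)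
def Deep (l T : ℝ) (w : List σ) : Prop := S.Strip T w ∧ l < S.ht w
def Bl (Q : G → Measure (ℕ → σ)) (x : G) (l T : ℝ) : Set (List σ) :=
  {w | S.Deep l T w ∧ Q (x + pos v w) (opn (S.Esc (S.ht w) T)) ≤ 2⁻¹}
def Valid (S' : Sys v) (l T : ℝ) (z : G) (π w : List σ) : Prop :=
  π ∈ mn (S'.Esc 0 (2 * l)) ∧ S.Strip T w ∧ 3 * l < S.h z ∧ S.h z ≤ T ∧ Disj v w z π ∧
    ∃ u, u <+: π ∧ u ≠ π ∧ pos v w = z + pos v u
def Drop (l T a : ℝ) : Set (List σ) := {r | (∀ u, u <+: r → a + S.ht u ≤ T) ∧ S.ht r < -l}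
def Turn (l T : ℝ) : Set (List σ) :=
  {x | ∃ w r, S.Deep l T w ∧ r ∈ S.Drop l T (S.ht w) ∧ x = w ++ r}
noncomputable def Th (Q : G → Measure (ℕ → σ)) (l T : ℝ) (ζ : ℕ → σ) : ℝ≥0∞ :=
  ⨆ w, ⨆ _ : S.Deep l T w ∧ ζ ∈ cyl w, Q (0 + pos v w) (opn (S.Drop l T (S.ht w)))

variable {S} {S' : Sys v} {Q : G → Measure (ℕ → σ)} {l T : ℝ}

theorem Valid.unique {z : G} {π w w' : List σ} {ζ : ℕ → σ} (h : S.Valid S' l T z π w)
    (h' : S.Valid S' l T z π w') (h1 : ζ ∈ cyl w) (h2 : ζ ∈ cyl w') : w = w' := by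
  by_contra hne
  rcases cyl_cmp h1 h2 with h3 | h3
  · obtain ⟨u, h4, h5, h6⟩ := h.2.2.2.2.2
    exact h'.2.2.2.2.1 w h3 hne u h4 h5 h6
  · obtain ⟨u, h4, h5, h6⟩ := h'.2.2.2.2.2
    exact h.2.2.2.2.1 w' h3 (Ne.symm hne) u h4 h5 h6

theorem Valid.deep (hh : ∀ x, S'.h x = -S.h x) {z : G} {π w : List σ}
    (h : S.Valid S' l T z π w) : S.Deep l T w := by
  obtain ⟨h1, h2, h3, -, -, u, h4, h5, h6⟩ := h
  refine ⟨h2, ?_⟩
  have := mn_esc_le h1 h4 h5
  simp only [ht, hh, h6, map_add] at this ⊢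
  linarith

variable [DiscreteMeasurableSpace σ] [Countable σ]

theorem measurableSet_dif : MeasurableSet (S.Dif l T) :=
  (measurableSet_opn _).diff (measurableSet_opn _)

theorem blame (hQ : Mk v Q) (x : G) : Q x (opn (S.Bl Q x l T)) ≤ 2 * Q x (S.Dif l T) := by
  have h1 := sum_mn_aft (Q x) (S.Bl Q x l T) (fun w => (opn (S.Esc (S.ht w) T))ᶜ) (S.Dif l T)
    (fun _ _ => (measurableSet_opn _).compl) ?_
  · refine le_trans ?_ (mul_le_mul_right h1 2)
    rw [meas_opn, ← ENNReal.tsum_mul_left]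
    refine ENNReal.tsum_le_tsum fun w => ?_
    rw [mul_left_comm]
    refine ind_mul_le_ind_mul fun hw => ⟨hw, ?_⟩
    have := hQ.prob (x + pos v w)
    rw [hQ.markov _ _ _ (measurableSet_opn _).compl, mul_left_comm,
      prob_compl_eq_one_sub (measurableSet_opn _)]
    refine le_mul_of_one_le_right' ?_
    calc (1 : ℝ≥0∞) = 2 * (1 - 2⁻¹) := by
          rw [ENNReal.one_sub_inv_two, ENNReal.mul_inv_cancel (by simp) (by simp)]
      _ ≤ _ := by gcongr; exact hw.1.2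
  · intro w hw ζ hζ
    have hd := hw.1.1
    refine ⟨⟨w, ⟨fun u hu => by simpa using (hd.1 u hu).1, by simpa using hd.2⟩, hζ.1⟩, ?_⟩
    rintro ⟨r, hr, h⟩
    rcases cyl_cmp h hζ.1 with h2 | ⟨r', rfl⟩
    · have := (hd.1 r h2).2
      have := hr.2
      linarith
    · refine hζ.2 ⟨r', ⟨fun u hu => ?_, by simpa using hr.2⟩, (mem_cyl_append.1 h).2⟩
      simpa using hr.1 (w ++ u) ((List.prefix_append_right_inj w).2 hu)

theorem esc_disj (hh : ∀ x, S'.h x = -S.h x) (hQ : Mk v Q) (x : G) {a b : ℝ} (hab : a + b ≤ T) :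
    Q x (opn (S.Esc a T)) ≤ 2⁻¹ ∨ Q x (opn (S'.Esc b T)) ≤ 2⁻¹ := by
  have := hQ.prob x
  have h1 : Q x (opn (S.Esc a T)) + Q x (opn (S'.Esc b T)) ≤ 1 := by
    rw [← measure_union _ (measurableSet_opn _)]
    · exact prob_le_one
    · rw [Set.disjoint_left]
      rintro ζ ⟨r, hr, h⟩ ⟨r', hr', h'⟩
      have h2 := hr.2
      have h3 := hr'.2
      rcases cyl_cmp h h' with h4 | h4
      · have := hr'.1 r h4
        simp only [ht, hh] at *; linarith
      · have := hr.1 r' h4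
        simp only [ht, hh] at *; linarith
  by_contra h
  simp only [not_or, not_le] at h
  have := (ENNReal.add_lt_add h.1 h.2).trans_le h1
  simp [ENNReal.inv_two_add_inv_two] at this

theorem high (hh : ∀ x, S'.h x = -S.h x) (hQ : Mk v Q) (hl : 0 ≤ l) (z : G) :
    ∑' π, ∑' w, ind (S.Valid S' l T z π w ∧ l < S.h z - S.ht w) * (Q 0 (cyl w) * Q z (cyl π)) ≤
      2 * Q 0 (S.Dif l T) + 2 * Q z (S'.Dif l T) := by
  have := hQ.prob 0
  have := hQ.prob z
  calc _ ≤ ∑' π, (ind (π ∈ mn (S'.Esc 0 (2 * l))) * Q z (cyl π) * Q 0 (opn (S.Bl Q 0 l T)) +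
        ind (π ∈ mn (S'.Esc 0 (2 * l)) ∧ ∃ u ∈ S'.Bl Q z l T, u <+: π) * Q z (cyl π)) := by
        refine ENNReal.tsum_le_tsum fun π => ?_
        calc _ ≤ ∑' w, (ind (π ∈ mn (S'.Esc 0 (2 * l))) * Q z (cyl π) *
              (ind (S.Valid S' l T z π w ∧ w ∈ S.Bl Q 0 l T) * Q 0 (cyl w)) +
              ind (π ∈ mn (S'.Esc 0 (2 * l)) ∧ ∃ u ∈ S'.Bl Q z l T, u <+: π) * Q z (cyl π) *
              (ind (S.Valid S' l T z π w) * Q 0 (cyl w))) := by
              refine ENNReal.tsum_le_tsum fun w => ind_mul_le fun ⟨h, hb⟩ => ?_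
              have hd := h.deep hh
              have ⟨h1, h2, h3, h7, _, u, h4, h5, h6⟩ := h
              have h8 : S.ht w + S'.ht u = S.h z := by simp [ht, hh, h6]
              rcases esc_disj hh hQ (pos v w) (h8.trans_le h7) with h9 | h9
              · rw [ind_pos h1, ind_pos ⟨h, hd, by simpa using h9⟩]
                exact le_add_right (le_of_eq (by ring))
              · have h10 : S'.Strip T u := by
                  refine fun u' hu' => ⟨by simpa using h1.1.1 u' (hu'.trans h4), ?_⟩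
                  have := mn_esc_le h1 (hu'.trans h4) fun h => h5 (pfx_antisymm h4 (h ▸ hu'))
                  linarith
                have h11 : u ∈ S'.Bl Q z l T := ⟨⟨h10, by linarith⟩, h6 ▸ h9⟩
                rw [ind_pos h, ind_pos (p := _ ∧ _) ⟨h1, u, h11, h4⟩]
                exact le_add_left (le_of_eq (by ring))
          _ ≤ _ := by
              rw [ENNReal.tsum_add, ENNReal.tsum_mul_left, ENNReal.tsum_mul_left]
              refine add_le_add (mul_le_mul_right ?_ _) (mul_le_of_le_one_right' ?_)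
              · exact sum_le_meas _ _ _ _ (fun _ _ _ h h' => h.1.unique h'.1)
                  (fun _ _ => measurableSet_cyl _) fun w h => cyl_subset_opn h.2 List.prefix_rfl
              · exact (sum_le_meas _ _ _ univ (fun _ _ _ h h' => h.unique h')
                  (fun _ _ => measurableSet_cyl _) fun w h => subset_univ _).trans prob_le_one
    _ ≤ Q 0 (opn (S.Bl Q 0 l T)) + Q z (opn (S'.Bl Q z l T)) := by
        rw [ENNReal.tsum_add, ENNReal.tsum_mul_right, ← meas_opn]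
        refine add_le_add (mul_le_of_le_one_left' prob_le_one) ?_
        exact sum_le_meas _ _ _ _ (fun _ _ _ h h' => mn_cyl_eq h.1 h'.1)
          (fun _ _ => measurableSet_cyl _) fun π ⟨_, u, hu, h⟩ => cyl_subset_opn hu h
    _ ≤ _ := add_le_add (blame hQ 0) (blame hQ z)

theorem low1 (hh : ∀ x, S'.h x = -S.h x) (hQ : Mk v Q) (z : G) (ζ : ℕ → σ) :
    ∑' π, ind (∃ w, ζ ∈ cyl w ∧ S.Valid S' l T z π w ∧ S.h z - S.ht w ≤ l) * Q z (cyl π) ≤
      S.Th Q l T ζ := by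
  have := hQ.prob z
  let U : Set (List σ) := {u | ∃ w, ζ ∈ cyl w ∧ S.Deep l T w ∧ pos v w = z + pos v u ∧
    S.h z - S.ht w ≤ l}
  refine (sum_le_meas _ _ _ {ξ | ∃ u, u ∈ mn U ∧ ξ ∈ aft u (opn (S.Drop l T (S.h z + S.ht u)))}
    (fun _ _ _ ⟨_, _, h, _⟩ ⟨_, _, h', _⟩ => mn_cyl_eq h.1 h'.1)
    (fun _ _ => measurableSet_cyl _) ?_).trans ((meas_le_sum _ _ _ _ fun _ h => h).trans ?_)
  · rintro π ⟨w, h1, h2, h3⟩ ξ hξ
    have ⟨h4, _, _, h5, _, u, h6, _, h7⟩ := h2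
    obtain ⟨u0, h8, h9⟩ := exists_mn (A := U) (w := u) ⟨w, h1, h2.deep hh, h7, h3⟩
    obtain ⟨r, rfl⟩ := h9.trans h6
    refine ⟨u0, h8, mem_aft_opn.2 ⟨r, ⟨fun u' hu' => ?_, ?_⟩, hξ⟩⟩
    · have := h4.1.1 (u0 ++ u') ((List.prefix_append_right_inj u0).2 hu')
      simp only [ht, hh, pos_append, map_add] at this ⊢
      linarith
    · obtain ⟨w', -, -, h10, h11⟩ := h8.1
      have := h4.1.2
      simp only [ht, hh, pos_append, map_add, h10] at this h11 ⊢
      linarith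
  · calc _ ≤ ∑' u, ind (u ∈ mn U) * Q z (cyl u) * S.Th Q l T ζ := by
          refine ENNReal.tsum_le_tsum fun u => ?_
          rw [mul_assoc]
          refine ind_mul_le_ind_mul fun hu => ⟨hu, ?_⟩
          rw [hQ.markov _ _ _ (measurableSet_opn _)]
          obtain ⟨w, h1, h2, h3, -⟩ := hu.1
          refine mul_le_mul_right (le_iSup₂_of_le w ⟨h2, h1⟩ (le_of_eq ?_)) _
          simp [ht, h3]
      _ ≤ _ := by
          rw [ENNReal.tsum_mul_right, ← meas_opn]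
          exact mul_le_of_le_one_left' prob_le_one

theorem low2 (hQ : Mk v Q) (J : ℕ) :
    ∫⁻ ζ, S.Th Q l T ζ ∂Q 0 ≤ 2⁻¹ ^ J + 2 * J * Q 0 (opn (S.Turn l T)) := by
  have := hQ.prob 0
  let W : ℝ≥0∞ → Set (List σ) := fun a =>
    {w | S.Deep l T w ∧ a < Q (0 + pos v w) (opn (S.Drop l T (S.ht w)))}
  have h1 : ∀ a, a * Q 0 (opn (W a)) ≤ Q 0 (opn (S.Turn l T)) := by
    intro a
    refine le_trans ?_ (sum_mn_aft (Q 0) (W a) (fun w => opn (S.Drop l T (S.ht w))) _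
      (fun _ _ => measurableSet_opn _) fun w hw ζ hζ => ?_)
    · rw [meas_opn, ← ENNReal.tsum_mul_left]
      refine ENNReal.tsum_le_tsum fun w => ?_
      rw [mul_left_comm]
      refine ind_mul_le_ind_mul fun hw => ⟨hw, ?_⟩
      rw [hQ.markov _ _ _ (measurableSet_opn _), mul_comm]
      exact mul_le_mul_right hw.1.2.le _
    · obtain ⟨r, hr, h⟩ := mem_aft_opn.1 hζ
      exact ⟨_, ⟨w, r, hw.1.1, hr, rfl⟩, h⟩
  calc _ ≤ ∫⁻ ζ, 2⁻¹ ^ J + ∑ j ∈ Finset.range J,
        2 ^ (j + 1) * 2⁻¹ ^ J * ind (ζ ∈ opn (W (2 ^ j * 2⁻¹ ^ J))) ∂Q 0 := by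
        refine lintegral_mono fun ζ => (dyadic (r := 2⁻¹ ^ J) J ?_).trans ?_
        · rw [← mul_pow, ENNReal.mul_inv_cancel (by simp) (by simp), one_pow]
          refine iSup₂_le fun w _ => ?_
          have := hQ.prob (0 + pos v w)
          exact prob_le_one
        · gcongr with j
          refine ind_mono fun h => ?_
          simp only [Th, lt_iSup_iff] at h
          obtain ⟨w, hw, h⟩ := h
          exact ⟨w, ⟨hw.1, h⟩, hw.2⟩
    _ ≤ _ := by
        have hm := fun a => measurable_ind (measurableSet_opn (W a))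
        rw [lintegral_add_left measurable_const, lintegral_finsetSum _ fun j _ =>
          (hm _).const_mul _]
        simp only [lintegral_const, measure_univ, mul_one]
        gcongr
        refine (Finset.sum_le_sum (g := fun _ => 2 * Q 0 (opn (S.Turn l T))) fun j _ => ?_).trans
          (le_of_eq (by simp; ring))
        rw [lintegral_const_mul _ (hm _), lintegral_ind _ (measurableSet_opn _), pow_succ]
        exact le_trans (le_of_eq (by ring)) (mul_le_mul_right (h1 (2 ^ j * 2⁻¹ ^ J)) 2)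

omit [DiscreteMeasurableSpace σ] [Countable σ] in
theorem sum_vst (N : ℕ) (A : ℝ≥0∞) (ζ : ℕ → σ) :
    ∑' z, ⨆ n, ind (S.Xi N (pre n ζ) ≤ A) * S.vs N (pre n ζ) z ≤ A := by
  rw [ENNReal.tsum_eq_iSup_sum]
  refine iSup_le fun s => ?_
  rw [ENNReal.finsetSum_iSup]
  · refine iSup_le fun n => ?_
    rw [← Finset.mul_sum]
    exact ind_mul_le fun h => (ENNReal.sum_le_tsum s).trans h
  · intro i j
    wlog hij : i ≤ j generalizing i j
    · obtain ⟨k, hk⟩ := this j i (le_of_not_ge hij)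
      exact ⟨k, fun a => (hk a).symm⟩
    by_cases h : S.Xi N (pre j ζ) ≤ A
    · exact ⟨j, fun a => ⟨ind_mul_le_ind_mul fun _ => ⟨h, vs_mono (pre_pfx hij ζ) a⟩, le_rfl⟩⟩
    · exact ⟨i, fun a => ⟨le_rfl, by simp [ind_neg h]⟩⟩

theorem low3 [Countable G] (hh : ∀ x, S'.h x = -S.h x) (hQ : Mk v Q) (N J : ℕ) {A : ℝ≥0∞}
    (hA : A ≠ ∞) :
    ∑' i : G × List σ × List σ, ind ((S.Valid S' l T i.1 i.2.1 i.2.2 ∧ S.h i.1 - S.ht i.2.2 ≤ l) ∧
      S.Xi N i.2.2 ≤ A) * (S.V N i.2.2 i.1 / S.q i.2.2) * (Q 0 (cyl i.2.2) * Q i.1 (cyl i.2.1)) ≤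
      A * (2⁻¹ ^ J + 2 * J * Q 0 (opn (S.Turn l T))) := by
  have := hQ.prob 0
  refine le_trans ?_ (mul_le_mul_right (low2 hQ J) A)
  rw [← lintegral_const_mul' A _ hA]
  have hm := fun w : List σ => measurable_ind (measurableSet_cyl w)
  calc _ = ∑' i : G × List σ × List σ, ∫⁻ ζ, ind ((S.Valid S' l T i.1 i.2.1 i.2.2 ∧
          S.h i.1 - S.ht i.2.2 ≤ l) ∧ S.Xi N i.2.2 ≤ A) * (S.V N i.2.2 i.1 / S.q i.2.2) *
          Q i.1 (cyl i.2.1) * ind (ζ ∈ cyl i.2.2) ∂Q 0 := by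
        refine tsum_congr fun i => ?_
        rw [lintegral_const_mul _ (hm _), lintegral_ind _ (measurableSet_cyl _)]
        ring
    _ ≤ _ := by
        rw [← lintegral_tsum fun i => ((hm _).const_mul _).aemeasurable]
        refine lintegral_mono fun ζ => ?_
        refine le_trans ?_ (mul_le_mul_left (sum_vst (S := S) N A ζ) _)
        rw [ENNReal.tsum_prod', ← ENNReal.tsum_mul_right]
        refine ENNReal.tsum_le_tsum fun z => ?_
        refine le_trans ?_ (mul_le_mul_right (low1 hh hQ z ζ) _)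
        rw [ENNReal.tsum_prod', ← ENNReal.tsum_mul_left]
        refine ENNReal.tsum_le_tsum fun π => ?_
        refine le_trans (le_of_eq (tsum_congr fun w => ?_)) (tsum_ind_mul_le
          (fun w => ((S.Valid S' l T z π w ∧ S.h z - S.ht w ≤ l) ∧ S.Xi N w ≤ A) ∧ ζ ∈ cyl w)
          (fun w w' h h' => h.1.1.1.unique h'.1.1.1 h.2 h'.2)
          (fun w => S.V N w z / S.q w * Q z (cyl π)) _ fun w hw => ?_)
        · rw [ind_and _ (ζ ∈ _)]; ring
        · rw [ind_pos ⟨w, hw.2, hw.1.1⟩, one_mul]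
          refine mul_le_mul_left (le_iSup_of_le w.length ?_) _
          rw [mem_cyl.1 hw.2, ind_pos hw.1.2, one_mul]
          exact le_iSup₂_of_le w List.prefix_rfl le_rfl

end Sys

end Vale.Agent.P147
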