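import Vale.Agent.P147.Trial

open MeasureTheory Set
open scoped ENNReal

namespace Vale.Agent.P147

theorem exists_nat_ge_mul {a ε : ℝ≥0∞} (ha : a ≠ ∞) (hε : ε ≠ 0) :
    ∃ n : ℕ, 0 < n ∧ a ≤ n * ε := by
  obtain ⟨n, hn⟩ := ENNReal.exists_nat_mul_gt hε ha
  refine ⟨n + 1, by omega, hn.le.trans ?_⟩
  gcongr; omega

theorem cancel_le {a x y : ℝ≥0∞} (h0 : a ≠ 0) (ht : a ≠ ∞) (h : a * x ≤ a * y) : x ≤ y :=
  (ENNReal.mul_le_mul_iff_right h0 ht).1 h

theorem mul_tsum_ind_le (M : ℕ) (x : ℝ) :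
    (M : ℝ≥0∞) * ∑' k : ℕ, ind (((M * (k + 1) : ℕ) : ℝ) < x) ≤ ENNReal.ofReal x := by
  rw [ENNReal.tsum_eq_iSup_nat, ENNReal.mul_iSup]
  refine iSup_le fun n => ?_
  induction n with
  | zero => simp
  | succ n ih =>
    by_cases h : ((M * (n + 1) : ℕ) : ℝ) < x
    · refine le_trans ?_ (ENNReal.ofReal_le_ofReal h.le)
      rw [ENNReal.ofReal_natCast]
      calc (M : ℝ≥0∞) * ∑ k ∈ Finset.range (n + 1), ind (((M * (k + 1) : ℕ) : ℝ) < x)
          ≤ M * ∑ k ∈ Finset.range (n + 1), 1 := by gcongr; exact ind_le_one _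
        _ = _ := by simp
    · rwa [Finset.sum_range_succ, ind_neg h, add_zero]

theorem nat_le_mul_tsum (x a : ℕ) (ha : 0 < a) :
    (x : ℝ≥0∞) ≤ a * ∑' j : ℕ, ind (a * j < x) := by
  have h1 := Sys.ofReal_le_tsum ((x : ℝ) / a)
  have ha' : (0 : ℝ) < a := by exact_mod_cast ha
  have h2 : ∀ j : ℕ, ((j : ℝ) < (x : ℝ) / a) ↔ a * j < x := by
    intro j
    rw [lt_div_iff₀ ha', mul_comm]; norm_cast
  simp only [h2] at h1
  refine le_trans (le_of_eq ?_) (mul_le_mul_right h1 _)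
  rw [← ENNReal.ofReal_natCast a, ← ENNReal.ofReal_mul ha'.le, mul_div_cancel₀ _ ha'.ne',
    ENNReal.ofReal_natCast]

theorem tsum_half : ∑' j : ℕ, (2⁻¹ : ℝ≥0∞) ^ j = 2 := by
  rw [ENNReal.tsum_geometric, ENNReal.one_sub_inv_two, inv_inv]

theorem two_pow_mul_le {n : ℕ} {x y : ℝ≥0∞} (h : 2 ^ n * x ≤ y) : x ≤ y * 2⁻¹ ^ n := by
  refine cancel_le (a := 2 ^ n) (by simp) (by simp) ?_
  rw [mul_left_comm, ← mul_pow, ENNReal.mul_inv_cancel (by simp) (by simp)]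
  simpa using h

variable {σ G : Type} [AddCommGroup G] [MeasurableSpace σ] {v : σ → G}

namespace Tr

variable {S : Sys v} (T : Tr S)

def ConeP (s k : ℝ) : Set (List σ) :=
  {w | (∀ u, u <+: w → 0 ≤ S.ht u ∧ T.ρ (pos v u) ≤ s * (1 + S.ht u)) ∧ k < S.ht w}

variable {T}

theorem cone_cases {N i J M : ℕ} (hJ : 2 * (2 * M + 1) ≤ 2 ^ J) {s : ℝ} (hs : 0 ≤ s) {η : List σ}
    (hη : η ∈ S.L N) : (∃ u ∈ T.ConeP s (2 ^ i), u <+: η) ∨ S.ht η ≤ (2 ^ i : ℕ) ∨
      (∃ u ∈ S.LB fun a H => ((M * (⌈a⌉₊ + 1) : ℕ) : ℝ) < H, u <+: η) ∨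
      ∃ j ∈ Finset.range (i + 2), ∃ u ∈ T.Ext (2 ^ (j + J)) (s * 2 ^ j), u <+: η := by
  by_contra hcon
  simp only [not_or, not_exists, not_and, not_le] at hcon
  obtain ⟨h1, h2, h3, h4⟩ := hcon
  have hl := Sys.lad_of_L hη
  push_cast at h2
  obtain ⟨w, hw, hwη⟩ := exists_mn (A := S.Esc 0 (2 ^ i)) (w := η)
    ⟨fun u hu => by simpa using hl.1 u hu, by simpa using h2⟩
  refine h1 w ⟨fun u hu => ?_, by simpa using hw.1.2⟩ hwη
  have huη := hu.trans hwη
  have h0 := hl.1 u huη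
  refine ⟨h0, ?_⟩
  have h5 : S.ht u ≤ 2 ^ i + 1 := by
    have := Sys.mn_esc_top hw (by positivity)
    have := (Sys.mn_esc_lad hw).2.le hu
    linarith
  obtain ⟨j, hj1, hj2⟩ := exists_nat_pow_near (x := 1 + S.ht u) (y := 2) (by linarith) (by norm_num)
  have hj : j < i + 2 := by
    have : (2 : ℝ) ^ j < 2 ^ (i + 2) := by
      have : (1 : ℝ) ≤ 2 ^ i := one_le_pow₀ (by norm_num)
      rw [pow_add]; linarith
    exact (pow_lt_pow_iff_right₀ (by norm_num)).1 this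
  by_contra h6
  refine h4 j (Finset.mem_range.2 hj) u ⟨fun u' hu' => ⟨hl.1 u' (hu'.trans huη), ?_⟩, ?_⟩ huη
  · have hJ' : (2 * (2 * M + 1) : ℝ) ≤ 2 ^ J := by exact_mod_cast hJ
    have hM : (0 : ℝ) ≤ M := by positivity
    have h7 : S.ht u' ≤ (2 * M + 1) * (1 + S.ht u) := by
      by_cases h8 : S.ht u < S.ht u'
      · obtain ⟨k, η0, b, h9, h10, h11, h12, h13⟩ := Sys.long_block hη huη hu' h8
        have h14 : ¬ ((M * (⌈S.ht η0⌉₊ + 1) : ℕ) : ℝ) < S.ht b :=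
          fun h => h3 (η0 ++ b) ⟨(k, η0, b), ⟨h9, h10, h⟩, rfl⟩ h11
        have h15 := Nat.ceil_lt_add_one (Sys.lad_of_L h9).nonneg
        push_cast at h14
        nlinarith
      · nlinarith
    rw [pow_add]
    rw [pow_succ] at hj2
    have : (0 : ℝ) < 2 ^ j := by positivity
    nlinarith
  · have := mul_le_mul_of_nonneg_left hj1 hs
    linarith

variable [DiscreteMeasurableSpace σ] [Countable σ]

theorem κ_coneP (s k : ℝ) : S.κ * S.P (opn (T.ConeP s k)) ≤ T.β s k := by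
  rw [Sys.κ, Sys.q, ← S.ann.aft_opn _ _ fun r hr =>
    Sys.block_es.1.2.disj fun u hu => (hr.1 u hu).1]
  refine measure_mono fun ζ hζ => ?_
  obtain ⟨r, hr, h⟩ := mem_aft_opn.1 hζ
  refine ⟨_, ⟨fun u hu => ?_, ?_⟩, h⟩
  · rcases List.prefix_cons_iff.1 hu with rfl | ⟨t, rfl, h⟩
    · simp [T.zero]
    · have h1 := hr.1 t h
      have h2 := T.add (v S.es) (pos v t)
      rw [Sys.ht_cons, S.h_es, pos_cons]
      rw [T.es] at h2
      constructor <;> linarith [h1.1, h1.2]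
  · have := hr.2
    simp only [Sys.ht_append, Sys.ht_es]; linarith

theorem cone_lower (hc : S.c ≠ 0) {i J M : ℕ} (hJ : 2 * (2 * M + 1) ≤ 2 ^ J) {s : ℝ} (hs : 0 ≤ s)
    (N : ℕ) : S.c ≤ S.P (opn (T.ConeP s (2 ^ i))) + (S.E N (fun η => ind (S.ht η ≤ (2 ^ i : ℕ))) +
      (S.P (opn (S.LB fun a H => ((M * (⌈a⌉₊ + 1) : ℕ) : ℝ) < H)) +
      ∑ j ∈ Finset.range (i + 2), S.P (opn (T.Ext (2 ^ (j + J)) (s * 2 ^ j))))) := by
  have h1 : 1 ≤ S.E N (fun η => ind (∃ u ∈ T.ConeP s (2 ^ i), u <+: η)) +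
      (S.E N (fun η => ind (S.ht η ≤ (2 ^ i : ℕ))) +
      (S.E N (fun η => ind (∃ u ∈ S.LB fun a H => ((M * (⌈a⌉₊ + 1) : ℕ) : ℝ) < H, u <+: η)) +
      ∑ j ∈ Finset.range (i + 2),
        S.E N (fun η => ind (∃ u ∈ T.Ext (2 ^ (j + J)) (s * 2 ^ j), u <+: η)))) := by
    rw [← Sys.E_sum, ← Sys.E_add, ← Sys.E_add, ← Sys.E_add, ← Sys.E_const hc N 1]
    refine Sys.E_mono fun η hη => ?_
    rcases cone_cases (T := T) (i := i) hJ hs hη with h | h | h | ⟨j, hj, h⟩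
    · rw [ind_pos h]; exact le_self_add
    · rw [ind_pos h]; exact le_add_left le_self_add
    · rw [ind_pos h]; exact le_add_left (le_add_left le_self_add)
    · refine le_add_left (le_add_left (le_add_left ?_))
      refine le_trans ?_ (Finset.single_le_sum (fun _ _ => zero_le) hj)
      rw [ind_pos h]
  have h2 := mul_le_mul_right h1 S.c
  rw [mul_one, mul_add, mul_add, mul_add, Finset.mul_sum] at h2
  refine h2.trans ?_
  gcongr
  · exact Sys.R2_opn _ _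
  · exact mul_le_of_le_one_left' S.c_le_one
  · exact Sys.R2_opn _ _
  · exact Sys.R2_opn _ _

theorem big_le (hc : S.c ≠ 0) (M : ℕ) :
    M * S.κ * S.P (opn (S.LB fun a H => ((M * (⌈a⌉₊ + 1) : ℕ) : ℝ) < H)) ≤ S.mb := by
  refine le_trans (mul_le_mul_right (Sys.meas_LB _) _) ?_
  have := Sys.sum_Uc (S := S) fun k => S.Gb ((M * (k + 1) : ℕ) : ℝ)
  unfold Sys.Gb at this
  rw [this, ← ENNReal.tsum_mul_left]
  calc _ ≤ ∑' k : ℕ, M * S.E 1 fun b => ind (((M * (k + 1) : ℕ) : ℝ) < S.ht b) := by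
        refine ENNReal.tsum_le_tsum fun k => ?_
        rw [mul_assoc, ← mul_assoc S.κ]
        gcongr
        exact mul_le_of_le_one_left' (Sys.κ_Uc hc k)
    _ ≤ _ := by
        rw [ENNReal.tsum_mul_left, ← Sys.E_tsum, ← Sys.E_const_mul]
        exact Sys.E_mono fun b _ => mul_tsum_ind_le M _

theorem cone_bound (hc : S.c ≠ 0) :
    ∃ (b : ℕ) (β0 : ℝ≥0∞), β0 ≠ 0 ∧ ∀ i : ℕ, β0 ≤ T.β ((2 ^ b) ^ i) (2 ^ i) := by
  set δ := S.c / 8 with hδ
  have hδ0 : δ ≠ 0 := by simp [hδ, hc]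
  have hδc : S.c = 8 * δ := by rw [hδ, ENNReal.mul_div_cancel (by simp) (by simp)]
  have hδt : δ ≠ ∞ := by simp [hδ, ENNReal.div_eq_top, S.c_ne_top]
  have hδ1 : δ ≤ 1 := by
    refine le_trans ?_ S.c_le_one
    rw [hδc]; exact le_mul_of_one_le_left' (by norm_num)
  have hκδ : S.κ * δ ≠ 0 := mul_ne_zero S.κ_ne hδ0
  obtain ⟨M, hM0, hM⟩ := exists_nat_ge_mul (Sys.mb_ne_top hc) hκδ
  obtain ⟨J, hJ⟩ : ∃ J, 2 * (2 * M + 1) ≤ 2 ^ J := ⟨_, Nat.lt_two_pow_self.le⟩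
  set β0 := S.κ ^ 2 * δ with hβ0
  have hβ00 : β0 ≠ 0 := mul_ne_zero (pow_ne_zero _ S.κ_ne) hδ0
  have hβ01 : β0 ≤ 1 := mul_le_one' (pow_le_one' S.κ_le_one _) hδ1
  set β1 := β0 ^ 2 ^ (J + 2) with hβ1
  have hβ10 : β1 ≠ 0 := pow_ne_zero _ hβ00
  have hβ1t : β1 ≠ ∞ := ne_top_of_le_ne_top ENNReal.one_ne_top (pow_le_one' hβ01 _)
  obtain ⟨n0, hn00, hn0⟩ := exists_nat_ge_mul ENNReal.one_ne_top (mul_ne_zero hβ10 hδ0)
  obtain ⟨b0, hb0⟩ : ∃ b0, n0 ≤ 2 ^ b0 := ⟨_, Nat.lt_two_pow_self.le⟩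
  refine ⟨b0 + J + 4, β0, hβ00, fun i => ?_⟩
  induction i using Nat.strong_induction_on with
  | _ i ih =>
    rcases Nat.eq_zero_or_pos i with rfl | hi
    · simp only [pow_zero]
      exact le_trans (mul_le_of_le_one_right' hδ1) β_base
    set s : ℝ := (2 ^ (b0 + J + 4)) ^ i with hs
    obtain ⟨N, hN0, hN⟩ := exists_nat_ge_mul (a := ((2 ^ i : ℕ) : ℝ≥0∞) + 1) (by simp) hκδ
    have h1 := cone_lower (T := T) hc (i := i) hJ (s := s) (by positivity) N
    have h2 : S.E N (fun η => ind (S.ht η ≤ (2 ^ i : ℕ))) ≤ δ := by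
      refine cancel_le (a := S.κ * N) (by simp [S.κ_ne, hN0.ne']) (by
        simp [ENNReal.mul_eq_top, S.κ_ne_top]) ?_
      rw [mul_assoc]
      refine (mul_le_mul_right (Sys.mul_E_le hc N _) _).trans ((Sys.κ_Ule hc _).trans
        (hN.trans (le_of_eq (by ring))))
    have h3 : S.P (opn (S.LB fun a H => ((M * (⌈a⌉₊ + 1) : ℕ) : ℝ) < H)) ≤ δ := by
      refine cancel_le (a := M * S.κ) (by simp [S.κ_ne, hM0.ne']) (by
        simp [ENNReal.mul_eq_top, S.κ_ne_top]) ?_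
      exact (big_le hc M).trans (hM.trans (le_of_eq (by ring)))
    have h4 : ∀ j ∈ Finset.range (i + 2), S.P (opn (T.Ext (2 ^ (j + J)) (s * 2 ^ j))) ≤
        δ * 2⁻¹ ^ (i + 2 - 1 - j) := by
      intro j hj
      have hj := Finset.mem_range.1 hj
      set i' := j - 2 with hi'
      set s' : ℝ := (2 ^ (b0 + J + 4)) ^ i' with hs'
      have h5 : β1 ≤ T.β s' (2 ^ (j + J)) := by
        obtain ⟨n, hn⟩ : ∃ n, 2 ^ (j + J - i') = n + 1 :=
          ⟨_, (Nat.succ_pred_eq_of_pos (by positivity)).symm⟩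
        have h6 := β_pow (T := T) s' (2 ^ i') n
        rw [← hn] at h6
        have h7 : ((2 ^ (j + J - i') : ℕ) : ℝ) * 2 ^ i' = 2 ^ (j + J) := by
          push_cast; rw [← pow_add]; congr 1; omega
        rw [h7] at h6
        refine le_trans ?_ h6
        refine le_trans (pow_le_pow_right_of_le_one' hβ01 (Nat.pow_le_pow_right (by norm_num)
          (by omega : j + J - i' ≤ J + 2))) ?_
        gcongr
        exact ih i' (by omega)
      have h6 := trial_bound (T := T) (s := s') (k := 2 ^ (j + J)) (by positivity) (by positivity)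
        (n0 * 2 ^ (i + 2 - 1 - j))
      have h7 : ((n0 * 2 ^ (i + 2 - 1 - j) : ℕ) : ℝ) * (2 * s' * 2 ^ (j + J) + 1) +
          s' * 2 ^ (j + J) ≤ s * 2 ^ j := by
        have h8 : (1 : ℝ) ≤ s' * 2 ^ (j + J) :=
          one_le_mul_of_one_le_of_one_le (one_le_pow₀ (one_le_pow₀ (by norm_num)))
            (one_le_pow₀ (by norm_num))
        have h9 : (1 : ℝ) ≤ ((n0 * 2 ^ (i + 2 - 1 - j) : ℕ) : ℝ) := by
          exact_mod_cast Nat.succ_le_of_lt (by positivity)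
        have h10 : ((n0 * 2 ^ (i + 2 - 1 - j) : ℕ) : ℝ) ≤ 2 ^ b0 * 2 ^ (i + 2 - 1 - j) := by
          push_cast; gcongr; exact_mod_cast hb0
        have h11 : 4 * (2 ^ b0 * 2 ^ (i + 2 - 1 - j)) * (s' * 2 ^ (j + J)) ≤ s * 2 ^ j := by
          rw [hs, hs', show (4 : ℝ) = 2 ^ 2 by norm_num, ← pow_mul, ← pow_mul]
          simp only [← pow_add]
          refine pow_le_pow_right₀ (by norm_num) ?_
          obtain ⟨e, he⟩ : ∃ e, i = i' + (e + 1) := ⟨i - i' - 1, by omega⟩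
          have : i + 2 - 1 - j ≤ e + 2 := by omega
          rw [he] at this ⊢
          nlinarith [Nat.zero_le (b0 * e), Nat.zero_le (J * e)]
        nlinarith
      refine two_pow_mul_le (cancel_le (a := β1 * n0) (by simp [hβ10, hn00.ne'])
        (by simp [ENNReal.mul_eq_top, hβ1t]) ?_)
      refine le_trans ?_ (h6.trans (hn0.trans (le_of_eq (by ring))))
      rw [← mul_assoc, mul_assoc β1]
      push_cast
      gcongr
      exact opn_mono fun w hw => ⟨w, ⟨hw.1, le_trans (by exact_mod_cast h7) hw.2⟩, List.prefix_rfl⟩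
    have h5 : ∑ j ∈ Finset.range (i + 2), S.P (opn (T.Ext (2 ^ (j + J)) (s * 2 ^ j))) ≤ δ * 2 := by
      refine (Finset.sum_le_sum h4).trans ?_
      rw [← Finset.mul_sum, Finset.sum_range_reflect (fun j => (2⁻¹ : ℝ≥0∞) ^ j)]
      exact mul_le_mul_right ((ENNReal.sum_le_tsum _).trans tsum_half.le) _
    have h6 : δ ≤ S.P (opn (T.ConeP s (2 ^ i))) := by
      have h7 := h1.trans (add_le_add le_rfl (add_le_add h2 (add_le_add h3 h5)))
      refine ENNReal.le_of_add_le_add_right (a := δ + (δ + δ * 2)) (by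
        simp [hδt, ENNReal.mul_eq_top]) (le_trans ?_ h7)
      rw [hδc, show δ + (δ + (δ + δ * 2)) = 5 * δ by ring]
      gcongr; norm_num
    refine le_trans ?_ (κ_coneP s _)
    rw [hβ0, sq, mul_assoc]
    gcongr
    exact (mul_le_of_le_one_left' S.κ_le_one).trans h6

theorem tail_bound (hc : S.c ≠ 0) : ∃ (a : ℕ) (C : ℝ≥0∞), 0 < a ∧ C ≠ ∞ ∧ ∀ j N : ℕ,
    2 ^ j * S.E N (fun η => ind (2 ^ (a * (j + 1)) ≤ S.ht η + T.ρ (pos v η))) ≤ N * S.mb + C := by
  obtain ⟨b, β0, h0, hβ⟩ := cone_bound (T := T) hc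
  refine ⟨b + 3, (S.c * β0)⁻¹, by omega, by simp [hc, h0], fun j N => ?_⟩
  set s : ℝ := (2 ^ b) ^ j with hs
  have h1 := trial_bound (T := T) (s := s) (k := 2 ^ j) (by positivity) (by positivity) (2 ^ j)
  set A := T.Ext (2 ^ j) (((2 ^ j : ℕ) : ℝ) * (2 * s * 2 ^ j + 1) + s * 2 ^ j)
  calc _ ≤ 2 ^ j * S.E N (fun η => ind (((2 ^ j : ℕ) : ℝ) < S.ht η) + ind (∃ u ∈ A, u <+: η)) := by
        gcongr
        refine Sys.E_mono fun η hη => le_trans (ind_mono fun h => ?_) (ind_or_le _ _)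
        have hl := Sys.lad_of_L hη
        rw [or_iff_not_imp_left, not_lt]
        intro h2
        push_cast at h2
        refine ⟨η, ⟨fun u hu => ⟨hl.1 u hu, (hl.2.le hu).trans h2⟩, ?_⟩, List.prefix_rfl⟩
        have h3 : (1 : ℝ) ≤ s := one_le_pow₀ (one_le_pow₀ (by norm_num))
        have h4 : (1 : ℝ) ≤ 2 ^ j := one_le_pow₀ (by norm_num)
        have h5 : 8 * (s * 2 ^ j * 2 ^ j) ≤ 2 ^ ((b + 3) * (j + 1)) := by
          rw [hs, show (8 : ℝ) = 2 ^ 3 by norm_num, ← pow_mul]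
          simp only [← pow_add]
          refine pow_le_pow_right₀ (by norm_num) ?_
          nlinarith [Nat.zero_le (b * j)]
        push_cast
        have h6 : (2 : ℝ) ^ j ≤ s * 2 ^ j := le_mul_of_one_le_left (by positivity) h3
        have h7 : s * 2 ^ j ≤ s * 2 ^ j * 2 ^ j := le_mul_of_one_le_right (by positivity) h4
        nlinarith
    _ ≤ _ := by
        rw [Sys.E_add, mul_add]
        refine add_le_add ?_ ?_
        · simpa using Sys.markov hc N (2 ^ j)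
        · rw [ENNReal.le_inv_iff_mul_le]
          refine le_trans ?_ h1
          have h2 := Sys.R2_opn (S := S) N A
          calc _ = β0 * 2 ^ j * (S.c * S.E N fun η => ind (∃ u ∈ A, u <+: η)) := by ring
            _ ≤ _ := by push_cast; gcongr; exact hβ j

theorem lev_bound (hc : S.c ≠ 0) (lev : G → ℕ)
    (hlev : ∀ z m, |S.h z| + T.ρ z < 2 ^ m → lev z ≤ m) :
    ∃ C : ℕ, ∀ i N : ℕ, N ≤ 2 ^ i → S.E N (fun η => lev (pos v η)) ≤ C * (i + 1) := by
  obtain ⟨a, C, ha, hC, h⟩ := tail_bound (T := T) hc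
  obtain ⟨C', -, hC'⟩ := exists_nat_ge_mul (a := (S.mb + C) * 2) (ε := 1)
    (by simp [ENNReal.mul_eq_top, hC, Sys.mb_ne_top hc]) one_ne_zero
  refine ⟨a + a * C', fun i N hN => ?_⟩
  calc _ ≤ S.E N (fun η => (a * (i + 1) : ℕ) + a * ∑' j : ℕ,
        ind (2 ^ (a * (i + j + 1)) ≤ S.ht η + T.ρ (pos v η))) := by
        refine Sys.E_mono fun η hη => ?_
        have h1 := nat_le_mul_tsum (lev (pos v η) - a * (i + 1)) a ha
        calc (lev (pos v η) : ℝ≥0∞) ≤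
            ((a * (i + 1) + (lev (pos v η) - a * (i + 1)) : ℕ) : ℝ≥0∞) := by
              exact_mod_cast le_add_tsub
          _ ≤ _ := by
            rw [Nat.cast_add]
            refine add_le_add le_rfl (h1.trans ?_)
            gcongr with j
            refine ind_mono fun h2 => not_lt.1 fun h3 => ?_
            have h4 := hlev (pos v η) (a * (i + j + 1)) (by
              rwa [show |S.h (pos v η)| = S.ht η from abs_of_nonneg (Sys.lad_of_L hη).nonneg])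
            have : a * (i + j + 1) = a * j + a * (i + 1) := by ring
            omega
    _ ≤ (a * (i + 1) : ℕ) + a * ∑' j : ℕ, (S.mb + C) * 2⁻¹ ^ j := by
        rw [Sys.E_add, Sys.E_const hc, Sys.E_const_mul, Sys.E_tsum]
        gcongr with j
        refine two_pow_mul_le (cancel_le (a := 2 ^ i) (by simp) (by simp) ?_)
        rw [← mul_assoc, ← pow_add]
        refine (h (i + j) N).trans ?_
        rw [mul_add]
        gcongr
        · exact_mod_cast hN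
        · exact le_mul_of_one_le_left' (one_le_pow₀ (by norm_num))
    _ ≤ _ := by
        rw [ENNReal.tsum_mul_left, tsum_half]
        push_cast
        rw [add_mul (a : ℝ≥0∞), mul_assoc]
        exact add_le_add le_rfl (mul_le_mul_right (hC'.trans (by gcongr; exact le_add_self)) _)

end Tr

end Vale.Agent.P147
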