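import Vale.Agent.P147.Main

open MeasureTheory Set
open scoped ENNReal

namespace Vale.Agent.P147

theorem numeric_contra {δ K : ℝ≥0∞} (t : ℕ → ℝ≥0∞) (hδ : δ ≠ 0) (hK : K ≠ ∞) (ht : ∑' i, t i ≠ ∞)
    (h : ∀ j : ℕ, δ ≤ ((j + 1 : ℕ) : ℝ≥0∞) * K * ∑ i ∈ Finset.Ico (2 ^ j) (2 ^ (j + 1)), t i) :
    False := by
  have h1 : ∑' j : ℕ, ∑ i ∈ Finset.Ico (2 ^ j) (2 ^ (j + 1)), t i ≤ ∑' i, t i := by
    rw [ENNReal.tsum_eq_iSup_nat]
    refine iSup_le fun n => le_trans (le_of_eq ?_) (ENNReal.sum_le_tsum (Finset.Ico 1 (2 ^ n)))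
    induction n with
    | zero => simp
    | succ n ih =>
      rw [Finset.sum_range_succ, ih, Finset.sum_Ico_consecutive _ Nat.one_le_two_pow
        (Nat.pow_le_pow_right (by norm_num) (Nat.le_succ n))]
  have h2 : ∑' j : ℕ, ((j + 1 : ℕ) : ℝ≥0∞)⁻¹ = ∞ := by
    by_contra h2
    have h3 := ENNReal.summable_toReal h2
    simp only [ENNReal.toReal_inv, ENNReal.toReal_natCast] at h3
    exact Real.not_summable_natCast_inv ((summable_nat_add_iff 1).1 h3)
  have h3 : δ * ∑' j : ℕ, ((j + 1 : ℕ) : ℝ≥0∞)⁻¹ ≤ K * ∑' i, t i := by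
    refine le_trans ?_ (mul_le_mul_right h1 K)
    rw [← ENNReal.tsum_mul_left, ← ENNReal.tsum_mul_left]
    refine ENNReal.tsum_le_tsum fun j => cancel_le (a := ((j + 1 : ℕ) : ℝ≥0∞)) (by simp) (by simp) ?_
    rw [mul_left_comm, ENNReal.mul_inv_cancel (by simp) (by simp), mul_one, ← mul_assoc]
    exact h j
  rw [h2, ENNReal.mul_top hδ, top_le_iff] at h3
  exact ENNReal.mul_ne_top hK ht h3

theorem geom_ind (l : ℕ → ℕ) (hl : ∀ i, 2 * l i ≤ l (i + 1)) (x : ℝ) :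
    ∑' i, (l i : ℝ≥0∞) * ind ((l i : ℝ) < x) ≤ 2 * ENNReal.ofReal x := by
  have h1 : ∀ n, ∑ i ∈ Finset.range n, l i ≤ l n := by
    intro n
    induction n with
    | zero => simp
    | succ n ih => rw [Finset.sum_range_succ]; have := hl n; omega
  rw [ENNReal.tsum_eq_iSup_nat]
  refine iSup_le fun n => ?_
  induction n with
  | zero => simp
  | succ n ih =>
    by_cases h : (l n : ℝ) < x
    · calc _ ≤ ∑ i ∈ Finset.range (n + 1), (l i : ℝ≥0∞) :=
            Finset.sum_le_sum fun i _ => mul_le_of_le_one_right' (ind_le_one _)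
        _ ≤ 2 * (l n : ℝ≥0∞) := by
            have := h1 n
            rw [Finset.sum_range_succ]
            exact_mod_cast (by omega : ∑ i ∈ Finset.range n, l i + l n ≤ 2 * l n)
        _ ≤ _ := by
            rw [← ENNReal.ofReal_natCast]
            exact mul_le_mul_right (ENNReal.ofReal_le_ofReal h.le) _
    · rwa [Finset.sum_range_succ, ind_neg h, mul_zero, add_zero]

variable {σ G : Type} [AddCommGroup G] [MeasurableSpace σ] {v : σ → G}

namespace Sys

variable {S S' : Sys v} [DiscreteMeasurableSpace σ] [Countable σ]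

theorem sum_dif (l : ℕ → ℝ) (hl : Monotone l) : ∑' i, S.P (S.Dif (l i) (l (i + 1))) ≤ 1 := by
  have := sum_le_meas S.P (fun _ => True) (fun i => S.Dif (l i) (l (i + 1))) univ ?_
    (fun _ _ => measurableSet_dif) fun _ _ => subset_univ _
  · simpa using this
  · intro i j ζ _ _ h1 h2
    by_contra hne
    rcases lt_or_gt_of_ne hne with h | h
    · exact h1.2 (esc_anti (hl h) h2.1)
    · exact h2.2 (esc_anti (hl h) h1.1)

theorem sum_UG (hc : S.c ≠ 0) (l : ℕ → ℕ) (M : ℕ) (hl : ∀ i, 2 * l i ≤ l (i + 1))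
    (hl' : ∀ i, l (i + 1) + 1 ≤ M * l i) : ∑' i, S.Ule (l (i + 1)) * S.Gb (l i) ≠ ∞ := by
  have h1 : S.κ * ∑' i, S.Ule (l (i + 1)) * S.Gb (l i) ≤ M * (2 * S.mb) := by
    calc _ ≤ ∑' i, M * (l i * S.Gb (l i)) := by
          rw [← ENNReal.tsum_mul_left]
          refine ENNReal.tsum_le_tsum fun i => ?_
          rw [← mul_assoc, ← mul_assoc]
          refine mul_le_mul_left ((κ_Ule hc _).trans ?_) _
          exact_mod_cast hl' i
      _ ≤ _ := by
          rw [ENNReal.tsum_mul_left]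
          refine mul_le_mul_right ?_ _
          simp only [Gb, mb, ← E_const_mul, ← E_tsum]
          exact E_mono fun b _ => geom_ind l hl _
  intro h
  rw [h, ENNReal.mul_top S.κ_ne, top_le_iff] at h1
  simp [ENNReal.mul_eq_top, mb_ne_top hc] at h1

theorem H_tele (hc : S.c ≠ 0) (N : ℕ → ℕ) (hN : Monotone N) (m n k : ℕ) :
    m * ∑ i ∈ Finset.Ico n (n + k), S.Pbad (N (i + 1) - N i) (N i) m + S.H (N n) ≤
      S.H (N (n + k)) + 2 * k := by
  induction k with
  | zero => simp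
  | succ k ih =>
    rw [← add_assoc, Finset.sum_Ico_succ_top (by omega), mul_add, add_right_comm]
    have h1 := info hc (N (n + k + 1) - N (n + k)) (N (n + k)) m
    rw [Nat.sub_add_cancel (hN (Nat.le_succ _))] at h1
    calc _ ≤ S.H (N (n + k)) + 2 * k + m * S.Pbad (N (n + k + 1) - N (n + k)) (N (n + k)) m := by
          gcongr
      _ = m * S.Pbad (N (n + k + 1) - N (n + k)) (N (n + k)) m + S.H (N (n + k)) + 2 * k := by ring
      _ ≤ S.H (N (n + k + 1)) + 2 + 2 * k := by gcongr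
      _ = _ := by push_cast; ring

variable [Countable G] {Ω : Type} [MeasurableSpace Ω] {Pe : Measure Ω}
  {Q : Ω → G → Measure (ℕ → σ)}

theorem no_both (hh : ∀ x, S'.h x = -S.h x) (hP : S'.P = S.P) (hE : EnvP v Pe Q S.P)
    (μ : G → ℕ) (hμ : ∑' z, (2⁻¹ : ℝ≥0∞) ^ μ z ≤ 1) (hc : S.c ≠ 0) (hc' : S'.c ≠ 0) {C : ℕ}
    (hC : ∀ i N : ℕ, N ≤ 2 ^ i → S.E N (fun η => μ (pos v η)) ≤ C * (i + 1)) : False := by
  set δ := S'.c / 8 with hδ
  have hδ0 : δ ≠ 0 := by simp [hδ, hc']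
  have hδc : S'.c = 8 * δ := by rw [hδ, ENNReal.mul_div_cancel (by simp) (by simp)]
  have hδt : δ ≠ ∞ := by simp [hδ, ENNReal.div_eq_top, S'.c_ne_top]
  have hκδ : S.κ * δ ≠ 0 := mul_ne_zero S.κ_ne hδ0
  have hcδ : S.c * δ ≠ 0 := mul_ne_zero hc hδ0
  obtain ⟨lam, hlam0, hlam⟩ := exists_nat_ge_mul (mb_ne_top hc) hδ0
  obtain ⟨b, hb0, hb⟩ := exists_nat_ge_mul (a := 4 * lam) (by simp [ENNReal.mul_eq_top]) hκδ
  obtain ⟨j0, -, hj0⟩ := exists_nat_ge_mul (a := S.c⁻¹) (ε := 1) (by simp [hc]) one_ne_zero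
  have hj0' : S.c⁻¹ ≤ 2 ^ j0 := by
    refine hj0.trans ?_
    rw [mul_one]; exact_mod_cast Nat.lt_two_pow_self.le
  obtain ⟨m, hm0, hm⟩ := exists_nat_ge_mul (a := (C * (2 * b + 1) + 4 : ℕ))
    (ENNReal.natCast_ne_top _) hδ0
  obtain ⟨A, hA0, hA⟩ := exists_nat_ge_mul (a := 2 ^ m) (by simp) hcδ
  obtain ⟨a, ha0, ha⟩ := exists_nat_ge_mul (a := (1 + 2 * (C * (2 * b + 1) + j0) : ℕ))
    (ENNReal.natCast_ne_top _) hcδ
  obtain ⟨J0, -, hJ0⟩ := exists_nat_ge_mul (a := a) (by simp) hδ0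
  have hJ0' : (a : ℝ≥0∞) * 2⁻¹ ^ J0 ≤ δ := by
    refine cancel_le (a := 2 ^ J0) (by simp) (by simp) ?_
    rw [mul_left_comm, ← mul_pow, ENNReal.mul_inv_cancel (by simp) (by simp), one_pow, mul_one]
    refine hJ0.trans (mul_le_mul_left ?_ _)
    exact_mod_cast Nat.lt_two_pow_self.le
  let N : ℕ → ℕ := fun i => 2 ^ (b * i)
  have hN0 : ∀ i, 0 < N i := fun i => by positivity
  have hNs : ∀ i, N (i + 1) = 2 ^ b * N i := fun i => by simp only [N]; ring
  have hb2 : 2 ≤ 2 ^ b := by simpa using Nat.pow_le_pow_right (by norm_num : 0 < 2) hb0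
  have hN : Monotone N := monotone_nat_of_le_succ fun i => by rw [hNs]; nlinarith [hN0 i]
  let l : ℕ → ℕ := fun i => lam * N i
  have hl0 : ∀ i, 0 < l i := fun i => Nat.mul_pos hlam0 (hN0 i)
  have hls : ∀ i, l (i + 1) = 2 ^ b * l i := fun i => by simp only [l, hNs]; ring
  have hlm : Monotone fun i => (l i : ℝ) := fun i j h =>
    Nat.cast_le.2 (Nat.mul_le_mul_left lam (hN h))
  let t : ℕ → ℝ≥0∞ := fun i => S.P (S.Dif (l i) (l (i + 1))) + S.P (S'.Dif (l i) (l (i + 1))) +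
    S.Ule (l (i + 1)) * S.Gb (l i)
  have ht : ∑' i, t i ≠ ∞ := by
    simp only [t, ENNReal.tsum_add]
    refine ENNReal.add_ne_top.2 ⟨ENNReal.add_ne_top.2 ⟨ne_top_of_le_ne_top ENNReal.one_ne_top
      (sum_dif _ hlm), ne_top_of_le_ne_top ENNReal.one_ne_top (hP ▸ sum_dif _ hlm)⟩,
      sum_UG hc l (2 ^ b + 1) (fun i => ?_) fun i => ?_⟩
    · rw [hls]; exact Nat.mul_le_mul_right _ hb2
    · rw [hls]; nlinarith [hl0 i]
  have h2 : ∀ i, S.E (N i) (fun η => ind ((l i : ℝ) < S.ht η)) ≤ δ := by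
    intro i
    refine cancel_le (a := l i) (by simp [(hl0 i).ne']) (by simp) ((markov hc _ _).trans ?_)
    simp only [l]; push_cast
    rw [mul_comm (lam : ℝ≥0∞), mul_assoc]
    exact mul_le_mul_right hlam _
  have h1 : ∀ i, S.E (N (i + 1)) (fun η => ind (S.ht η ≤ 3 * l i)) ≤ δ := by
    intro i
    refine cancel_le (a := S.κ * N (i + 1)) (by simp [S.κ_ne, (hN0 _).ne'])
      (by simp [ENNReal.mul_eq_top, S.κ_ne_top]) ?_
    have h3 := κ_Ule hc (3 * l i)
    push_cast at h3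
    rw [mul_assoc]
    refine (mul_le_mul_right (mul_E_le hc _ _) _).trans (h3.trans ?_)
    calc (3 * l i + 1 : ℝ≥0∞) ≤ 4 * lam * N i := by
          have := hl0 i
          exact_mod_cast (by simp only [l] at *; nlinarith : 3 * l i + 1 ≤ 4 * lam * N i)
      _ ≤ b * (S.κ * δ) * N i := by gcongr
      _ ≤ (2 ^ b : ℕ) * (S.κ * δ) * N i := by gcongr; exact Nat.lt_two_pow_self.le
      _ = _ := by rw [hNs]; push_cast; ring
  have h4 : ∀ N N', S.PX N N' A ≤ S.Pbad N N' m + δ := by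
    intro N N'
    refine cancel_le (a := S.c * A) (by simp [hc, hA0.ne'])
      (by simp [ENNReal.mul_eq_top, S.c_ne_top]) ((PX_bound hc N N' m A).trans ?_)
    rw [mul_add]
    exact add_le_add le_rfl (hA.trans (le_of_eq (by ring)))
  refine numeric_contra (K := (2 * A + 2 * a * (J0 + 1) : ℕ)) t hδ0 (ENNReal.natCast_ne_top _) ht
    fun j => ?_
  set n := 2 ^ j with hn
  have hn0 : 0 < n := by positivity
  have hE' : ∀ i, i ≤ 2 * n → S.E (N i) (fun η => μ (pos v η)) ≤ (C * (2 * b + 1) * n : ℕ) := by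
    intro i hi
    refine (hC (b * i) _ le_rfl).trans ?_
    have : b * i + 1 ≤ (2 * b + 1) * n := by nlinarith
    rw [mul_assoc]
    exact_mod_cast Nat.mul_le_mul_left C this
  have h5 : ∀ i, i ≤ 2 * n → S.E (N i) (fun η => ind (((a * n : ℕ) : ℝ≥0∞) < S.Xi (N i) η)) ≤ δ := by
    intro i hi
    refine cancel_le (a := S.c * (a * n : ℕ)) (by simp [hc, ha0.ne', hn0.ne'])
      (by simp [ENNReal.mul_eq_top, S.c_ne_top]) ?_
    rw [mul_assoc, ← E_const_mul]
    calc _ ≤ S.c * S.E (N i) (S.Xi (N i)) := by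
          refine mul_le_mul_right (E_mono fun η _ => ?_) _
          rw [mul_comm]; exact ind_mul_le le_of_lt
      _ ≤ 1 + 2 * ((C * (2 * b + 1) * n : ℕ) + j0) :=
          (Xi_bound μ hμ hc hj0' _).trans (by gcongr; exact hE' i hi)
      _ ≤ (1 + 2 * (C * (2 * b + 1) + j0) : ℕ) * n := by
          exact_mod_cast (by nlinarith : 1 + 2 * (C * (2 * b + 1) * n + j0) ≤
            (1 + 2 * (C * (2 * b + 1) + j0)) * n)
      _ ≤ _ := (mul_le_mul_left ha _).trans (le_of_eq (by push_cast; ring))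
  have h6 : ∀ i ∈ Finset.Ico n (n + n), 2 * δ ≤ S.Pbad (N (i + 1) - N i) (N i) m +
      n * ((j + 1 : ℕ) * (2 * A + 2 * a * (J0 + 1) : ℕ)) * t i := by
    intro i hi
    have h7 := main_ineq (l := l i) (T := l (i + 1)) hh hP hE (by positivity) hc
      (N (i + 1) - N i) (N i) (j + J0) A (A' := (a * n : ℕ)) (ENNReal.natCast_ne_top _)
    rw [Nat.sub_add_cancel (hN (Nat.le_succ _))] at h7
    have h8 : ((a * n : ℕ) : ℝ≥0∞) * 2⁻¹ ^ (j + J0) ≤ δ := by
      refine le_trans (le_of_eq ?_) hJ0'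
      rw [hn, pow_add]; push_cast
      rw [mul_assoc, ← mul_assoc (2 ^ j), ← mul_pow, ENNReal.mul_inv_cancel (by simp) (by simp)]
      simp
    have h9 : A * (2 * S.P (S.Dif (l i) (l (i + 1))) + 2 * S.P (S'.Dif (l i) (l (i + 1)))) +
        (a * n : ℕ) * (2⁻¹ ^ (j + J0) + 2 * (j + J0 : ℕ) * (S.P (S.Dif (l i) (l (i + 1))) +
        S.Ule (l (i + 1)) * S.Gb (l i))) ≤
        δ + n * ((j + 1 : ℕ) * (2 * A + 2 * a * (J0 + 1) : ℕ)) * t i := by
      calc _ ≤ A * (2 * t i) + (δ + (a * n : ℕ) * (2 * (j + J0 : ℕ) * t i)) := by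
            rw [← mul_add, mul_add ((a * n : ℕ) : ℝ≥0∞)]
            gcongr
            · exact le_self_add
            · simp only [t]; gcongr; exact le_self_add
        _ = δ + (2 * A + 2 * (a * n) * (j + J0) : ℕ) * t i := by push_cast; ring
        _ ≤ _ := by
            gcongr
            have : 2 * A + 2 * (a * n) * (j + J0) ≤ n * ((j + 1) * (2 * A + 2 * a * (J0 + 1))) := by
              have h10 : 1 ≤ n * (j + 1) := Nat.mul_pos hn0 (by omega)
              have h11 : j + J0 ≤ (j + 1) * (J0 + 1) := by nlinarith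
              calc _ ≤ 2 * A * (n * (j + 1)) + 2 * (a * n) * ((j + 1) * (J0 + 1)) :=
                    add_le_add (Nat.le_mul_of_pos_right _ h10) (Nat.mul_le_mul_left _ h11)
                _ = _ := by ring
            exact_mod_cast this
    have h10 := h7.trans (add_le_add (add_le_add (add_le_add (add_le_add (add_le_add (h1 i)
      (h2 (i + 1))) (h2 i)) (h4 _ _)) (h5 (i + 1) (by have := Finset.mem_Ico.1 hi; omega))) h9)
    refine ENNReal.le_of_add_le_add_right (a := 6 * δ) (by simp [ENNReal.mul_eq_top, hδt]) ?_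
    exact le_trans (le_of_eq (by rw [hδc]; ring)) (h10.trans (le_of_eq (by ring)))
  have h7 : ∑ i ∈ Finset.Ico n (n + n), S.Pbad (N (i + 1) - N i) (N i) m ≤ n * δ := by
    refine cancel_le (a := m) (by simp [hm0.ne']) (by simp) ?_
    refine (le_self_add.trans (H_tele hc N hN m n n)).trans ?_
    calc _ ≤ (C * (2 * b + 1) * n : ℕ) + 2 + 2 * (n : ℝ≥0∞) := by
          gcongr
          exact (gibbs hc μ hμ _).trans (by gcongr; exact hE' _ (by omega))
      _ ≤ (C * (2 * b + 1) + 4 : ℕ) * n := by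
          exact_mod_cast (by nlinarith : C * (2 * b + 1) * n + 2 + 2 * n ≤ (C * (2 * b + 1) + 4) * n)
      _ ≤ _ := (mul_le_mul_left hm _).trans (le_of_eq (by ring))
  have h8 := Finset.sum_le_sum h6
  rw [Finset.sum_add_distrib, ← Finset.mul_sum _ t, Finset.sum_const, Nat.card_Ico,
    Nat.add_sub_cancel, nsmul_eq_mul] at h8
  rw [pow_succ, ← hn, mul_two]
  refine cancel_le (a := n) (by simp [hn0.ne']) (by simp) ?_
  refine ENNReal.le_of_add_le_add_left (a := n * δ) (by simp [ENNReal.mul_eq_top, hδt]) ?_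
  exact le_trans (le_of_eq (by ring)) (h8.trans (add_le_add h7 (le_of_eq (by ring))))

theorem no_both' (hh : ∀ x, S'.h x = -S.h x) (hP : S'.P = S.P) (hE : EnvP v Pe Q S.P)
    (T : Tr S) (lev : G → ℕ) (D : ℕ) (hlev : ∀ z m, |S.h z| + T.ρ z < 2 ^ m → lev z ≤ m)
    (hμ : ∑' z, (2⁻¹ : ℝ≥0∞) ^ (D * (lev z + 1)) ≤ 1) : S.c = 0 ∨ S'.c = 0 := by
  by_contra h
  push Not at h
  obtain ⟨C, hC⟩ := Tr.lev_bound h.1 lev hlev
  refine no_both hh hP hE _ hμ h.1 h.2 (C := D * (C + 1)) fun i N hN => ?_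
  push_cast
  rw [E_const_mul, E_add, E_const h.1, mul_assoc, add_mul]
  gcongr
  · exact hC i N hN
  · simp

end Sys

end Vale.Agent.P147
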