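import Mathlib

open MeasureTheory ProbabilityTheory Filter

namespace Vale.Agent.P147

/-- sites of the lattice `ℤ^d` -/
abbrev Site (d : ℕ) : Type := Fin d → ℤ

/-- the `2d` unit steps: `(i, true)` is `+e_i` and `(i, false)` is `-e_i` -/
abbrev Step (d : ℕ) : Type := Fin d × Bool

/-- the lattice vector of a unit step -/
def stepVec {d : ℕ} (e : Step d) : Site d := Pi.single e.1 (if e.2 then 1 else -1)

/-- rows: probability vectors on the unit steps -/
abbrev Row (d : ℕ) : Type := stdSimplex ℝ (Step d)

/-- environments -/
abbrev Envir (d : ℕ) : Type := Site d → Row d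

/-- transition probability from `x` to `y` in the environment `ω` -/
noncomputable def trans {d : ℕ} (ω : Envir d) (x y : Site d) : ℝ :=
  ∑ e : Step d, if y = x + stepVec e then (ω x).1 e else 0

/-- `P ω` is the law of the Markov chain started at `0` with transition probabilities `trans ω` -/
def IsQuenched {d : ℕ} (P : Kernel (Envir d) (ℕ → Site d)) : Prop :=
  IsMarkovKernel P ∧ ∀ (ω : Envir d) (n : ℕ) (x : ℕ → Site d),
    P ω {X | ∀ i ≤ n, X i = x i} =
      if x 0 = 0 then ENNReal.ofReal (∏ i ∈ Finset.range n, trans ω (x i) (x (i + 1))) else 0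

/-- annealed law: the quenched laws averaged over the iid environment with row law `μ` -/
noncomputable def annealed {d : ℕ} (μ : Measure (Row d)) (P : Kernel (Envir d) (ℕ → Site d)) :
    Measure (ℕ → Site d) :=
  (Measure.infinitePi fun _ : Site d => μ).bind P

/-- escape in direction `ℓ` -/
def Escape {d : ℕ} (ℓ : Fin d → ℝ) : Set (ℕ → Site d) :=
  {X | Tendsto (fun n => ∑ i, (X n i : ℝ) * ℓ i) atTop atTop}

end Vale.Agent.P147
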