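import Vale.Agent.P147.Cone

open MeasureTheory Set
open scoped ENNReal

namespace Vale.Agent.P147

/-- binary information content -/
noncomputable def lg (a : ℝ≥0∞) : ℝ≥0∞ := ENNReal.ofReal (-Real.logb 2 a.toReal)

theorem lg_le {a b : ℝ≥0∞} (ha0 : a ≠ 0) (ha1 : a ≤ 1) (hb0 : b ≠ 0) (hb1 : b ≤ 1) (m : ℕ) :
    m * ind (2 ^ m * b < a) + lg a ≤ lg b + 2 * (b / a) := by
  have hat := ne_top_of_le_ne_top ENNReal.one_ne_top ha1
  have hbt := ne_top_of_le_ne_top ENNReal.one_ne_top hb1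
  have hx := ENNReal.toReal_pos ha0 hat
  have hy := ENNReal.toReal_pos hb0 hbt
  have hx1 : a.toReal ≤ 1 := by simpa using ENNReal.toReal_mono ENNReal.one_ne_top ha1
  have hy1 : b.toReal ≤ 1 := by simpa using ENNReal.toReal_mono ENNReal.one_ne_top hb1
  have hla := Real.logb_nonpos (b := 2) (by norm_num) hx.le hx1
  have hlb := Real.logb_nonpos (b := 2) (by norm_num) hy.le hy1
  by_cases h : 2 ^ m * b < a
  · rw [ind_pos h, mul_one, lg, lg, ← ENNReal.ofReal_natCast,
      ← ENNReal.ofReal_add (by positivity) (by linarith)]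
    refine le_trans (ENNReal.ofReal_le_ofReal ?_) le_self_add
    have h1 : (2 : ℝ) ^ m * b.toReal ≤ a.toReal := by
      simpa using ENNReal.toReal_mono hat h.le
    have h2 := Real.logb_le_logb_of_le (b := 2) (by norm_num) (by positivity) h1
    rw [Real.logb_mul (by positivity) hy.ne', Real.logb_pow] at h2
    simp only [Nat.one_lt_ofNat, Real.logb_self_eq_one, mul_one] at h2
    linarith
  · rw [ind_neg h, mul_zero, zero_add, lg, lg]
    have h1 : 2 * (b / a) = ENNReal.ofReal (2 * (b.toReal / a.toReal)) := by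
      rw [ENNReal.ofReal_mul (by norm_num), ← ENNReal.toReal_div, ENNReal.ofReal_toReal
        (ENNReal.div_ne_top hbt ha0)]
      simp
    rw [h1, ← ENNReal.ofReal_add (by linarith) (by positivity)]
    refine ENNReal.ofReal_le_ofReal ?_
    have h2 := Real.log_le_sub_one_of_pos (div_pos hy hx)
    have h3 : Real.logb 2 (b.toReal / a.toReal) ≤ 2 * (b.toReal / a.toReal) := by
      rw [Real.logb, div_le_iff₀ (Real.log_pos (by norm_num))]
      have := Real.log_two_gt_d9
      nlinarith [div_pos hy hx]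
    rw [Real.logb_div hy.ne' hx.ne'] at h3
    linarith

theorem lg_half (n : ℕ) : lg (2⁻¹ ^ n) = n := by
  simp [lg, Real.logb_pow]

theorem dyadic {x r : ℝ≥0∞} (n : ℕ) (h : x ≤ 2 ^ n * r) :
    x ≤ r + ∑ j ∈ Finset.range n, 2 ^ (j + 1) * r * ind (2 ^ j * r < x) := by
  induction n with
  | zero => simpa using h
  | succ n ih =>
    rw [Finset.sum_range_succ]
    by_cases h' : 2 ^ n * r < x
    · rw [ind_pos h', mul_one]
      exact le_add_left (le_add_left h)
    · exact (ih (not_lt.1 h')).trans (by rw [← add_assoc]; exact le_self_add)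

variable {σ G : Type} [AddCommGroup G] [MeasurableSpace σ] {v : σ → G}

namespace Sys

variable (S : Sys v)

noncomputable def pN (N : ℕ) (z : G) : ℝ≥0∞ := S.E N fun η => ind (pos v η = z)
noncomputable def V (N : ℕ) (u : List σ) (z : G) : ℝ≥0∞ :=
  S.E N fun η => ind (u <+: η) * ind (pos v η = z)
noncomputable def H (N : ℕ) : ℝ≥0∞ := S.E N fun η => lg (S.pN N (pos v η))
noncomputable def vs (N : ℕ) (w : List σ) (z : G) : ℝ≥0∞ := ⨆ u, ⨆ _ : u <+: w, S.V N u z / S.q u
noncomputable def Xi (N : ℕ) (w : List σ) : ℝ≥0∞ := ∑' z, S.vs N w z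
noncomputable def Pbad (N N' m : ℕ) : ℝ≥0∞ := S.E N fun η => S.E N' fun η' =>
  ind (2 ^ m * S.pN (N + N') (pos v η + pos v η') < S.pN N' (pos v η'))
noncomputable def PX (N N' : ℕ) (A : ℝ≥0∞) : ℝ≥0∞ := S.E N fun η => S.E N' fun η' =>
  ind (∃ u, u <+: η ∧ A * S.pN (N + N') (pos v η + pos v η') * S.q u <
    S.V (N + N') u (pos v η + pos v η'))

variable {S}

theorem E_pos (N : ℕ) (F : G → ℝ≥0∞) :
    S.E N (fun η => F (pos v η)) = ∑' z, S.pN N z * F z := by
  simp only [pN, ← E_mul_const, ← E_tsum, tsum_ind_eq']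

theorem pN_ne {N : ℕ} {η : List σ} (h : η ∈ S.L N) : S.pN N (pos v η) ≠ 0 := by
  have := le_E h fun η' => ind (pos v η' = pos v η)
  simp only [ind_true, mul_one] at this
  exact fun h' => S.q_ne η (le_antisymm (this.trans h'.le) zero_le)

theorem vs_mono {N : ℕ} {u w : List σ} (h : u <+: w) (z : G) : S.vs N u z ≤ S.vs N w z :=
  iSup₂_le fun u' hu' => le_iSup₂_of_le u' (hu'.trans h) le_rfl

theorem Xi_mono {N : ℕ} {u w : List σ} (h : u <+: w) : S.Xi N u ≤ S.Xi N w :=
  ENNReal.tsum_le_tsum fun z => vs_mono h z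

variable [DiscreteMeasurableSpace σ] [Countable σ]

theorem sum_pN (hc : S.c ≠ 0) (N : ℕ) : ∑' z, S.pN N z = 1 := by
  simpa [E_const hc] using (E_pos (S := S) N fun _ => 1).symm

theorem pN_le_one (hc : S.c ≠ 0) (N : ℕ) (z : G) : S.pN N z ≤ 1 :=
  E_le hc fun _ _ => ind_le_one _

theorem E_div_le (hc : S.c ≠ 0) (N : ℕ) (r : G → ℝ≥0∞) :
    S.E N (fun η => r (pos v η) / S.pN N (pos v η)) ≤ ∑' z, r z := by
  rw [E_pos N fun z => r z / S.pN N z]
  exact ENNReal.tsum_le_tsum fun z => ENNReal.mul_div_le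

theorem info (hc : S.c ≠ 0) (N N' m : ℕ) : m * S.Pbad N N' m + S.H N' ≤ S.H (N + N') + 2 := by
  rw [Pbad, H, H, E_split, ← E_const hc N (S.E N' _), ← E_const_mul, ← E_add]
  conv_rhs => rw [← E_const hc N 2, ← E_add]
  refine E_mono fun η hη => ?_
  rw [← E_const_mul, ← E_add]
  calc _ ≤ S.E N' fun η' => lg (S.pN (N + N') (pos v (η ++ η'))) +
        2 * (S.pN (N + N') (pos v η + pos v η') / S.pN N' (pos v η')) := by
        refine E_mono fun η' hη' => ?_
        have := pN_ne (L_append hη hη')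
        rw [pos_append] at this ⊢
        exact lg_le (pN_ne hη') (pN_le_one hc _ _) this (pN_le_one hc _ _) m
    _ ≤ _ := by
        rw [E_add, E_const_mul]
        gcongr
        refine mul_le_of_le_one_right' ((E_div_le hc N' fun z =>
          S.pN (N + N') (pos v η + z)).trans (le_of_eq ?_))
        rw [← sum_pN hc (N + N')]
        exact (Equiv.addLeft (pos v η)).tsum_eq _

theorem gibbs (hc : S.c ≠ 0) (μ : G → ℕ) (hμ : ∑' z, (2⁻¹ : ℝ≥0∞) ^ μ z ≤ 1) (N : ℕ) :
    S.H N ≤ S.E N (fun η => μ (pos v η)) + 2 := by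
  calc _ ≤ S.E N fun η => μ (pos v η) + 2 * (2⁻¹ ^ μ (pos v η) / S.pN N (pos v η)) := by
        refine E_mono fun η hη => ?_
        have := lg_le (pN_ne hη) (pN_le_one hc _ _) (b := 2⁻¹ ^ μ (pos v η)) (by simp)
          (pow_le_one' (by simp) _) 0
        simpa [lg_half] using this
    _ ≤ _ := by
        rw [E_add, E_const_mul]
        gcongr
        exact mul_le_of_le_one_right' ((E_div_le hc N fun z => 2⁻¹ ^ μ z).trans hμ)

theorem V_le (N : ℕ) (u : List σ) (z : G) : S.c * S.V N u z ≤ S.q u := by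
  refine le_trans (mul_le_mul_right (E_mono fun η _ => ?_) _)
    (R2 N (fun η => u <+: η) _ fun η _ h => (aft_subset η _).trans (cyl_mono h))
  exact mul_le_of_le_one_right' (ind_le_one _)

theorem max_ineq (N N1 : ℕ) (z : G) (l : ℝ≥0∞) :
    l * (S.c * S.E N1 fun η => ind (∃ u, u <+: η ∧ l * S.q u < S.V N u z)) ≤ S.pN N z := by
  let A := {u | l * S.q u < S.V N u z}
  have h1 := R2_opn (S := S) N1 A
  simp only [and_comm (a := _ ∈ A)] at h1
  refine (mul_le_mul_right h1 l).trans ?_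
  rw [meas_opn, ← ENNReal.tsum_mul_left]
  calc _ ≤ ∑' u, ind (u ∈ mn A) * S.V N u z := by
        refine ENNReal.tsum_le_tsum fun u => ?_
        rw [mul_left_comm]
        exact ind_mul_le_ind_mul fun hu => ⟨hu, le_of_lt hu.1⟩
    _ ≤ _ := by
        simp only [V, ← E_const_mul, ← E_tsum, ← mul_assoc, ← ind_and (_ ∈ mn A)]
        refine E_mono fun η _ => tsum_ind_mul_le _ (fun u u' h h' => ?_) _ _ fun _ _ => le_rfl
        exact mn_pfx_eq h.1 h'.1 h.2 h'.2

theorem Xi_bound (μ : G → ℕ) (hμ : ∑' z, (2⁻¹ : ℝ≥0∞) ^ μ z ≤ 1) (hc : S.c ≠ 0) {j0 : ℕ}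
    (hj : S.c⁻¹ ≤ 2 ^ j0) (N : ℕ) :
    S.c * S.E N (S.Xi N) ≤ 1 + 2 * (S.E N (fun η => μ (pos v η)) + j0) := by
  have h1 : ∀ w z, S.vs N w z ≤ 2 ^ (μ z + j0) * 2⁻¹ ^ μ z := by
    intro w z
    rw [pow_add, mul_right_comm, ← mul_pow, ENNReal.mul_inv_cancel (by simp) (by simp), one_pow,
      one_mul]
    refine iSup₂_le fun u _ => le_trans (ENNReal.div_le_of_le_mul ?_) hj
    refine cancel_le hc S.c_ne_top ?_
    rw [← mul_assoc, ENNReal.mul_inv_cancel hc S.c_ne_top, one_mul]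
    exact V_le N u z
  have h2 : ∀ z, S.c * S.E N (fun η => S.vs N η z) ≤
      2⁻¹ ^ μ z + 2 * (S.pN N z * (μ z + j0)) := by
    intro z
    refine (mul_le_mul_right (E_mono fun η _ => dyadic _ (h1 η z)) _).trans ?_
    rw [E_add, E_const hc, E_sum, mul_add, Finset.mul_sum]
    refine add_le_add (mul_le_of_le_one_left' S.c_le_one) ?_
    refine (Finset.sum_le_sum (g := fun _ => 2 * S.pN N z) fun j _ => ?_).trans (by
      simp only [Finset.sum_const, Finset.card_range, nsmul_eq_mul]; push_cast; exact le_of_eq (by ring))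
    rw [E_const_mul, pow_succ]
    refine le_trans (le_of_eq (by ring)) (mul_le_mul_right (le_trans (mul_le_mul_right
      (mul_le_mul_right (E_mono fun η _ => ind_mono fun h => ?_) _) _)
      (max_ineq N N z (2 ^ j * 2⁻¹ ^ μ z))) 2)
    simp only [vs, lt_iSup_iff] at h
    obtain ⟨u, hu, h⟩ := h
    exact ⟨u, hu, ENNReal.mul_lt_of_lt_div h⟩
  unfold Xi
  rw [E_tsum, ← ENNReal.tsum_mul_left]
  refine (ENNReal.tsum_le_tsum h2).trans ?_
  rw [ENNReal.tsum_add, ENNReal.tsum_mul_left, ← E_pos N fun z => (μ z : ℝ≥0∞) + j0, E_add,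
    E_const hc]
  gcongr

theorem PX_bound (hc : S.c ≠ 0) (N N' m : ℕ) (A : ℝ≥0∞) :
    S.c * A * S.PX N N' A ≤ S.c * A * S.Pbad N N' m + 2 ^ m := by
  have h1 : S.PX N N' A ≤ S.Pbad N N' m + ∑' z, 2 ^ m * S.pN (N + N') z *
      S.E N fun η => ind (∃ u, u <+: η ∧ A * S.pN (N + N') z * S.q u < S.V (N + N') u z) := by
    simp only [← E_const_mul, ← E_tsum]
    rw [PX, Pbad, ← E_add]
    refine E_mono fun η _ => ?_
    rw [E_pos N' fun y => ind (∃ u, u <+: η ∧ A * S.pN (N + N') (pos v η + y) * S.q u <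
      S.V (N + N') u (pos v η + y)),
      E_pos N' fun y => ind (2 ^ m * S.pN (N + N') (pos v η + y) < S.pN N' y),
      ← (Equiv.addLeft (pos v η)).tsum_eq fun z => 2 ^ m * S.pN (N + N') z *
        ind (∃ u, u <+: η ∧ A * S.pN (N + N') z * S.q u < S.V (N + N') u z), ← ENNReal.tsum_add]
    refine ENNReal.tsum_le_tsum fun y => ?_
    by_cases h : 2 ^ m * S.pN (N + N') (pos v η + y) < S.pN N' y
    · rw [ind_pos h, mul_one]
      exact le_add_right (mul_le_of_le_one_right' (ind_le_one _))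
    · refine le_add_left ?_
      simp only [Equiv.coe_addLeft]
      gcongr
      exact not_lt.1 h
  refine (mul_le_mul_right h1 _).trans ?_
  rw [mul_add]
  gcongr
  conv_rhs => rw [← mul_one (2 ^ m), ← sum_pN hc (N + N'), ← ENNReal.tsum_mul_left]
  rw [← ENNReal.tsum_mul_left]
  refine ENNReal.tsum_le_tsum fun z => ?_
  exact le_trans (le_of_eq (by ring))
    (mul_le_mul_right (max_ineq (N + N') N z (A * S.pN (N + N') z)) _)

end Sys

end Vale.Agent.P147
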