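import Vale.Agent.P147.Ann

open MeasureTheory ProbabilityTheory Set
open scoped ENNReal

namespace Vale.Agent.P147

variable {σ G R : Type} [AddCommGroup G]

/-- quenched weight of a word -/
noncomputable def wt (v : σ → G) (p : R → σ → ℝ≥0∞) (ω : G → R) : G → List σ → ℝ≥0∞
  | _, [] => 1
  | x, e :: w => p (ω x) e * wt v p ω (x + v e) w

variable {v : σ → G} {p : R → σ → ℝ≥0∞}

theorem wt_append (ω : G → R) (x : G) (w r : List σ) :
    wt v p ω x (w ++ r) = wt v p ω x w * wt v p ω (x + pos v w) r := by
  induction w generalizing x with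
  | nil => simp [wt]
  | cons e w ih => simp [wt, ih, mul_assoc, add_assoc]

theorem wt_shift (ω : G → R) (x y : G) (w : List σ) :
    wt v p (fun z => ω (y + z)) x w = wt v p ω (y + x) w := by
  induction w generalizing x with
  | nil => simp [wt]
  | cons e w ih => simp [wt, ih, add_assoc]

theorem wt_ne_zero {ω : G → R} (h : ∀ x e, p (ω x) e ≠ 0) (x : G) (w : List σ) :
    wt v p ω x w ≠ 0 := by
  induction w generalizing x with
  | nil => simp [wt]
  | cons e w ih => simp [wt, ih, h]

/-- positions of the walk driven by a stack of steps -/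
def stackPos (v : σ → G) (x : G) (Z : ℕ × G → σ) : ℕ → G
  | 0 => x
  | n + 1 => stackPos v x Z n + v (Z (n, stackPos v x Z n))

/-- steps of the walk driven by a stack of steps -/
def stackPath (v : σ → G) (x : G) (Z : ℕ × G → σ) : ℕ → σ := fun n => Z (n, stackPos v x Z n)

theorem stackPos_eq (x : G) (Z : ℕ × G → σ) (n : ℕ) :
    stackPos v x Z n = x + pos v (pre n (stackPath v x Z)) := by
  induction n with
  | zero => simp [stackPos]
  | succ n ih => rw [pre_succ, pos_append, ← add_assoc, ← ih]; simp [stackPos, stackPath]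

theorem stackPath_mem (x : G) (Z : ℕ × G → σ) (ζ : ℕ → σ) (n : ℕ) :
    pre n (stackPath v x Z) = pre n ζ ↔ ∀ i < n, Z (i, x + pos v (pre i ζ)) = ζ i := by
  induction n with
  | zero => simp
  | succ n ih =>
    rw [pre_succ, pre_succ]
    constructor
    · intro h
      obtain ⟨h1, h2⟩ := List.append_inj h (by simp)
      intro i hi
      rcases Nat.lt_succ_iff_lt_or_eq.1 hi with hi | rfl
      · exact ih.1 h1 i hi
      · rw [← h1, ← stackPos_eq]; simpa [stackPath] using h2
    · intro h
      have h1 := ih.2 fun i hi => h i (Nat.lt_succ_of_lt hi)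
      have h2 := h n (Nat.lt_succ_self n)
      rw [← h1, ← stackPos_eq] at h2
      rw [h1]; simp [stackPath, h2]

variable [MeasurableSpace σ] [DiscreteMeasurableSpace σ] [Fintype σ] [Countable G]

theorem measurable_stackPath (x : G) : Measurable (stackPath v x) := by
  letI : MeasurableSpace G := ⊤
  have : DiscreteMeasurableSpace G := ⟨fun _ => trivial⟩
  have key : ∀ (n : ℕ) (f : (ℕ × G → σ) → G), Measurable f →
      Measurable fun Z : ℕ × G → σ => Z (n, f Z) := by
    intro n f hf
    have : Measurable fun a : (ℕ × G → σ) × G => a.1 (n, a.2) :=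
      measurable_from_prod_countable_left fun y => measurable_pi_apply (n, y)
    exact this.comp (measurable_id.prodMk hf)
  have hX : ∀ n, Measurable fun Z => stackPos v x Z n := by
    intro n
    induction n with
    | zero => exact measurable_const
    | succ n ih =>
      have : Measurable fun a : G × σ => a.1 + v a.2 := Measurable.of_discrete
      exact this.comp (ih.prodMk (key n _ ih))
  exact measurable_pi_lambda _ fun n => key n _ (hX n)

/-- law of one step -/
noncomputable def rowM (p : R → σ → ℝ≥0∞) (r : R) : Measure σ :=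
  Measure.sum fun e => p r e • Measure.dirac e

theorem rowM_singleton (r : R) (e : σ) : rowM p r {e} = p r e := by
  classical
  rw [rowM, Measure.sum_apply _ (measurableSet_singleton e), tsum_eq_single e]
  · simp
  · intro e' he; simp [he]

theorem rowM_prob (hs : ∀ r, ∑ e, p r e = 1) (r : R) : IsProbabilityMeasure (rowM p r) := by
  constructor
  rw [rowM, Measure.sum_apply _ MeasurableSet.univ, tsum_fintype]
  simpa using hs r

/-- quenched law of the steps -/
noncomputable def Qm (v : σ → G) (p : R → σ → ℝ≥0∞) (ω : G → R) (x : G) : Measure (ℕ → σ) :=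
  (Measure.infinitePi fun i : ℕ × G => rowM p (ω i.2)).map (stackPath v x)

theorem Qm_prob (hs : ∀ r, ∑ e, p r e = 1) (ω : G → R) (x : G) :
    IsProbabilityMeasure (Qm v p ω x) := by
  have := rowM_prob hs
  exact Measure.isProbabilityMeasure_map (measurable_stackPath x).aemeasurable

omit [MeasurableSpace σ] [DiscreteMeasurableSpace σ] [Fintype σ] [Countable G] in
theorem wt_pre (ω : G → R) (x : G) (ζ : ℕ → σ) (n : ℕ) :
    wt v p ω x (pre n ζ) = ∏ i ∈ Finset.range n, p (ω (x + pos v (pre i ζ))) (ζ i) := by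
  induction n with
  | zero => simp [wt]
  | succ n ih => rw [pre_succ, wt_append, ih, Finset.prod_range_succ]; simp [wt]

omit [MeasurableSpace σ] [DiscreteMeasurableSpace σ] [Fintype σ] [Countable G] in
theorem exists_mem_cyl [Nonempty σ] (w : List σ) : ∃ ζ, ζ ∈ cyl w := by
  induction w with
  | nil => exact ⟨fun _ => Classical.arbitrary σ, by simp⟩
  | cons e w ih =>
    obtain ⟨ζ, h⟩ := ih
    refine ⟨fun n => Nat.casesOn n e ζ, ?_⟩
    rw [show e :: w = [e] ++ w from rfl, mem_cyl_append, mem_cyl_singleton]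
    refine ⟨rfl, ?_⟩
    convert h using 1
    ext i; simp [sh, add_comm 1 i]

theorem Qm_cyl (hs : ∀ r, ∑ e, p r e = 1) (ω : G → R) (x : G) (w : List σ) :
    Qm v p ω x (cyl w) = wt v p ω x w := by
  classical
  have := rowM_prob hs
  have : Nonempty σ := by
    by_contra h
    rw [not_nonempty_iff] at h
    simpa using hs (ω x)
  obtain ⟨ζ, hζ⟩ := exists_mem_cyl w
  rw [Qm, Measure.map_apply (measurable_stackPath x) (measurableSet_cyl w)]
  have hinj : Function.Injective fun i : ℕ => (i, x + pos v (pre i ζ)) :=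
    fun i j h => congrArg Prod.fst h
  have : stackPath v x ⁻¹' cyl w = Set.pi
      (((Finset.range w.length).image fun i : ℕ => (i, x + pos v (pre i ζ)) : Finset _) : Set _)
      fun i : ℕ × G => {ζ i.1} := by
    ext Z
    rw [mem_preimage, mem_cyl]
    conv_lhs => rw [← mem_cyl.1 hζ, pre_length]
    rw [stackPath_mem]
    simp
  rw [this, Measure.infinitePi_pi _ fun _ _ => measurableSet_singleton _,
    Finset.prod_image fun i _ j _ h => hinj h]
  conv_rhs => rw [← mem_cyl.1 hζ, wt_pre]
  simp [rowM_singleton]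

section ext
omit [Fintype σ] [Countable G] [AddCommGroup G]
variable [Countable σ]

theorem generate_cyl : (MeasurableSpace.pi : MeasurableSpace (ℕ → σ)) =
    .generateFrom (range cyl) := by
  apply le_antisymm
  · rw [MeasurableSpace.pi, iSup_le_iff]
    intro n
    refine Measurable.comap_le (@measurable_to_countable' _ _ _ _ (.generateFrom (range cyl)) _
      fun e => ?_)
    have : (fun ζ : ℕ → σ => ζ n) ⁻¹' {e} = ⋃ w ∈ {w : List σ | w.length = n}, cyl (w ++ [e]) := by
      ext ζ
      simp only [mem_preimage, mem_singleton_iff, mem_iUnion, mem_cyl_append, mem_cyl_singleton]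
      constructor
      · intro h; exact ⟨pre n ζ, pre_length n ζ, mem_cyl_pre n ζ, by simpa [sh] using h⟩
      · rintro ⟨w, rfl, -, h⟩; simpa [sh] using h
    rw [this]
    exact MeasurableSet.biUnion (Set.to_countable _) fun w _ =>
      MeasurableSpace.measurableSet_generateFrom ⟨_, rfl⟩
  · rw [MeasurableSpace.generateFrom_le_iff]
    rintro _ ⟨w, rfl⟩
    exact measurableSet_cyl w

omit [MeasurableSpace σ] [DiscreteMeasurableSpace σ] [Countable σ] in
theorem isPiSystem_cyl : IsPiSystem (range (cyl : List σ → Set (ℕ → σ))) := by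
  rintro _ ⟨u, rfl⟩ _ ⟨w, rfl⟩ ⟨ζ, h1, h2⟩
  rcases cyl_cmp h1 h2 with h | h
  · exact ⟨w, (inter_eq_right.2 (cyl_mono h)).symm⟩
  · exact ⟨u, (inter_eq_left.2 (cyl_mono h)).symm⟩

theorem ext_cyl {μ ν : Measure (ℕ → σ)} [IsFiniteMeasure μ] (h : ∀ w, μ (cyl w) = ν (cyl w)) :
    μ = ν :=
  ext_of_generate_finite _ generate_cyl isPiSystem_cyl (by rintro _ ⟨w, rfl⟩; exact h w)
    (by simpa using h [])

end ext

theorem Qm_aft (hs : ∀ r, ∑ e, p r e = 1) (ω : G → R) (x : G) (w : List σ) {B : Set (ℕ → σ)}
    (hB : MeasurableSet B) :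
    Qm v p ω x (aft w B) = wt v p ω x w * Qm v p ω (x + pos v w) B := by
  have := Qm_prob (v := v) hs ω x
  have key : ∀ B, MeasurableSet B → Qm v p ω x (aft w B) =
      (((Qm v p ω x).restrict (cyl w)).map (sh w.length)) B := by
    intro B hB
    rw [Measure.map_apply (measurable_sh _) hB, Measure.restrict_apply (measurable_sh _ hB),
      inter_comm]; rfl
  rw [key B hB]
  have : ((Qm v p ω x).restrict (cyl w)).map (sh w.length) =
      wt v p ω x w • Qm v p ω (x + pos v w) := by
    refine ext_cyl fun r => ?_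
    rw [← key _ (measurableSet_cyl r), ← cyl_append, Qm_cyl hs, wt_append]
    simp [Qm_cyl hs]
  rw [this]; simp

theorem wt_le_one (hs : ∀ r, ∑ e, p r e = 1) (ω : G → R) (x : G) (w : List σ) :
    wt v p ω x w ≤ 1 := by
  have := Qm_prob (v := v) hs ω x
  rw [← Qm_cyl hs]; exact prob_le_one

variable [MeasurableSpace R]

omit [MeasurableSpace σ] [DiscreteMeasurableSpace σ] [Fintype σ] [Countable G] in
theorem measurable_wt_of {m : MeasurableSpace (G → R)} (hm : ∀ e, Measurable fun r => p r e)
    (x : G) (w : List σ)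
    (h : ∀ u, u <+: w → u ≠ w → Measurable[m] fun ω : G → R => ω (x + pos v u)) :
    Measurable[m] fun ω => wt v p ω x w := by
  induction w generalizing x with
  | nil => exact measurable_const
  | cons e w ih =>
    refine Measurable.mul ((hm e).comp (by simpa using h [] List.nil_prefix (by simp))) ?_
    refine ih _ fun u hu hne => ?_
    simpa [add_assoc] using h (e :: u) (by simpa using hu) (by simpa using hne)

omit [MeasurableSpace σ] [DiscreteMeasurableSpace σ] [Fintype σ] [Countable G] in
theorem measurable_wt (hm : ∀ e, Measurable fun r => p r e) (x : G) (w : List σ) :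
    Measurable fun ω => wt v p ω x w :=
  measurable_wt_of hm x w fun _ _ _ => measurable_pi_apply _

theorem measurable_Qm (hs : ∀ r, ∑ e, p r e = 1) (hm : ∀ e, Measurable fun r => p r e) (x : G) :
    Measurable fun ω => Qm v p ω x := by
  have := fun ω => Qm_prob (v := v) hs ω x
  refine Measurable.measure_of_isPiSystem_of_isProbabilityMeasure generate_cyl isPiSystem_cyl ?_
  rintro _ ⟨w, rfl⟩
  simp_rw [Qm_cyl hs]
  exact measurable_wt hm x w

theorem measurable_Qm_apply (hs : ∀ r, ∑ e, p r e = 1) (hm : ∀ e, Measurable fun r => p r e)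
    (x : G) {B : Set (ℕ → σ)} (hB : MeasurableSet B) : Measurable fun ω => Qm v p ω x B :=
  (Measure.measurable_coe hB).comp (measurable_Qm hs hm x)

/-- iid environment law -/
noncomputable def envL (G : Type) (μ : Measure R) : Measure (G → R) :=
  Measure.infinitePi fun _ => μ

instance (μ : Measure R) [IsProbabilityMeasure μ] : IsProbabilityMeasure (envL G μ) := by
  unfold envL; infer_instance

/-- annealed law of the steps -/
noncomputable def PA (v : σ → G) (p : R → σ → ℝ≥0∞) (μ : Measure R) : Measure (ℕ → σ) :=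
  (envL G μ).bind fun ω => Qm v p ω 0

variable {μ : Measure R} [IsProbabilityMeasure μ]

omit [IsProbabilityMeasure μ] in
theorem PA_apply (hs : ∀ r, ∑ e, p r e = 1) (hm : ∀ e, Measurable fun r => p r e)
    {B : Set (ℕ → σ)} (hB : MeasurableSet B) :
    PA v p μ B = ∫⁻ ω, Qm v p ω 0 B ∂envL G μ :=
  Measure.bind_apply hB (measurable_Qm hs hm 0).aemeasurable

omit [Countable G] in
theorem envL_shift (y : G) : (envL G μ).map (fun ω z => ω (y + z)) = envL G μ := by
  classical
  refine Measure.eq_infinitePi _ fun s t ht => ?_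
  rw [Measure.map_apply (by fun_prop) (.pi s.countable_toSet fun _ _ => ht _)]
  have : (fun (ω : G → R) z => ω (y + z)) ⁻¹' ((s : Set G).pi t) =
      Set.pi ((s.image fun z => y + z : Finset G) : Set G) fun z => t (-y + z) := by
    ext ω
    simp only [mem_preimage, mem_pi, Finset.mem_coe, Finset.coe_image, forall_mem_image,
      neg_add_cancel_left]
  rw [this, envL, Measure.infinitePi_pi _ fun _ _ => ht _,
    Finset.prod_image fun i _ j _ h => add_left_cancel h]
  simp

theorem lintegral_wt (hs : ∀ r, ∑ e, p r e = 1) (hm : ∀ e, Measurable fun r => p r e)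
    (y : G) (w : List σ) : ∫⁻ ω, wt v p ω y w ∂envL G μ = PA v p μ (cyl w) := by
  rw [PA_apply hs hm (measurableSet_cyl w)]
  simp_rw [Qm_cyl hs]
  conv_rhs => rw [← envL_shift y, lintegral_map (measurable_wt hm 0 w) (by fun_prop)]
  simp [wt_shift]

theorem lintegral_Qm_opn (hs : ∀ r, ∑ e, p r e = 1) (hm : ∀ e, Measurable fun r => p r e)
    (y : G) (A : Set (List σ)) : ∫⁻ ω, Qm v p ω y (opn A) ∂envL G μ = PA v p μ (opn A) := by
  simp_rw [meas_opn _ A, Qm_cyl hs]
  rw [lintegral_tsum fun w => ((measurable_wt hm y w).const_mul _).aemeasurable]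
  refine tsum_congr fun w => ?_
  rw [lintegral_const_mul _ (measurable_wt hm y w), lintegral_wt hs hm]

theorem lintegral_wt_mul (hs : ∀ r, ∑ e, p r e = 1) (hm : ∀ e, Measurable fun r => p r e)
    {w r : List σ} {z : G} (h : Disj v w z r) :
    ∫⁻ ω, wt v p ω 0 w * wt v p ω z r ∂envL G μ = PA v p μ (cyl w) * PA v p μ (cyl r) := by
  rw [← lintegral_wt hs hm 0 w, ← lintegral_wt hs hm z r]
  have hi : iIndep (fun x : G => MeasurableSpace.comap (fun ω : G → R => ω x) inferInstance)
      (envL G μ) := iIndepFun_infinitePi (X := fun _ r => r) fun _ => measurable_id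
  have hle : ∀ x : G, MeasurableSpace.comap (fun ω : G → R => ω x) inferInstance ≤
      MeasurableSpace.pi := fun x => (measurable_pi_apply x).comap_le
  let S : Set G := {x | ∃ u, u <+: w ∧ u ≠ w ∧ x = pos v u}
  have hd := indep_iSup_of_disjoint hle hi (S := S) (T := Sᶜ) disjoint_compl_right
  refine lintegral_mul_eq_lintegral_mul_lintegral_of_independent_measurableSpace
    (iSup₂_le fun x _ => hle x) (iSup₂_le fun x _ => hle x) hd ?_ ?_
  · refine measurable_wt_of hm _ _ fun u hu hne => Measurable.of_comap_le ?_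
    exact le_iSup₂_of_le (0 + pos v u) ⟨u, hu, hne, by simp⟩ le_rfl
  · refine measurable_wt_of hm _ _ fun u hu hne => Measurable.of_comap_le ?_
    refine le_iSup₂_of_le (z + pos v u) ?_ le_rfl
    rintro ⟨u', h1, h2, h3⟩
    exact h u' h1 h2 u hu hne h3.symm

omit [AddCommGroup G] [MeasurableSpace σ] [DiscreteMeasurableSpace σ] [Fintype σ] in
theorem ae_ell (hell : ∀ᵐ r ∂μ, ∀ e, p r e ≠ 0) : ∀ᵐ ω ∂envL G μ, ∀ x e, p (ω x) e ≠ 0 := by
  rw [ae_all_iff]
  intro x
  exact (measurePreserving_eval_infinitePi (fun _ : G => μ) x).quasiMeasurePreserving.ae hell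

theorem ann_PA (hs : ∀ r, ∑ e, p r e = 1) (hm : ∀ e, Measurable fun r => p r e)
    (hell : ∀ᵐ r ∂μ, ∀ e, p r e ≠ 0) : Ann v (PA v p μ) where
  prob := by
    constructor
    rw [PA_apply hs hm MeasurableSet.univ]
    have := fun ω => Qm_prob (v := v) hs ω 0
    simp
  mul w r h := by
    rw [← lintegral_wt_mul hs hm h, ← lintegral_wt hs hm 0]
    simp [wt_append]
  ne w := by
    rw [← lintegral_wt hs hm 0, Ne, lintegral_eq_zero_iff (measurable_wt hm 0 w)]
    intro h
    have : ∀ᵐ ω ∂envL G μ, False := by
      filter_upwards [h, ae_ell (G := G) hell] with ω h1 h2 using wt_ne_zero h2 0 w h1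
    exact this.exists.elim fun _ h => h
  le w r := by
    rw [← lintegral_wt hs hm 0, ← lintegral_wt hs hm (0 + pos v w)]
    refine lintegral_mono fun ω => ?_
    rw [wt_append]
    exact mul_le_of_le_one_left' (wt_le_one hs ω 0 w)

end Vale.Agent.P147
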