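import Vale.Agent.P147.Sign
import Vale.Agent.P147.Quenched
import Vale.Agent.P147.Defs

open MeasureTheory ProbabilityTheory Set Filter
open scoped ENNReal

namespace Vale.Agent.P147

section abstr
variable {σ G R : Type} [AddCommGroup G] {v : σ → G} {p : R → σ → ℝ≥0∞}
  [MeasurableSpace σ] [DiscreteMeasurableSpace σ] [Fintype σ] [Countable G]

theorem Qm_path (hs : ∀ r, ∑ e, p r e = 1) (ω : G → R) (n : ℕ) (y : G) (x : ℕ → G) :
    Qm v p ω y {ζ | ∀ i ≤ n, y + pos v (pre i ζ) = x i} = ind (x 0 = y) *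
      ∏ i ∈ Finset.range n, ∑ e, ind (x (i + 1) = x i + v e) * p (ω (x i)) e := by
  have := Qm_prob (v := v) hs ω
  have hm : ∀ (n : ℕ) (y : G) (x : ℕ → G),
      MeasurableSet {ζ : ℕ → σ | ∀ i ≤ n, y + pos v (pre i ζ) = x i} := fun n y x =>
    measurableSet_setOfPred.2 (.forall fun i => measurable_const.imp
      (measurable_pre i fun w => y + pos v w = x i))
  induction n generalizing y x with
  | zero => by_cases h : x 0 = y <;> simp [h, ind_neg, eq_comm (a := y)]
  | succ n ih =>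
    have h1 : {ζ : ℕ → σ | ∀ i ≤ n + 1, y + pos v (pre i ζ) = x i} = {ζ | ∃ e, x 0 = y ∧
        ζ ∈ aft [e] {ξ | ∀ i ≤ n, (y + v e) + pos v (pre i ξ) = x (i + 1)}} := by
      have h2 : ∀ (i : ℕ) (ζ : ℕ → σ), pos v (pre (i + 1) ζ) = v (ζ 0) + pos v (pre i (sh 1 ζ)) := by
        intro i ζ; rw [add_comm i, pre_add, pre_one]; simp
      ext ζ
      simp only [mem_ofPred_eq, aft, mem_cyl_singleton, List.length_singleton]
      constructor
      · intro h
        refine ⟨ζ 0, by simpa using (h 0 (by omega)).symm, rfl, fun i hi => ?_⟩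
        rw [← h (i + 1) (by omega), h2, add_assoc]
      · rintro ⟨e, h3, rfl, h4⟩ i hi
        rcases i with _ | i
        · simp [h3]
        · rw [← h4 i (by omega), h2, add_assoc]
    rw [h1, ← sum_eq_meas _ _ _ (fun e e' ζ _ _ h h' => (mem_cyl_singleton.1 h.1).symm.trans
      (mem_cyl_singleton.1 h'.1)) fun e _ => measurableSet_aft _ (hm _ _ fun i => x (i + 1)),
      ENNReal.tsum_mul_left, tsum_fintype]
    refine ind_mul_congr fun h => ?_
    rw [Finset.prod_range_succ', Finset.mul_sum]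
    refine Finset.sum_congr rfl fun e _ => ?_
    rw [Qm_aft hs _ _ _ (hm _ _ fun i => x (i + 1))]
    simp only [pos_cons, pos_nil, add_zero, wt, mul_one]
    rw [ih _ fun i => x (i + 1), h]; ring

variable [MeasurableSpace R] {μ : Measure R} [IsProbabilityMeasure μ]

theorem envP_PA (hs : ∀ r, ∑ e, p r e = 1) (hm : ∀ e, Measurable fun r => p r e) :
    EnvP v (envL G μ) (Qm v p) (PA v p μ) where
  prob := inferInstance
  mk' ω := ⟨Qm_prob hs ω, fun x w B hB => by rw [Qm_aft hs ω x w hB, Qm_cyl hs]⟩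
  meas x B hB := measurable_Qm_apply hs hm x hB
  avg x B hB := by
    rw [← Measure.bind_apply hB (measurable_Qm hs hm x).aemeasurable]
    have : IsFiniteMeasure ((envL G μ).bind fun ω => Qm v p ω x) := by
      constructor
      rw [Measure.bind_apply MeasurableSet.univ (measurable_Qm hs hm x).aemeasurable]
      have := fun ω => Qm_prob (v := v) hs ω x
      simp
    congr 1
    refine ext_cyl fun w => ?_
    rw [Measure.bind_apply (measurableSet_cyl w) (measurable_Qm hs hm x).aemeasurable]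
    simp_rw [Qm_cyl hs]
    exact lintegral_wt hs hm x w
  mul w z r h := by
    simp_rw [Qm_cyl hs]
    exact lintegral_wt_mul hs hm h

end abstr

variable {d : ℕ}

/-- row weights -/
noncomputable def pr (r : Row d) (e : Step d) : ℝ≥0∞ := ENNReal.ofReal (r.1 e)

theorem pr_sum (r : Row d) : ∑ e, pr r e = 1 := by
  unfold pr
  rw [← ENNReal.ofReal_sum_of_nonneg fun e _ => r.2.1 e, r.2.2, ENNReal.ofReal_one]

theorem pr_meas (e : Step d) : Measurable fun r : Row d => pr r e :=
  ((measurable_pi_apply e).comp measurable_subtype_coe).ennreal_ofReal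

/-- positions -/
def walk (ζ : ℕ → Step d) : ℕ → Site d := fun n => pos stepVec (pre n ζ)

theorem measurable_walk : Measurable (walk : (ℕ → Step d) → ℕ → Site d) :=
  measurable_pi_lambda _ fun n B _ => measurableSet_pre n fun w => pos stepVec w ∈ B

/-- the quenched kernel -/
noncomputable def P0 : Kernel (Envir d) (ℕ → Site d) :=
  ⟨fun ω => (Qm stepVec pr ω 0).map walk,
    (Measure.measurable_map _ measurable_walk).comp (measurable_Qm pr_sum pr_meas 0)⟩

theorem cyl_pre_succ (n : ℕ) (x : ℕ → Site d) :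
    cyl (pre (n + 1) x) = {X | ∀ i ≤ n, X i = x i} := by
  ext X
  rw [mem_cyl, pre_length, pre, pre, List.map_inj_left]
  simp [Nat.lt_succ_iff]

theorem isQuenched_P0 : IsQuenched (P0 (d := d)) := by
  refine ⟨⟨fun ω => ?_⟩, fun ω n x => ?_⟩
  · have := Qm_prob (v := stepVec) pr_sum ω 0
    exact Measure.isProbabilityMeasure_map measurable_walk.aemeasurable
  · change ((Qm stepVec pr ω 0).map walk) _ = _
    rw [Measure.map_apply measurable_walk (cyl_pre_succ n x ▸ measurableSet_cyl _)]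
    have := Qm_path (v := stepVec) pr_sum ω n 0 x
    simp only [zero_add] at this
    refine this.trans ?_
    have h0 : ∀ y z : Site d, 0 ≤ trans ω y z := fun y z =>
      Finset.sum_nonneg fun e _ => by split_ifs; exacts [(ω y).2.1 e, le_rfl]
    split_ifs with h
    · rw [ind_pos h, one_mul, ENNReal.ofReal_prod_of_nonneg fun i _ => h0 _ _]
      refine Finset.prod_congr rfl fun i _ => ?_
      rw [trans, ENNReal.ofReal_sum_of_nonneg fun e _ => by
        split_ifs; exacts [(ω _).2.1 e, le_rfl]]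
      refine Finset.sum_congr rfl fun e _ => ?_
      split_ifs with h'
      · rw [ind_pos h', one_mul, pr]
      · simp [ind_neg h']
    · rw [ind_neg h, zero_mul]

theorem IsQuenched.eq {P : Kernel (Envir d) (ℕ → Site d)} (h : IsQuenched P) (ω : Envir d) :
    P ω = P0 ω := by
  have := h.1
  have := (isQuenched_P0 (d := d)).1
  refine ext_cyl fun w => ?_
  obtain ⟨x, hx⟩ := exists_mem_cyl w
  rw [← mem_cyl.1 hx]
  rcases w.length with _ | n
  · simp
  · rw [cyl_pre_succ, h.2, isQuenched_P0.2]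

/-- dyadic size of a site -/
def lev (z : Site d) : ℕ := Finset.univ.sup fun i => Nat.size (z i).natAbs

theorem kraft : ∑' z : Site d, (2⁻¹ : ℝ≥0∞) ^ ((d + 1) * (lev z + 1)) ≤ 1 := by
  have h1 : ∀ m : ℕ, ∑' z : Site d, ind (lev z = m) ≤ 2 ^ (d * (m + 1)) := by
    intro m
    let s : Finset (Site d) := Fintype.piFinset fun _ => Finset.Ico (-2 ^ m : ℤ) (2 ^ m)
    rw [tsum_eq_sum (s := s) fun z hz => ind_neg fun h => hz ?_]
    · refine (Finset.sum_le_sum (g := fun _ => 1) fun z _ => ind_le_one _).trans ?_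
      have : ((2 : ℤ) ^ m - -2 ^ m).toNat = 2 ^ (m + 1) := by
        rw [show ((2 : ℤ) ^ m - -2 ^ m) = ((2 ^ (m + 1) : ℕ) : ℤ) by push_cast; ring]
        exact Int.toNat_natCast _
      rw [sub_neg_eq_add] at this
      simp [s, this, ← pow_mul, mul_comm]
    · rw [Fintype.mem_piFinset]
      intro i
      have h2 : Nat.size (z i).natAbs ≤ m := h ▸ Finset.le_sup
        (f := fun i => Nat.size (z i).natAbs) (Finset.mem_univ i)
      rw [Nat.size_le] at h2
      have h3 : |z i| < 2 ^ m := by rw [Int.abs_eq_natAbs]; exact_mod_cast h2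
      rw [abs_lt] at h3
      exact Finset.mem_Ico.2 ⟨h3.1.le, h3.2⟩
  calc _ = ∑' z : Site d, ∑' m, ind (lev z = m) * (2⁻¹ : ℝ≥0∞) ^ ((d + 1) * (m + 1)) := by
        simp only [tsum_ind_eq']
    _ ≤ ∑' m : ℕ, (2⁻¹ : ℝ≥0∞) ^ m * 2⁻¹ := by
        rw [ENNReal.tsum_comm]
        refine ENNReal.tsum_le_tsum fun m => ?_
        rw [ENNReal.tsum_mul_right]
        refine (mul_le_mul_left (h1 m) _).trans (le_of_eq ?_)
        rw [add_mul, pow_add, ← mul_assoc, ← mul_pow, ENNReal.mul_inv_cancel (by simp) (by simp),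
          one_pow, one_mul, one_mul, pow_succ]
    _ = 1 := by rw [ENNReal.tsum_mul_right, tsum_half, ENNReal.mul_inv_cancel (by simp) (by simp)]

/-- linear functional -/
noncomputable def dot (ℓ : Fin d → ℝ) : Site d →+ ℝ where
  toFun x := ∑ i, (x i : ℝ) * ℓ i
  map_zero' := by simp
  map_add' x y := by simp [add_mul, Finset.sum_add_distrib]

theorem dot_step (ℓ : Fin d → ℝ) (e : Step d) :
    dot ℓ (stepVec e) = (if e.2 then 1 else -1) * ℓ e.1 := by
  change ∑ i, ((stepVec e i : ℤ) : ℝ) * ℓ i = _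
  rw [Finset.sum_eq_single e.1]
  · simp [stepVec]
  · intro i _ hi; simp [stepVec, hi]
  · simp

/-- the system of a normalised direction -/
noncomputable def sys {P : Measure (ℕ → Step d)} (hP : Ann stepVec P) (ℓ : Fin d → ℝ) (i0 : Fin d)
    (h1 : ∀ i, |ℓ i| ≤ 1) (h2 : |ℓ i0| = 1) : Sys (stepVec (d := d)) where
  h := dot ℓ
  es := (i0, decide (0 < ℓ i0))
  h_le e := by
    rw [dot_step, abs_mul]
    split_ifs <;> simpa using h1 _
  h_es := by
    rw [dot_step]
    by_cases h : 0 < ℓ i0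
    · simpa [h, abs_of_pos h] using h2
    · simpa [h, abs_of_nonpos (not_lt.1 h)] using h2
  P := P
  ann := hP

/-- the transversal seminorm -/
noncomputable def tr {P : Measure (ℕ → Step d)} (hP : Ann stepVec P) (ℓ : Fin d → ℝ) (i0 : Fin d)
    (h1 : ∀ i, |ℓ i| ≤ 1) (h2 : |ℓ i0| = 1) : Tr (sys hP ℓ i0 h1 h2) where
  ρ x := ∑ i ∈ Finset.univ.erase i0, |(x i : ℝ)|
  add x y := by
    rw [← Finset.sum_add_distrib]
    exact Finset.sum_le_sum fun i _ => by simpa using abs_add_le _ _
  neg x := by simp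
  zero := by simp
  step e := by
    refine (Finset.sum_le_sum_of_subset_of_nonneg (Finset.erase_subset _ _)
      fun _ _ _ => abs_nonneg _).trans ?_
    rw [Finset.sum_eq_single e.1]
    · simp only [stepVec, Pi.single_eq_same]; split_ifs <;> simp
    · intro i _ hi; simp [stepVec, hi]
    · simp
  es := Finset.sum_eq_zero fun i hi => by simp [sys, stepVec, (Finset.mem_erase.1 hi).1]

theorem lev_le {ℓ : Fin d → ℝ} {i0 : Fin d} (h1 : ∀ i, |ℓ i| ≤ 1) (h2 : |ℓ i0| = 1) (z : Site d)
    (m : ℕ) (h : |dot ℓ z| + ∑ i ∈ Finset.univ.erase i0, |(z i : ℝ)| < 2 ^ m) : lev z ≤ m := by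
  refine Finset.sup_le fun i _ => Nat.size_le.2 ?_
  have key : |(z i : ℝ)| < 2 ^ m := by
    refine lt_of_le_of_lt ?_ h
    by_cases hi : i = i0
    · subst hi
      have h3 : (z i : ℝ) * ℓ i = dot ℓ z - ∑ j ∈ Finset.univ.erase i, (z j : ℝ) * ℓ j := by
        change _ = ∑ j, (z j : ℝ) * ℓ j - _
        rw [← Finset.add_sum_erase _ _ (Finset.mem_univ i)]; ring
      calc |(z i : ℝ)| = |(z i : ℝ) * ℓ i| := by rw [abs_mul, h2, mul_one]
        _ ≤ _ := by
          rw [h3]
          refine (abs_sub _ _).trans (add_le_add le_rfl ((Finset.abs_sum_le_sum_abs _ _).trans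
            (Finset.sum_le_sum fun j _ => ?_)))
          rw [abs_mul]
          exact mul_le_of_le_one_right (abs_nonneg _) (h1 j)
    · exact le_add_of_nonneg_of_le (abs_nonneg _) (Finset.single_le_sum
        (f := fun i => |(z i : ℝ)|) (fun _ _ => abs_nonneg _) (by simp [hi]))
  rw [← Int.cast_abs, Int.abs_eq_natAbs] at key
  exact_mod_cast key

theorem zero_one_law (μ : Measure (Row d)) [IsProbabilityMeasure μ]
    (hell : μ {p | ∀ e, 0 < p.1 e} = 1) (ℓ : Fin d → ℝ) (hℓ : ℓ ≠ 0)
    (P : Kernel (Envir d) (ℕ → Site d)) (hP : IsQuenched P) :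
    annealed μ P (Escape ℓ) = 0 ∨ annealed μ P (Escape ℓ) = 1 := by
  have hell' : ∀ᵐ r ∂μ, ∀ e, pr r e ≠ 0 := by
    have hm : MeasurableSet {p : Row d | ∀ e, 0 < p.1 e} := measurableSet_setOfPred.2
      (.forall fun e => measurableSet_setOfPred.1 (measurableSet_lt measurable_const
        ((measurable_pi_apply e).comp measurable_subtype_coe)))
    filter_upwards [(mem_ae_iff_prob_eq_one hm).2 hell] with r hr e
    simpa [pr] using hr e
  obtain ⟨j, hj⟩ := Function.ne_iff.1 hℓ
  obtain ⟨i0, -, hi0⟩ := Finset.exists_max_image Finset.univ (fun i => |ℓ i|) ⟨j, Finset.mem_univ j⟩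
  have hm : 0 < |ℓ i0| := (abs_pos.2 hj).trans_le (hi0 j (Finset.mem_univ j))
  let ℓ' : Fin d → ℝ := fun i => ℓ i / |ℓ i0|
  have h1 : ∀ i, |ℓ' i| ≤ 1 := fun i => by
    rw [abs_div, abs_abs, div_le_one hm]; exact hi0 i (Finset.mem_univ i)
  have h2 : |ℓ' i0| = 1 := by rw [abs_div, abs_abs, div_self hm.ne']
  have hA := ann_PA (v := stepVec (d := d)) pr_sum pr_meas hell'
  have key := Sys.zero_one (S := sys hA ℓ' i0 h1 h2) (S' := sys hA (-ℓ') i0 (by simpa using h1)
    (by simpa using h2)) (fun x => by simp [sys, dot]) rfl (envP_PA pr_sum pr_meas) (by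
      filter_upwards [ae_ell (G := Site d) hell'] with ω hω x w
      rw [Qm_cyl pr_sum]; exact wt_ne_zero hω x w)
    (tr hA ℓ' i0 h1 h2) lev (d + 1) (lev_le h1 h2) kraft
  have hE : MeasurableSet (Escape ℓ) := measurableSet_tendsto atTop fun n =>
    (Measurable.of_discrete (f := fun x : Site d => ∑ i, (x i : ℝ) * ℓ i)).comp
      (measurable_pi_apply n)
  have h3 : walk ⁻¹' Escape ℓ = (sys hA ℓ' i0 h1 h2).AL := by
    ext ζ
    change Tendsto (fun n => ∑ i, (walk ζ n i : ℝ) * ℓ i) atTop atTop ↔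
      Tendsto (fun n => ∑ i, (walk ζ n i : ℝ) * (ℓ i / |ℓ i0|)) atTop atTop
    simp only [← mul_div_assoc, ← Finset.sum_div]
    exact (tendsto_div_const_atTop_of_pos hm).symm
  have h4 : annealed μ P (Escape ℓ) = (sys hA ℓ' i0 h1 h2).P (sys hA ℓ' i0 h1 h2).AL := by
    rw [annealed, Measure.bind_apply hE P.aemeasurable]
    change _ = PA stepVec pr μ _
    rw [PA_apply pr_sum pr_meas Sys.measurableSet_AL, ← h3]
    refine lintegral_congr fun ω => ?_
    rw [hP.eq ω]
    exact Measure.map_apply measurable_walk hE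
  rw [h4]; exact key

end Vale.Agent.P147
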