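import Vale.Agent.P147.Ann

open MeasureTheory Set
open scoped ENNReal

namespace Vale.Agent.P147

variable {σ G : Type} [AddCommGroup G] [MeasurableSpace σ]

/-- a direction together with an annealed law -/
structure Sys (v : σ → G) where
  h : G →+ ℝ
  es : σ
  h_le : ∀ e, |h (v e)| ≤ 1
  h_es : h (v es) = 1
  P : Measure (ℕ → σ)
  ann : Ann v P

namespace Sys

variable {v : σ → G} (S : Sys v)

instance : IsProbabilityMeasure S.P := S.ann.prob

def ht (w : List σ) : ℝ := S.h (pos v w)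
noncomputable def q (w : List σ) : ℝ≥0∞ := S.P (cyl w)
def Above (w : List σ) : Prop := ∀ u, u <+: w → 0 ≤ S.ht u
def Rec (w : List σ) : Prop := ∀ u, u <+: w → u ≠ w → S.ht u < S.ht w
def Lad (w : List σ) : Prop := S.Above w ∧ S.Rec w
def Block (b : List σ) : Prop :=
  S.Lad b ∧ b ≠ [] ∧ ∀ u r, b = u ++ r → S.Lad u → S.Lad r → u = [] ∨ r = []
def L : ℕ → Set (List σ)
  | 0 => {[]}
  | N + 1 => {w | ∃ x : List σ × List σ, (S.Block x.1 ∧ x.2 ∈ L N) ∧ w = x.1 ++ x.2}
def Esc (a K : ℝ) : Set (List σ) := {r | (∀ u, u <+: r → 0 ≤ a + S.ht u) ∧ K < a + S.ht r}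
def EscInf : Set (ℕ → σ) := ⋂ n : ℕ, opn (S.Esc 0 n)
noncomputable def ct (s : ℝ) : ℝ≥0∞ := S.P (opn (S.Esc 0 s))
noncomputable def c : ℝ≥0∞ := S.P S.EscInf
noncomputable def E (N : ℕ) (F : List σ → ℝ≥0∞) : ℝ≥0∞ := ∑' w, ind (w ∈ S.L N) * (S.q w * F w)

@[simp] theorem ht_nil : S.ht [] = 0 := by simp [ht]
@[simp] theorem ht_append (w r : List σ) : S.ht (w ++ r) = S.ht w + S.ht r := by simp [ht]
theorem ht_cons (e : σ) (w : List σ) : S.ht (e :: w) = S.h (v e) + S.ht w := by simp [ht]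
theorem ht_single (e : σ) : |S.ht [e]| ≤ 1 := by simpa [ht] using S.h_le e
@[simp] theorem ht_es : S.ht [S.es] = 1 := by simp [ht, S.h_es]
theorem abs_ht_le (w : List σ) : |S.ht w| ≤ w.length := by
  induction w with
  | nil => simp
  | cons e w ih =>
    rw [ht_cons]
    refine (abs_add_le _ _).trans ?_
    have := S.h_le e
    simp only [List.length_cons]; push_cast; linarith

@[simp] theorem q_nil : S.q [] = 1 := by simp [q]
theorem q_ne (w : List σ) : S.q w ≠ 0 := S.ann.ne w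
theorem q_le_one (w : List σ) : S.q w ≤ 1 := prob_le_one
theorem q_ne_top (w : List σ) : S.q w ≠ ∞ := measure_ne_top _ _
theorem c_le_one : S.c ≤ 1 := prob_le_one
theorem c_ne_top : S.c ≠ ∞ := measure_ne_top _ _

variable {S}

theorem Above.pfx {w u : List σ} (h : S.Above w) (hu : u <+: w) : S.Above u :=
  fun u' h' => h u' (h'.trans hu)

theorem Rec.le {w u : List σ} (h : S.Rec w) (hu : u <+: w) : S.ht u ≤ S.ht w := by
  by_cases h' : u = w
  · rw [h']
  · exact (h u hu h').le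

theorem Rec.sfx {w r : List σ} (h : S.Rec (w ++ r)) : S.Rec r := by
  intro u hu hne
  have := h (w ++ u) ((List.prefix_append_right_inj w).2 hu) (by simpa using hne)
  simpa using this

theorem Rec.disj {w r : List σ} (hw : S.Rec w) (hr : S.Above r) : Disj v w (pos v w) r := by
  intro u hu hne u' hu' _ h
  have h1 := hw u hu hne
  have h2 := hr u' hu'
  have := congrArg S.h h
  simp only [ht, map_add] at *
  linarith

theorem q_append {w r : List σ} (hw : S.Rec w) (hr : S.Above r) : S.q (w ++ r) = S.q w * S.q r :=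
  S.ann.mul w r (hw.disj hr)

theorem lad_nil : S.Lad [] := ⟨fun u hu => by simp [List.prefix_nil.1 hu],
  fun u hu h => (h (List.prefix_nil.1 hu)).elim⟩

theorem Above.append {w r : List σ} (hw : S.Above w) (hr : S.Above r) : S.Above (w ++ r) := by
  intro u hu
  rcases pfx_append_iff.1 hu with h | ⟨r', h, rfl⟩
  · exact hw u h
  · have := hw w List.prefix_rfl
    have := hr r' h
    simp only [ht_append]; linarith

theorem Lad.nonneg {w : List σ} (h : S.Lad w) : 0 ≤ S.ht w := h.1 w List.prefix_rfl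

theorem Lad.pos {w : List σ} (h : S.Lad w) (hw : w ≠ []) : 0 < S.ht w := by
  simpa using h.2 [] List.nil_prefix hw.symm

theorem Lad.append {w r : List σ} (hw : S.Lad w) (hr : S.Lad r) : S.Lad (w ++ r) := by
  refine ⟨hw.1.append hr.1, fun u hu hne => ?_⟩
  rcases pfx_append_iff.1 hu with h | ⟨r', h, rfl⟩
  · by_cases hr0 : r = []
    · subst hr0
      simpa using hw.2 u h (by simpa using hne)
    · have := hw.2.le h
      have := hr.pos hr0
      simp only [ht_append]; linarith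
  · simpa using hr.2 r' h (by simpa using hne)

theorem lad_of_L {N : ℕ} {w : List σ} (h : w ∈ S.L N) : S.Lad w := by
  induction N generalizing w with
  | zero => rw [show w = [] from h]; exact lad_nil
  | succ N ih =>
    obtain ⟨x, ⟨h1, h2⟩, rfl⟩ := h
    exact h1.1.append (ih h2)

theorem block_unique {b b' η η' : List σ} (hb : S.Block b) (hb' : S.Block b') (hη : S.Lad η)
    (hη' : S.Lad η') (h : b ++ η = b' ++ η') : b = b' := by
  wlog hl : b <+: b' generalizing b b' η η'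
  · refine (this hb' hb hη' hη h.symm ?_).symm
    exact (List.prefix_or_prefix_of_prefix (List.prefix_append b η)
      (h ▸ List.prefix_append b' η')).resolve_left hl
  obtain ⟨r, rfl⟩ := hl
  rw [List.append_assoc, List.append_cancel_left_eq] at h
  have hr : S.Lad r := ⟨hη.1.pfx (h ▸ List.prefix_append r η'), hb'.1.2.sfx⟩
  rcases hb'.2.2 b r rfl hb.1 hr with h | h
  · exact (hb.2.1 h).elim
  · simp [h]

theorem mem_L_succ {N : ℕ} {b η : List σ} (hb : S.Block b) (hη : η ∈ S.L N) :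
    b ++ η ∈ S.L (N + 1) := ⟨(b, η), ⟨hb, hη⟩, rfl⟩

theorem mem_L_one {b : List σ} : b ∈ S.L 1 ↔ S.Block b := by
  constructor
  · rintro ⟨x, ⟨h1, h2⟩, rfl⟩
    rw [show x.2 = [] from h2]; simpa using h1
  · intro h; simpa using mem_L_succ (N := 0) h (η := []) rfl

theorem L_append {N M : ℕ} {u r : List σ} (hu : u ∈ S.L N) (hr : r ∈ S.L M) :
    u ++ r ∈ S.L (N + M) := by
  induction N generalizing u with
  | zero => rw [show u = [] from hu]; simpa using hr
  | succ N ih =>
    obtain ⟨x, ⟨h1, h2⟩, rfl⟩ := hu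
    rw [List.append_assoc, show N + 1 + M = (N + M) + 1 by ring]
    exact mem_L_succ h1 (ih h2)

theorem no_ext {N : ℕ} {η u : List σ} (hη : η ∈ S.L N) (hu : S.Lad u) (h : η ++ u ∈ S.L N) :
    u = [] := by
  induction N generalizing η with
  | zero =>
    have : η ++ u = [] := h
    exact (List.append_eq_nil_iff.1 this).2
  | succ N ih =>
    obtain ⟨⟨b, η0⟩, ⟨h1, h2⟩, rfl⟩ := hη
    obtain ⟨⟨b', η'⟩, ⟨h3, h4⟩, h5⟩ := h
    simp only [List.append_assoc] at *
    obtain rfl := block_unique h1 h3 ((lad_of_L h2).append hu) (lad_of_L h4) h5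
    rw [List.append_cancel_left_eq] at h5
    exact ih h2 (h5 ▸ h4)

theorem exists_L {w : List σ} (hw : S.Lad w) : ∃ N, w ∈ S.L N := by
  induction hn : w.length using Nat.strong_induction_on generalizing w with
  | _ n ih =>
    by_cases h0 : w = []
    · exact ⟨0, h0⟩
    by_cases h : ∀ u r, w = u ++ r → S.Lad u → S.Lad r → u = [] ∨ r = []
    · exact ⟨1, mem_L_one.2 ⟨hw, h0, h⟩⟩
    push Not at h
    obtain ⟨u, r, rfl, hu, hr, hu0, hr0⟩ := h
    have h1 := List.length_pos_iff.2 hu0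
    have h2 := List.length_pos_iff.2 hr0
    simp only [List.length_append] at hn
    obtain ⟨N, hN⟩ := ih _ (by omega) hu rfl
    obtain ⟨M, hM⟩ := ih _ (by omega) hr rfl
    exact ⟨_, L_append hN hM⟩

theorem long_block {N : ℕ} {η u u' : List σ} (hη : η ∈ S.L N) (hu : u <+: η) (hu' : u' <+: u)
    (h : S.ht u < S.ht u') : ∃ k η0 b, η0 ∈ S.L k ∧ b ∈ S.L 1 ∧ η0 ++ b <+: η ∧
      S.ht η0 ≤ S.ht u ∧ S.ht u' ≤ S.ht η0 + S.ht b := by
  induction N generalizing η u u' with
  | zero =>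
    rw [show η = [] from hη, List.prefix_nil] at hu
    subst hu
    rw [List.prefix_nil] at hu'
    subst hu'
    exact (lt_irrefl _ h).elim
  | succ N ih =>
    obtain ⟨⟨b, η1⟩, ⟨h1, h2⟩, rfl⟩ := hη
    rcases pfx_append_iff.1 (hu'.trans hu) with h3 | ⟨r', h3, rfl⟩
    · refine ⟨0, [], b, rfl, mem_L_one.2 h1, by simp, ?_, by simpa using h1.1.2.le h3⟩
      simpa using (lad_of_L (mem_L_succ h1 h2)).1 u hu
    · obtain ⟨r, rfl⟩ := (List.prefix_append b r').trans hu'
      simp only [List.prefix_append_right_inj, ht_append, add_lt_add_iff_left] at hu hu' h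
      obtain ⟨k, η0, b', h4, h5, h6, h7, h8⟩ := ih h2 hu hu' h
      refine ⟨k + 1, b ++ η0, b', mem_L_succ h1 h4, h5, by simpa using h6, by simpa using h7, ?_⟩
      simp only [ht_append]; linarith

theorem block_es : S.Block [S.es] := by
  have hp : ∀ u, u <+: [S.es] → u = [] ∨ u = [S.es] := by
    intro u hu
    rcases List.prefix_cons_iff.1 hu with h | ⟨t, rfl, h⟩
    · exact Or.inl h
    · right; rw [List.prefix_nil.1 h]
  refine ⟨⟨fun u hu => ?_, fun u hu hne => ?_⟩, by simp, fun u r h _ _ => ?_⟩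
  · rcases hp u hu with rfl | rfl <;> simp
  · rcases hp u hu with rfl | rfl
    · simp
    · exact (hne rfl).elim
  · rcases hp u (h ▸ List.prefix_append u r) with rfl | rfl
    · exact Or.inl rfl
    · right; simpa using h

theorem mn_esc_le {a K : ℝ} {w u : List σ} (hw : w ∈ mn (S.Esc a K)) (hu : u <+: w) (hne : u ≠ w) :
    a + S.ht u ≤ K := by
  by_contra h
  exact hw.2 u hu hne ⟨fun u' h' => hw.1.1 u' (h'.trans hu), not_le.1 h⟩

theorem mn_esc_top {a K : ℝ} {w : List σ} (hw : w ∈ mn (S.Esc a K)) (ha : a ≤ K) :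
    a + S.ht w ≤ K + 1 := by
  rcases List.eq_nil_or_concat w with rfl | ⟨u, e, rfl⟩
  · simp; linarith
  · have := mn_esc_le hw (u := u) (by simp) (by simp)
    have h2 := (abs_le.1 (S.ht_single e)).2
    simp only [List.concat_eq_append, ht_append]; linarith

theorem mn_esc_lad {K : ℝ} {w : List σ} (hw : w ∈ mn (S.Esc 0 K)) : S.Lad w :=
  ⟨fun u hu => by simpa using hw.1.1 u hu, fun u hu hne => by
    have := mn_esc_le hw hu hne
    have := hw.1.2
    linarith⟩

theorem esc_anti {s t : ℝ} (h : s ≤ t) : opn (S.Esc 0 t) ⊆ opn (S.Esc 0 s) :=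
  opn_mono fun w hw => ⟨w, ⟨hw.1, h.trans_lt hw.2⟩, List.prefix_rfl⟩

theorem ct_anti {s t : ℝ} (h : s ≤ t) : S.ct t ≤ S.ct s := measure_mono (esc_anti h)

theorem escInf_subset (s : ℝ) : S.EscInf ⊆ opn (S.Esc 0 s) :=
  (iInter_subset _ ⌈s⌉₊).trans (esc_anti (Nat.le_ceil s))

theorem c_le_ct (s : ℝ) : S.c ≤ S.ct s := measure_mono (escInf_subset s)

theorem escInf_above {ζ : ℕ → σ} (h : ζ ∈ S.EscInf) {u : List σ} (hu : ζ ∈ cyl u) :
    S.Above u := by
  obtain ⟨r, hr, hζ⟩ := escInf_subset (u.length : ℝ) h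
  have h1 := hr.2
  have h2 := (abs_le.1 (S.abs_ht_le r)).2
  have : u <+: r := pfx_of_cyl hu hζ (by exact_mod_cast (by linarith : (u.length : ℝ) ≤ r.length))
  intro u' hu'
  simpa using hr.1 u' (hu'.trans this)

/-! linear properties of `E` -/

theorem E_mono {N : ℕ} {F F' : List σ → ℝ≥0∞} (h : ∀ w ∈ S.L N, F w ≤ F' w) :
    S.E N F ≤ S.E N F' :=
  ENNReal.tsum_le_tsum fun w => ind_mul_le_ind_mul fun hw => ⟨hw, by gcongr; exact h w hw⟩

theorem E_congr {N : ℕ} {F F' : List σ → ℝ≥0∞} (h : ∀ w ∈ S.L N, F w = F' w) :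
    S.E N F = S.E N F' :=
  le_antisymm (E_mono fun w hw => (h w hw).le) (E_mono fun w hw => (h w hw).ge)

theorem E_add (N : ℕ) (F F' : List σ → ℝ≥0∞) :
    S.E N (fun w => F w + F' w) = S.E N F + S.E N F' := by
  simp only [E, mul_add, ENNReal.tsum_add]

theorem E_const_mul (N : ℕ) (a : ℝ≥0∞) (F : List σ → ℝ≥0∞) :
    S.E N (fun w => a * F w) = a * S.E N F := by
  simp only [E, ← ENNReal.tsum_mul_left]
  exact tsum_congr fun w => by ring

theorem E_mul_const (N : ℕ) (a : ℝ≥0∞) (F : List σ → ℝ≥0∞) :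
    S.E N (fun w => F w * a) = S.E N F * a := by
  simp only [mul_comm _ a, E_const_mul]

theorem E_tsum {ι : Type*} (N : ℕ) (F : ι → List σ → ℝ≥0∞) :
    S.E N (fun w => ∑' i, F i w) = ∑' i, S.E N (F i) := by
  simp only [E, ← ENNReal.tsum_mul_left]
  exact ENNReal.tsum_comm

theorem E_sum {ι : Type*} (s : Finset ι) (N : ℕ) (F : ι → List σ → ℝ≥0∞) :
    S.E N (fun w => ∑ i ∈ s, F i w) = ∑ i ∈ s, S.E N (F i) := by
  classical
  induction s using Finset.induction_on with
  | empty => simp [E]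
  | insert i s hi ih => simp only [Finset.sum_insert hi, E_add, ih]

theorem le_E {N : ℕ} {w : List σ} (hw : w ∈ S.L N) (F : List σ → ℝ≥0∞) :
    S.q w * F w ≤ S.E N F := by
  refine le_trans ?_ (ENNReal.le_tsum w)
  simp [ind_pos hw]

theorem E_zero (F : List σ → ℝ≥0∞) : S.E 0 F = F [] := by
  have := tsum_ind_eq ([] : List σ) fun w => S.q w * F w
  rw [q_nil, one_mul] at this
  exact this

theorem E_succ (N : ℕ) (F : List σ → ℝ≥0∞) :
    S.E (N + 1) F = ∑' b, ind (S.Block b) * (S.q b * S.E N fun η => F (b ++ η)) := by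
  have h1 : ∀ w, ind (w ∈ S.L (N + 1)) =
      ∑' x : List σ × List σ, ind ((S.Block x.1 ∧ x.2 ∈ S.L N) ∧ w = x.1 ++ x.2) := by
    intro w
    rw [tsum_ind_unique]
    · rfl
    · rintro ⟨b, η⟩ ⟨b', η'⟩ ⟨⟨h1, h2⟩, h3⟩ ⟨⟨h4, h5⟩, h6⟩
      rw [h3] at h6
      obtain rfl := block_unique h1 h4 (lad_of_L h2) (lad_of_L h5) h6
      simpa using h6
  unfold E
  simp_rw [h1, ← ENNReal.tsum_mul_right, ind_and, mul_assoc]
  rw [ENNReal.tsum_comm, ENNReal.tsum_prod']
  simp_rw [ENNReal.tsum_mul_left, tsum_ind_eq]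
  refine tsum_congr fun b => ind_mul_congr fun hb => ?_
  rw [← ENNReal.tsum_mul_left]
  refine tsum_congr fun η => ?_
  rw [mul_left_comm (S.q b)]
  refine ind_mul_congr fun hη => ?_
  rw [q_append hb.1.2 (lad_of_L hη).1, mul_assoc]

theorem E_one (F : List σ → ℝ≥0∞) : S.E 1 F = ∑' b, ind (S.Block b) * (S.q b * F b) := by
  simp only [E, mem_L_one]

theorem E_split (N M : ℕ) (F : List σ → ℝ≥0∞) :
    S.E (N + M) F = S.E N fun η => S.E M fun η' => F (η ++ η') := by
  induction N generalizing F with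
  | zero => simp [E_zero]
  | succ N ih =>
    rw [show N + 1 + M = (N + M) + 1 by ring, E_succ, E_succ]
    simp only [ih, List.append_assoc]

variable [DiscreteMeasurableSpace σ] [Countable σ]

theorem measurableSet_escInf : MeasurableSet S.EscInf :=
  MeasurableSet.iInter fun _ => measurableSet_opn _

theorem aft_escInf {η : List σ} (hη : S.Rec η) : S.P (aft η S.EscInf) = S.q η * S.c := by
  have h1 : aft η S.EscInf = ⋂ n : ℕ, aft η (opn (S.Esc 0 n)) := by
    ext ζ; simp [aft, EscInf, forall_and]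
  have ha : Antitone fun n : ℕ => opn (S.Esc 0 n) := fun m n h => esc_anti (by exact_mod_cast h)
  rw [h1, c, EscInf, ha.measure_iInter (fun n => (measurableSet_opn _).nullMeasurableSet)
    ⟨0, measure_ne_top _ _⟩, Antitone.measure_iInter (fun m n h => aft_mono η (ha h))
    (fun n => (measurableSet_aft η (measurableSet_opn _)).nullMeasurableSet)
    ⟨0, measure_ne_top _ _⟩, ENNReal.mul_iInf_of_ne (S.q_ne η) (S.q_ne_top η)]
  refine iInf_congr fun n => S.ann.aft_opn η _ fun r hr => hη.disj fun u hu => ?_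
  simpa using hr.1 u hu

theorem R2 (N : ℕ) (p : List σ → Prop) (T : Set (ℕ → σ))
    (h : ∀ η ∈ S.L N, p η → aft η S.EscInf ⊆ T) : S.c * S.E N (fun η => ind (p η)) ≤ S.P T := by
  rw [E, ← ENNReal.tsum_mul_left]
  refine le_trans (le_of_eq (tsum_congr fun η => ?_))
    (sum_le_meas S.P (fun η => η ∈ S.L N ∧ p η) (fun η => aft η S.EscInf) T ?_
      (fun η _ => measurableSet_aft η measurableSet_escInf) fun η hη => h η hη.1 hη.2)
  · rw [ind_and, mul_left_comm, mul_assoc]
    refine ind_mul_congr fun hη => ?_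
    rw [aft_escInf (lad_of_L hη).2]; ring
  · intro η η' ζ h1 h2 h3 h4
    wlog hl : η <+: η' generalizing η η'
    · exact (this η' η h2 h1 h4 h3 ((cyl_cmp h3.1 h4.1).resolve_left hl)).symm
    obtain ⟨u, rfl⟩ := hl
    have := no_ext h1.1 ⟨escInf_above h3.2 (mem_cyl_append.1 h4.1).2, (lad_of_L h2.1).2.sfx⟩ h2.1
    simp [this]

theorem R2_opn (N : ℕ) (A : Set (List σ)) :
    S.c * S.E N (fun η => ind (∃ u ∈ A, u <+: η)) ≤ S.P (opn A) :=
  R2 N _ _ fun η _ ⟨_, hu, h⟩ => (aft_subset η _).trans (cyl_subset_opn hu h)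

end Sys

end Vale.Agent.P147
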