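import Vale.Agent.P147.Blame

open MeasureTheory Set
open scoped ENNReal

namespace Vale.Agent.P147

variable {σ G : Type} [AddCommGroup G] [MeasurableSpace σ] {v : σ → G}

/-- quenched laws averaging to an annealed law -/
structure EnvP (v : σ → G) {Ω : Type} [MeasurableSpace Ω] (Pe : Measure Ω)
    (Q : Ω → G → Measure (ℕ → σ)) (P : Measure (ℕ → σ)) : Prop where
  prob : IsProbabilityMeasure Pe
  mk' : ∀ ω, Mk v (Q ω)
  meas : ∀ x B, MeasurableSet B → Measurable fun ω => Q ω x B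
  avg : ∀ x B, MeasurableSet B → ∫⁻ ω, Q ω x B ∂Pe = P B
  mul : ∀ w z r, Disj v w z r →
    ∫⁻ ω, Q ω 0 (cyl w) * Q ω z (cyl r) ∂Pe = P (cyl w) * P (cyl r)

namespace Sys

variable {S S' : Sys v} {l T : ℝ} [DiscreteMeasurableSpace σ] [Countable σ]

theorem turn_le (hl : 0 ≤ l) : S.P (opn (S.Turn l T)) ≤ S.P (S.Dif l T) + S.Ule T * S.Gb l := by
  calc _ ≤ S.P (S.Dif l T ∪ opn (S.LB fun a H => a ≤ T ∧ l < H)) := by
        refine measure_mono ?_
        rintro ζ ⟨_, ⟨w, r, hw, hr, rfl⟩, hζ⟩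
        by_cases h : ζ ∈ opn (S.Esc 0 T)
        · right
          obtain ⟨π, hπ, h1⟩ := mem_opn_mn h
          have h2 : ∀ u, u <+: w ++ r → S.ht u ≤ T := by
            intro u hu
            rcases pfx_append_iff.1 hu with h | ⟨r', h, rfl⟩
            · exact (hw.1 u h).2
            · simpa using hr.1 r' h
          have h3 : w ++ r <+: π := by
            refine (cyl_cmp hζ h1).resolve_right fun h => ?_
            have := h2 π h
            have := hπ.1.2
            linarith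
          obtain ⟨N, hN⟩ := exists_L (mn_esc_lad hπ)
          have h4 := hr.2
          obtain ⟨k, η0, b, h5, h6, h7, h8, h9⟩ := long_block hN h3 (List.prefix_append w r)
            (by simp only [ht_append]; linarith)
          refine ⟨η0 ++ b, ⟨(k, η0, b), ⟨h5, h6, h8.trans (h2 _ List.prefix_rfl), ?_⟩, rfl⟩,
            cyl_mono h7 h1⟩
          simp only [ht_append] at h8 ⊢
          linarith
        · exact Or.inl ⟨⟨w, ⟨fun u hu => by simpa using (hw.1 u hu).1, by simpa using hw.2⟩,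
            cyl_mono (List.prefix_append w r) hζ⟩, h⟩
    _ ≤ _ := by
        refine (measure_union_le _ _).trans (add_le_add le_rfl ((meas_LB _).trans (le_of_eq ?_)))
        simp only [ind_and, E_const_mul, Ule, ← ENNReal.tsum_mul_right, ← E_mul_const, Gb]

/-- high gluing -/
def Ghi (S S' : Sys v) (l T : ℝ) (N : ℕ) (A : ℝ≥0∞) (i : G × List σ × List σ) : Prop :=
  (S.Valid S' l T i.1 i.2.1 i.2.2 ∧ l < S.h i.1 - S.ht i.2.2) ∧
    S.V N i.2.2 i.1 ≤ A * S.pN N i.1 * S.q i.2.2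

/-- low gluing -/
def Glo (S S' : Sys v) (l T : ℝ) (N : ℕ) (A : ℝ≥0∞) (i : G × List σ × List σ) : Prop :=
  (S.Valid S' l T i.1 i.2.1 i.2.2 ∧ S.h i.1 - S.ht i.2.2 ≤ l) ∧ S.Xi N i.2.2 ≤ A

theorem glue (hl : 0 ≤ l) {N N' : ℕ} (A A' : ℝ≥0∞) {η η' : List σ} (hη : η ∈ S.L N)
    (hη' : η' ∈ S.L N') :
    S'.c ≤ ind (S.ht (η ++ η') ≤ 3 * l) + ind (T < S.ht (η ++ η')) + ind (l < S.ht η') +
      ind (∃ u, u <+: η ∧ A * S.pN (N + N') (pos v η + pos v η') * S.q u <
        S.V (N + N') u (pos v η + pos v η')) + ind (A' < S.Xi (N + N') (η ++ η')) +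
      ∑' i : G × List σ × List σ, (ind (Ghi S S' l T (N + N') A i) +
        ind (Glo S S' l T (N + N') A' i)) * S'.q i.2.1 *
        (ind (i.2.2 <+: η ++ η') * ind (pos v (η ++ η') = i.1)) := by
  have hc := S'.c_le_one
  by_cases h1 : S.ht (η ++ η') ≤ 3 * l
  · rw [ind_pos h1]; simp only [add_assoc]; exact hc.trans le_self_add
  by_cases h2 : T < S.ht (η ++ η')
  · rw [ind_pos h2]; simp only [add_assoc]; exact hc.trans (le_add_left le_self_add)
  by_cases h3 : l < S.ht η'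
  · rw [ind_pos h3]; exact hc.trans (le_add_right (le_add_right (le_add_right le_add_self)))
  by_cases h4 : ∃ u, u <+: η ∧ A * S.pN (N + N') (pos v η + pos v η') * S.q u <
        S.V (N + N') u (pos v η + pos v η')
  · rw [ind_pos h4]; exact hc.trans (le_add_right (le_add_right le_add_self))
  by_cases h5 : A' < S.Xi (N + N') (η ++ η')
  · rw [ind_pos h5]; exact hc.trans (le_add_right le_add_self)
  refine le_add_left ((c_le_ct (2 * l)).trans ?_)
  rw [ct, meas_opn, ENNReal.tsum_prod']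
  refine le_trans ?_ (ENNReal.le_tsum (pos v (η ++ η')))
  rw [ENNReal.tsum_prod']
  refine ENNReal.tsum_le_tsum fun π => ind_mul_le fun hπ => ?_
  have hlad := lad_of_L (L_append hη hη')
  have hπ0 : [] ≠ π := by
    rintro rfl
    have := hπ.1.2
    simp at this; linarith
  obtain ⟨w, ⟨⟨h6, h7⟩, h8⟩, -⟩ := exists_mn (A := {w | w <+: η ++ η' ∧ ∃ u, u <+: π ∧ u ≠ π ∧
    pos v w = pos v (η ++ η') + pos v u}) (w := η ++ η')
    ⟨List.prefix_rfl, [], List.nil_prefix, hπ0, by simp⟩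
  have hv : S.Valid S' l T (pos v (η ++ η')) π w :=
    ⟨hπ, fun u hu => ⟨hlad.1 u (hu.trans h6), (hlad.2.le (hu.trans h6)).trans (not_lt.1 h2)⟩,
      not_le.1 h1, not_lt.1 h2, fun u hu hne u' hu' hne' h => h8 u hu hne
        ⟨hu.trans h6, u', hu', hne', h⟩, h7⟩
  refine le_trans ?_ (ENNReal.le_tsum w)
  simp only [ind_pos h6, ind_true, mul_one]
  refine le_mul_of_one_le_left' ?_
  by_cases h9 : l < S.h (pos v (η ++ η')) - S.ht w
  · rw [ind_pos (p := Ghi S S' l T (N + N') A _) ⟨⟨hv, h9⟩, ?_⟩]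
    · exact le_self_add
    · simp only [not_exists, not_and, not_lt] at h4
      rw [pos_append]
      refine h4 w ?_
      rcases pfx_append_iff.1 h6 with h | ⟨r, h, rfl⟩
      · exact h
      · have := (lad_of_L hη').1 r h
        simp only [ht, pos_append, map_add] at *
        linarith
  · rw [ind_pos (p := Glo S S' l T (N + N') A' _) ⟨⟨hv, not_lt.1 h9⟩,
      (Xi_mono h6).trans (not_lt.1 h5)⟩]
    exact le_add_self

variable [Countable G] {Ω : Type} [MeasurableSpace Ω] {Pe : Measure Ω}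
  {Q : Ω → G → Measure (ℕ → σ)}

theorem sum_Ghi (hh : ∀ x, S'.h x = -S.h x) (hP : S'.P = S.P) (hE : EnvP v Pe Q S.P) (hl : 0 ≤ l)
    (hc : S.c ≠ 0) (N : ℕ) (A : ℝ≥0∞) :
    ∑' i : G × List σ × List σ, ind (Ghi S S' l T N A i) * S'.q i.2.1 * S.V N i.2.2 i.1 ≤
      A * (2 * S.P (S.Dif l T) + 2 * S.P (S'.Dif l T)) := by
  have hm : ∀ z w π, Measurable fun ω => Q ω 0 (cyl w) * Q ω z (cyl π) := fun z w π =>
    (hE.meas _ _ (measurableSet_cyl _)).mul (hE.meas _ _ (measurableSet_cyl _))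
  conv_rhs => rw [← mul_one A, ← sum_pN hc N, ← ENNReal.tsum_mul_left, ← ENNReal.tsum_mul_right]
  rw [ENNReal.tsum_prod']
  refine ENNReal.tsum_le_tsum fun z => ?_
  calc _ ≤ ∑' i : List σ × List σ, A * S.pN N z * ∫⁻ ω, ind (S.Valid S' l T z i.1 i.2 ∧
        l < S.h z - S.ht i.2) * (Q ω 0 (cyl i.2) * Q ω z (cyl i.1)) ∂Pe := by
        refine ENNReal.tsum_le_tsum fun i => ?_
        rw [mul_assoc]
        refine ind_mul_le fun h => ?_
        simp only [ind_pos h.1, one_mul]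
        rw [hE.mul _ _ _ h.1.1.2.2.2.2.1]
        refine (mul_le_mul_right h.2 _).trans (le_of_eq ?_)
        simp only [q, hP]; ring
    _ ≤ _ := by
        rw [ENNReal.tsum_mul_left, ← lintegral_tsum fun i => ((hm _ _ _).const_mul _).aemeasurable]
        refine mul_le_mul_right ?_ _
        have h1 := hE.meas 0 _ (measurableSet_dif (S := S) (l := l) (T := T))
        have h2 := hE.meas z _ (measurableSet_dif (S := S') (l := l) (T := T))
        rw [← hE.avg 0 _ measurableSet_dif, ← hE.avg z _ measurableSet_dif,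
          ← lintegral_const_mul _ h1, ← lintegral_const_mul _ h2,
          ← lintegral_add_left (h1.const_mul _)]
        refine lintegral_mono fun ω => ?_
        rw [ENNReal.tsum_prod']
        exact high hh (hE.mk' ω) hl z

theorem sum_Glo (hh : ∀ x, S'.h x = -S.h x) (hP : S'.P = S.P) (hE : EnvP v Pe Q S.P)
    (N J : ℕ) {A : ℝ≥0∞} (hA : A ≠ ∞) :
    ∑' i : G × List σ × List σ, ind (Glo S S' l T N A i) * S'.q i.2.1 * S.V N i.2.2 i.1 ≤
      A * (2⁻¹ ^ J + 2 * J * S.P (opn (S.Turn l T))) := by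
  have := hE.prob
  have hm : ∀ z w π, Measurable fun ω => Q ω 0 (cyl w) * Q ω z (cyl π) := fun z w π =>
    (hE.meas _ _ (measurableSet_cyl _)).mul (hE.meas _ _ (measurableSet_cyl _))
  calc _ = ∑' i : G × List σ × List σ, ∫⁻ ω, ind (Glo S S' l T N A i) *
        (S.V N i.2.2 i.1 / S.q i.2.2) * (Q ω 0 (cyl i.2.2) * Q ω i.1 (cyl i.2.1)) ∂Pe := by
        refine tsum_congr fun i => ?_
        rw [lintegral_const_mul _ (hm _ _ _), mul_assoc, mul_assoc]
        refine ind_mul_congr fun h => ?_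
        rw [hE.mul _ _ _ h.1.1.2.2.2.2.1, ← mul_assoc]
        erw [ENNReal.div_mul_cancel (S.q_ne _) (S.q_ne_top _)]
        simp only [q, hP]; ring
    _ ≤ ∫⁻ ω, A * (2⁻¹ ^ J + 2 * J * Q ω 0 (opn (S.Turn l T))) ∂Pe := by
        rw [← lintegral_tsum fun i => ((hm _ _ _).const_mul _).aemeasurable]
        exact lintegral_mono fun ω => low3 hh (hE.mk' ω) N J hA
    _ = _ := by
        have h1 := hE.meas 0 _ (measurableSet_opn (S.Turn l T))
        rw [lintegral_const_mul' _ _ hA, lintegral_add_left measurable_const,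
          lintegral_const_mul _ h1, hE.avg 0 _ (measurableSet_opn _)]
        simp

theorem main_ineq (hh : ∀ x, S'.h x = -S.h x) (hP : S'.P = S.P) (hE : EnvP v Pe Q S.P)
    (hl : 0 ≤ l) (hc : S.c ≠ 0) (N N' J : ℕ) (A : ℝ≥0∞) {A' : ℝ≥0∞} (hA : A' ≠ ∞) :
    S'.c ≤ S.E (N + N') (fun η => ind (S.ht η ≤ 3 * l)) + S.E (N + N') (fun η => ind (T < S.ht η)) +
      S.E N' (fun η => ind (l < S.ht η)) + S.PX N N' A +
      S.E (N + N') (fun η => ind (A' < S.Xi (N + N') η)) +
      (A * (2 * S.P (S.Dif l T) + 2 * S.P (S'.Dif l T)) +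
      A' * (2⁻¹ ^ J + 2 * J * (S.P (S.Dif l T) + S.Ule T * S.Gb l))) := by
  refine ((E_const hc N S'.c).ge.trans (E_mono fun η hη => (E_const hc N' S'.c).ge.trans
    (E_mono fun η' hη' => glue (T := T) hl A A' hη hη'))).trans ?_
  simp only [E_add, E_const hc]
  rw [← E_split N N' fun η => ind (S.ht η ≤ 3 * l), ← E_split N N' fun η => ind (T < S.ht η),
    ← E_split N N' fun η => ind (A' < S.Xi (N + N') η),
    ← E_split N N' fun η => ∑' i : G × List σ × List σ, (ind (Ghi S S' l T (N + N') A i) +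
        ind (Glo S S' l T (N + N') A' i)) * S'.q i.2.1 *
        (ind (i.2.2 <+: η) * ind (pos v η = i.1))]
  refine add_le_add le_rfl ?_
  rw [E_tsum]
  simp only [add_mul, E_add, E_const_mul, ENNReal.tsum_add]
  refine add_le_add (sum_Ghi hh hP hE hl hc _ A) ((sum_Glo hh hP hE _ J hA).trans ?_)
  gcongr
  exact turn_le hl

end Sys

end Vale.Agent.P147
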