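import Vale.Agent.P147.Ladder

open MeasureTheory Set
open scoped ENNReal

namespace Vale.Agent.P147

variable {σ G : Type} [AddCommGroup G] [MeasurableSpace σ]

namespace Sys

variable {v : σ → G} (S : Sys v)

noncomputable def Gb (x : ℝ) : ℝ≥0∞ := S.E 1 fun b => ind (x < S.ht b)
noncomputable def κ : ℝ≥0∞ := S.q [S.es]
noncomputable def Uc (k : ℕ) : ℝ≥0∞ := ∑' N, S.E N fun η => ind (⌈S.ht η⌉₊ = k)
noncomputable def Ule (t : ℝ) : ℝ≥0∞ := ∑' N, S.E N fun η => ind (S.ht η ≤ t)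
noncomputable def mb : ℝ≥0∞ := S.E 1 fun b => ENNReal.ofReal (S.ht b)
def LB (Bad : ℝ → ℝ → Prop) : Set (List σ) :=
  {w | ∃ x : ℕ × List σ × List σ, (x.2.1 ∈ S.L x.1 ∧ x.2.2 ∈ S.L 1 ∧
    Bad (S.ht x.2.1) (S.ht x.2.2)) ∧ w = x.2.1 ++ x.2.2}

theorem κ_ne : S.κ ≠ 0 := S.q_ne _
theorem κ_ne_top : S.κ ≠ ∞ := S.q_ne_top _
theorem κ_le_one : S.κ ≤ 1 := S.q_le_one _

variable {S}

theorem Gb_anti {x y : ℝ} (h : x ≤ y) : S.Gb y ≤ S.Gb x :=
  E_mono fun _ _ => ind_mono fun h' => h.trans_lt h'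

theorem κ_le_Gb {x : ℝ} (hx : x < 1) : S.κ ≤ S.Gb x := by
  refine le_trans ?_ (le_E (mem_L_one.2 block_es) _)
  rw [ind_pos (by simpa using hx), mul_one]; rfl

theorem aft_escInf_subset {η : List σ} (hη : S.Above η) : aft η S.EscInf ⊆ S.EscInf := by
  intro ζ hζ
  refine mem_iInter.2 fun n => ?_
  obtain ⟨r, hr, h⟩ := mem_iInter.1 hζ.2 n
  refine ⟨η ++ r, ⟨fun u hu => ?_, ?_⟩, mem_cyl_append.2 ⟨hζ.1, h⟩⟩
  · simpa using hη.append (fun u hu => by simpa using hr.1 u hu) u hu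
  · have := hη η List.prefix_rfl
    have := hr.2
    simp only [ht_append]; linarith

variable [DiscreteMeasurableSpace σ] [Countable σ]

theorem meas_LB (Bad : ℝ → ℝ → Prop) : S.P (opn (S.LB Bad)) ≤
    ∑' k, S.E k fun η => S.E 1 fun b => ind (Bad (S.ht η) (S.ht b)) := by
  refine (meas_le_sum S.P (fun x : ℕ × List σ × List σ => x.2.1 ∈ S.L x.1 ∧ x.2.2 ∈ S.L 1 ∧
    Bad (S.ht x.2.1) (S.ht x.2.2)) (fun x => cyl (x.2.1 ++ x.2.2)) _ ?_).trans ?_
  · rintro ζ ⟨w, ⟨x, hx, rfl⟩, h⟩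
    exact ⟨x, hx, h⟩
  · rw [ENNReal.tsum_prod']
    refine ENNReal.tsum_le_tsum fun k => ?_
    rw [ENNReal.tsum_prod', E]
    refine ENNReal.tsum_le_tsum fun η => ?_
    rw [E, ← ENNReal.tsum_mul_left, ← ENNReal.tsum_mul_left]
    refine ENNReal.tsum_le_tsum fun b => ind_mul_le fun h => ?_
    rw [ind_pos h.1, ind_pos h.2.1, ind_pos h.2.2]
    have := q_append (lad_of_L h.1).2 (lad_of_L h.2.1).1
    simp only [one_mul, mul_one]
    exact this.le

theorem E_const_le (hc : S.c ≠ 0) (N : ℕ) : S.E N (fun _ => 1) ≤ 1 := by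
  have := R2 (S := S) N (fun _ => True) S.EscInf fun η hη _ => aft_escInf_subset (lad_of_L hη).1
  simp only [ind_true] at this
  refine (ENNReal.mul_le_mul_iff_right hc S.c_ne_top).1 ?_
  rw [mul_one]; exact this

theorem tele_step (hc : S.c ≠ 0) (s : ℝ) (N : ℕ) :
    S.E N (fun η => ind (S.ht η ≤ s) * S.Gb (s - S.ht η)) +
      S.E (N + 1) (fun η => ind (S.ht η ≤ s)) ≤ S.E N fun η => ind (S.ht η ≤ s) := by
  rw [E_split, ← E_add]
  refine E_mono fun η _ => ?_
  by_cases h : S.ht η ≤ s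
  · rw [ind_pos h, one_mul, Gb, ← E_add]
    refine le_trans (E_mono fun b _ => ?_) (E_const_le hc 1)
    rw [← ind_add_not (s - S.ht η < S.ht b)]
    gcongr
    refine ind_mono fun h' => ?_
    simp only [ht_append] at h'; linarith
  · rw [ind_neg h, zero_mul, zero_add]
    refine le_trans (E_mono (F' := fun _ => 0 * 1) fun b hb => ?_) (by rw [E_const_mul]; simp)
    rw [ind_neg]
    · simp
    · have := (lad_of_L hb).nonneg
      simp only [ht_append]; linarith [not_le.1 h]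

theorem tele (hc : S.c ≠ 0) (s : ℝ) :
    ∑' N, S.E N (fun η => ind (S.ht η ≤ s) * S.Gb (s - S.ht η)) ≤ 1 := by
  have : ∀ K, ∑ N ∈ Finset.range K, S.E N (fun η => ind (S.ht η ≤ s) * S.Gb (s - S.ht η)) +
      S.E K (fun η => ind (S.ht η ≤ s)) ≤ 1 := by
    intro K
    induction K with
    | zero => simp [E_zero, ind_le_one]
    | succ K ih =>
      rw [Finset.sum_range_succ, add_assoc]
      exact le_trans (by gcongr; exact tele_step hc s K) ih
  rw [ENNReal.tsum_eq_iSup_nat]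
  exact iSup_le fun K => le_trans le_self_add (this K)

theorem κ_Uc (hc : S.c ≠ 0) (k : ℕ) : S.κ * S.Uc k ≤ 1 := by
  refine le_trans ?_ (tele hc k)
  rw [Uc, ← ENNReal.tsum_mul_left]
  refine ENNReal.tsum_le_tsum fun N => ?_
  rw [← E_const_mul]
  refine E_mono fun η hη => ?_
  rw [mul_comm]
  refine ind_mul_le_ind_mul fun h => ⟨h ▸ Nat.le_ceil _, κ_le_Gb ?_⟩
  have := Nat.ceil_lt_add_one (lad_of_L hη).nonneg
  rw [h] at this; linarith

theorem c_le_Uc (k : ℕ) : S.c ≤ S.Uc (k + 1) := by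
  refine (c_le_ct k).trans ?_
  rw [ct, meas_opn, Uc]
  unfold E
  rw [ENNReal.tsum_comm]
  refine ENNReal.tsum_le_tsum fun w => ind_mul_le fun hw => ?_
  obtain ⟨N, hN⟩ := exists_L (mn_esc_lad hw)
  refine le_trans ?_ (ENNReal.le_tsum N)
  have h1 := hw.1.2
  have h2 := mn_esc_top hw (by positivity)
  beta_reduce
  rw [ind_pos hN, ind_pos, one_mul, mul_one]
  · rfl
  · rw [Nat.ceil_eq_iff (by omega)]
    constructor
    · simpa using h1
    · simpa using h2

omit [DiscreteMeasurableSpace σ] [Countable σ] in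
theorem sum_Uc (f : ℕ → ℝ≥0∞) :
    ∑' N, S.E N (fun η => f ⌈S.ht η⌉₊) = ∑' k, S.Uc k * f k := by
  simp only [Uc, ← ENNReal.tsum_mul_right, ← E_mul_const]
  rw [ENNReal.tsum_comm]
  simp only [← E_tsum, tsum_ind_eq']

theorem E_one_eq (hc : S.c ≠ 0) : S.E 1 (fun _ => 1) = 1 := by
  refine le_antisymm (E_const_le hc 1) (not_lt.1 fun hg => ?_)
  set g := S.E 1 fun _ => 1
  have h1 : ∀ N, S.E N (fun _ => 1) = g ^ N := by
    intro N
    induction N with
    | zero => simp [E_zero]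
    | succ N ih =>
      rw [E_split, pow_succ, ← ih, ← E_mul_const]; simp [g]
  have h2 := sum_Uc (S := S) fun _ => 1
  simp only [h1, mul_one, ENNReal.tsum_geometric] at h2
  have h3 : ∑' k, S.Uc k = ∞ := by
    refine top_unique (le_trans ?_ (ENNReal.tsum_comp_le_tsum_of_injective Nat.succ_injective _))
    refine le_trans ?_ (ENNReal.tsum_le_tsum fun k => c_le_Uc k)
    rw [ENNReal.tsum_const_eq_top_of_ne_zero hc]
  rw [h3, ENNReal.inv_eq_top, tsub_eq_zero_iff_le] at h2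
  exact hg.not_ge h2

theorem E_const (hc : S.c ≠ 0) (N : ℕ) (a : ℝ≥0∞) : S.E N (fun _ => a) = a := by
  have h1 : ∀ N, S.E N (fun _ => 1) = 1 := by
    intro N
    induction N with
    | zero => simp [E_zero]
    | succ N ih => rw [E_split]; simp [E_one_eq hc, ih]
  have := E_const_mul (S := S) N a fun _ => 1
  simpa [h1] using this

theorem E_le (hc : S.c ≠ 0) {N : ℕ} {F : List σ → ℝ≥0∞} {a : ℝ≥0∞} (h : ∀ w ∈ S.L N, F w ≤ a) :
    S.E N F ≤ a := (E_mono h).trans (E_const hc N a).le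

theorem sum_Gb (hc : S.c ≠ 0) (n : ℕ) : S.c * ∑ k ∈ Finset.range n, S.Gb (n - k) ≤ 1 := by
  classical
  refine le_trans ?_ (tele hc n)
  calc S.c * ∑ k ∈ Finset.range n, S.Gb (n - k)
      ≤ ∑ k ∈ Finset.range n, S.Uc (k + 1) * S.Gb (n - k) := by
        rw [Finset.mul_sum]; gcongr; exact c_le_Uc _
    _ = ∑' N, S.E N fun η => ∑ k ∈ Finset.range n, ind (⌈S.ht η⌉₊ = k + 1) * S.Gb (n - k) := by
        simp only [E_sum, E_mul_const, Uc, ← ENNReal.tsum_mul_right]
        rw [Summable.tsum_finsetSum fun _ _ => ENNReal.summable]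
    _ ≤ _ := by
        refine ENNReal.tsum_le_tsum fun N => E_mono fun η hη => ?_
        refine le_trans (ENNReal.sum_le_tsum (f := fun k => ind (k ∈ Finset.range n ∧
          ⌈S.ht η⌉₊ = k + 1) * S.Gb (n - k)) (Finset.range n) |>.trans' (le_of_eq ?_)) ?_
        · refine Finset.sum_congr rfl fun k hk => ?_
          rw [ind_and, ind_pos hk, one_mul]
        · refine tsum_ind_mul_le _ (fun i j hi hj => by omega) _ _ fun k hk => ?_
          obtain ⟨h1, h2⟩ := hk
          rw [Nat.ceil_eq_iff (by omega)] at h2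
          have h3 : ((k + 1 : ℕ) : ℝ) ≤ n := by exact_mod_cast Finset.mem_range.1 h1
          rw [ind_pos (h2.2.trans h3), one_mul]
          refine Gb_anti ?_
          have := h2.1
          simp only [add_tsub_cancel_right] at this
          linarith

theorem ofReal_le_tsum (x : ℝ) : ENNReal.ofReal x ≤ ∑' j : ℕ, ind ((j : ℝ) < x) := by
  refine le_trans ?_ (ENNReal.sum_le_tsum (Finset.range ⌈x⌉₊))
  rw [Finset.sum_congr rfl (g := fun _ => 1) fun j hj => ind_pos (Nat.lt_ceil.1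
    (Finset.mem_range.1 hj))]
  simp only [Finset.sum_const, Finset.card_range, nsmul_eq_mul, mul_one]
  rw [← ENNReal.ofReal_natCast]
  exact ENNReal.ofReal_le_ofReal (Nat.le_ceil x)

theorem mb_ne_top (hc : S.c ≠ 0) : S.mb ≠ ∞ := by
  have h1 : S.mb ≤ ∑' j : ℕ, S.Gb j := by
    unfold mb Gb
    rw [← E_tsum]
    exact E_mono fun b _ => ofReal_le_tsum _
  have h2 : S.c * ∑' j : ℕ, S.Gb (j + 1 : ℕ) ≤ 1 := by
    rw [ENNReal.tsum_eq_iSup_nat, ENNReal.mul_iSup]
    refine iSup_le fun n => le_trans (le_of_eq ?_) (sum_Gb hc n)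
    congr 1
    rw [← Finset.sum_range_reflect]
    refine Finset.sum_congr rfl fun k hk => ?_
    have := Finset.mem_range.1 hk
    congr 1
    rw [show n - 1 - k + 1 = n - k by omega, Nat.cast_sub this.le]
  refine ne_top_of_le_ne_top ?_ h1
  rw [tsum_eq_zero_add' ENNReal.summable]
  refine ENNReal.add_ne_top.2 ⟨ne_top_of_le_ne_top ENNReal.one_ne_top
    (E_le hc fun _ _ => ind_le_one _), fun h => ?_⟩
  rw [h, ENNReal.mul_top hc] at h2
  simp at h2

theorem E_ht (hc : S.c ≠ 0) (N : ℕ) : S.E N (fun η => ENNReal.ofReal (S.ht η)) ≤ N * S.mb := by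
  induction N with
  | zero => simp [E_zero]
  | succ N ih =>
    rw [E_split]
    calc _ ≤ S.E N fun η => ENNReal.ofReal (S.ht η) + S.mb := by
          refine E_mono fun η _ => ?_
          rw [mb, ← E_const hc 1 (ENNReal.ofReal (S.ht η)), ← E_add]
          refine E_mono fun b _ => ?_
          rw [ht_append]; exact ENNReal.ofReal_add_le
      _ ≤ _ := by
          rw [E_add, E_const hc]; push_cast; rw [add_mul, one_mul]; gcongr

theorem markov (hc : S.c ≠ 0) (N : ℕ) (t : ℕ) :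
    t * S.E N (fun η => ind ((t : ℝ) < S.ht η)) ≤ N * S.mb := by
  refine le_trans ?_ (E_ht hc N)
  rw [← E_const_mul]
  refine E_mono fun η _ => ?_
  rw [mul_comm]
  refine ind_mul_le fun h => ?_
  rw [← ENNReal.ofReal_natCast]
  exact ENNReal.ofReal_le_ofReal h.le

theorem κ_Ule (hc : S.c ≠ 0) (n : ℕ) : S.κ * S.Ule n ≤ n + 1 := by
  have h1 : S.Ule n = ∑' k, S.Uc k * ind (k ∈ Finset.range (n + 1)) := by
    rw [← sum_Uc]
    refine tsum_congr fun N => E_congr fun η _ => ind_congr ?_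
    rw [Finset.mem_range, Nat.lt_succ_iff, Nat.ceil_le]
  rw [h1, tsum_eq_sum (s := Finset.range (n + 1)) fun k hk => by rw [ind_neg hk, mul_zero],
    Finset.mul_sum]
  refine le_trans (Finset.sum_le_sum (g := fun _ => 1) fun k hk => ?_) (by simp)
  rw [ind_pos hk, mul_one]; exact κ_Uc hc k

theorem mul_E_le (hc : S.c ≠ 0) (N : ℕ) (s : ℝ) :
    N * S.E N (fun η => ind (S.ht η ≤ s)) ≤ S.Ule s := by
  have ha : Antitone fun N => S.E N fun η => ind (S.ht η ≤ s) :=
    antitone_nat_of_succ_le fun N => le_trans le_add_self (tele_step hc s N)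
  refine le_trans ?_ (ENNReal.sum_le_tsum (Finset.range N))
  refine le_trans (le_of_eq ?_) (Finset.sum_le_sum (f := fun _ => S.E N fun η => ind (S.ht η ≤ s))
    fun k hk => ha (Finset.mem_range.1 hk).le)
  simp

end Sys

end Vale.Agent.P147
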