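import Vale.Agent.P147.Contra

open MeasureTheory Set Filter
open scoped ENNReal

namespace Vale.Agent.P147

variable {σ G : Type} [MeasurableSpace σ] [DiscreteMeasurableSpace σ] [Countable σ]

theorem levy (P : Measure (ℕ → σ)) [IsFiniteMeasure P] {E : Set (ℕ → σ)} (hE : MeasurableSet E)
    {a : ℝ≥0∞} (ha : a ≠ 0) (h : ∀ m : ℕ, ∃ W : Set (List σ), E ⊆ opn W ∧ ∀ w ∈ W, m ≤ w.length ∧
      ∃ B, MeasurableSet B ∧ aft w B ⊆ Eᶜ ∧ a * P (cyl w) ≤ P (aft w B)) : P E = 0 := by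
  letI : TopologicalSpace σ := ⊥
  have : DiscreteTopology σ := ⟨rfl⟩
  have key : ∀ u : List σ, a * P (cyl u ∩ E) ≤ P (cyl u \ E) := by
    intro u
    obtain ⟨W, h1, h2⟩ := h u.length
    choose! hl B hB h3 h4 using h2
    calc _ ≤ a * ∑' w, ind (w ∈ mn W ∧ u <+: w) * P (cyl w) := by
          refine mul_le_mul_right (meas_le_sum _ _ _ _ fun ζ hζ => ?_) _
          obtain ⟨w, hw, h5⟩ := mem_opn_mn (h1 hζ.2)
          exact ⟨w, ⟨hw, pfx_of_cyl hζ.1 h5 (hl w hw.1)⟩, h5⟩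
      _ ≤ ∑' w, ind (w ∈ mn W ∧ u <+: w) * P (aft w (B w)) := by
          rw [← ENNReal.tsum_mul_left]
          refine ENNReal.tsum_le_tsum fun w => ?_
          rw [mul_left_comm]
          exact ind_mul_le_ind_mul fun hw => ⟨hw, h4 w hw.1.1⟩
      _ ≤ _ := sum_le_meas _ _ _ _ (fun _ _ _ h h' h5 h6 => mn_cyl_eq h.1 h'.1 h5.1 h6.1)
          (fun w hw => measurableSet_aft w (hB w hw.1.1))
          fun w hw ζ hζ => mem_sdiff_of_mem (cyl_mono hw.2 hζ.1) (h3 w hw.1.1 hζ)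
  by_contra h0
  obtain ⟨U, hU1, hU2, -, hU3⟩ := hE.exists_isOpen_sdiff_lt (measure_ne_top P E) (mul_ne_zero ha h0)
  refine hU3.not_ge ?_
  let A : Set (List σ) := {u | cyl u ⊆ U}
  calc a * P E ≤ a * ∑' u, ind (u ∈ mn A) * P (cyl u ∩ E) := by
        refine mul_le_mul_right (meas_le_sum _ _ _ _ fun ζ hζ => ?_) _
        obtain ⟨I, t, h1, h2⟩ := isOpen_pi_iff.1 hU2 ζ (hU1 hζ)
        obtain ⟨n, hn⟩ := I.exists_nat_subset_range
        obtain ⟨u, hu, h3⟩ := mem_opn_mn (A := A) (ζ := ζ) ⟨pre n ζ, fun ξ hξ => h2 fun i hi => by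
          rw [mem_cyl, pre_length, pre, pre, List.map_inj_left] at hξ
          rw [hξ i (by simpa using hn hi)]
          exact (h1 i hi).2, mem_cyl_pre n ζ⟩
        exact ⟨u, hu, h3, hζ⟩
    _ ≤ ∑' u, ind (u ∈ mn A) * P (cyl u \ E) := by
        rw [← ENNReal.tsum_mul_left]
        refine ENNReal.tsum_le_tsum fun u => ?_
        rw [mul_left_comm]
        exact mul_le_mul_right (key u) _
    _ ≤ _ := sum_le_meas _ _ _ _ (fun _ _ _ h h' h5 h6 => mn_cyl_eq h h' h5.1 h6.1)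
        (fun u _ => (measurableSet_cyl u).diff hE) fun u hu ζ hζ => mem_sdiff_of_mem (hu.1 hζ.1) hζ.2

theorem measurable_pre (n : ℕ) (p : List σ → Prop) : Measurable fun ζ : ℕ → σ => p (pre n ζ) :=
  measurableSet_setOfPred.1 (measurableSet_pre n p)

variable [AddCommGroup G] {v : σ → G}

namespace Sys

/-- escape event -/
def AL (S : Sys v) : Set (ℕ → σ) := {ζ | Tendsto (fun n => S.ht (pre n ζ)) atTop atTop}

variable {S S' : Sys v}

omit [DiscreteMeasurableSpace σ] [Countable σ] in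
theorem not_mem_AL {ζ : ℕ → σ} (h : ζ ∉ S.AL) :
    ∃ K : ℕ, ∀ m, ∃ n, m ≤ n ∧ S.ht (pre n ζ) < K := by
  simp only [AL, mem_ofPred_eq, tendsto_atTop_atTop, not_forall, not_exists, not_le] at h
  obtain ⟨b, hb⟩ := h
  refine ⟨⌈b⌉₊, fun m => ?_⟩
  obtain ⟨n, h1, h2⟩ := hb m
  exact ⟨n, h1, h2.trans_le (Nat.le_ceil b)⟩

theorem AL_null (hc : S.c = 0) : S.P S.AL = 0 := by
  have ha : Antitone fun n : ℕ => opn (S.Esc 0 n) := fun m n h => esc_anti (by exact_mod_cast h)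
  have h1 : ∀ w, S.P (aft w S.EscInf) = 0 := by
    intro w
    refine le_antisymm (le_trans ?_ hc.le) zero_le
    rw [c, EscInf, ha.measure_iInter (fun n => (measurableSet_opn _).nullMeasurableSet)
      ⟨0, measure_ne_top _ _⟩]
    exact le_iInf fun n => (measure_mono (aft_mono w (iInter_subset _ n))).trans
      (S.ann.aft_opn_le w _)
  refine measure_mono_null ?_ (measure_iUnion_null h1)
  intro ζ hζ
  obtain ⟨n, hn⟩ := Tendsto.exists_forall_le (f := fun n => S.ht (pre n ζ))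
    (by rw [Nat.cofinite_eq_atTop]; exact hζ)
  refine mem_iUnion.2 ⟨pre n ζ, mem_cyl_pre n ζ, mem_iInter.2 fun k => ?_⟩
  obtain ⟨m, hm⟩ := (tendsto_atTop_atTop.1 hζ) (S.ht (pre n ζ) + k + 1)
  have h2 := hm (n + m) (by omega)
  rw [pre_length]
  refine ⟨pre m (sh n ζ), ⟨fun u hu => ?_, ?_⟩, mem_cyl_pre _ _⟩
  · have h3 := hn (n + u.length)
    rw [pre_add, mem_cyl.1 (cyl_mono hu (mem_cyl_pre _ _)), ht_append] at h3
    linarith
  · rw [pre_add, ht_append] at h2; linarith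

theorem null_unbdd (hc : S.c ≠ 0) (K : ℕ) : S.P {ζ | (∀ s : ℕ, ∃ n, s < S.ht (pre n ζ)) ∧
    ∀ m, ∃ n, m ≤ n ∧ S.ht (pre n ζ) < K} = 0 := by
  refine levy _ (measurableSet_setOfPred.2 ?_) hc fun m => ⟨mn {w | (K + m : ℕ) < S.ht w}, ?_, ?_⟩
  · exact (Measurable.forall fun s : ℕ => .exists fun n => measurable_pre n fun w => s < S.ht w).and
      (.forall fun m => .exists fun n => measurable_const.and
        (measurable_pre n fun w => S.ht w < K))
  · intro ζ hζ
    obtain ⟨n, hn⟩ := hζ.1 (K + m)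
    exact mem_opn_mn ⟨pre n ζ, hn, mem_cyl_pre n ζ⟩
  · intro w hw
    have h1 : ((K + m : ℕ) : ℝ) < S.ht w := hw.1
    have h2 := (abs_le.1 (S.abs_ht_le w)).2
    push_cast at h1
    refine ⟨?_, S.EscInf, measurableSet_escInf, fun ζ hζ h => ?_, ?_⟩
    · have : (0 : ℝ) ≤ K := by positivity
      exact_mod_cast (by linarith : (m : ℝ) ≤ w.length)
    · obtain ⟨n, h3, h4⟩ := h.2 w.length
      obtain ⟨k, rfl⟩ := Nat.exists_eq_add_of_le h3
      rw [pre_add, mem_cyl.1 hζ.1, ht_append] at h4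
      have := escInf_above hζ.2 (mem_cyl_pre k _) _ List.prefix_rfl
      have : (0 : ℝ) ≤ m := by positivity
      linarith
    · rw [aft_escInf, mul_comm]
      · rfl
      · intro u hu hne
        have : ¬ ((K + m : ℕ) : ℝ) < S.ht u := hw.2 u hu hne
        push_cast at this
        linarith

omit [DiscreteMeasurableSpace σ] [Countable σ] in
theorem ht_replicate (r : ℕ) : S.ht (List.replicate r S.es) = r := by
  induction r with
  | zero => simp
  | succ r ih => rw [List.replicate_succ, ht_cons, ih, S.h_es]; push_cast; ring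

theorem null_site {Ω : Type} [MeasurableSpace Ω] {Pe : Measure Ω} {Q : Ω → G → Measure (ℕ → σ)}
    (hE : EnvP v Pe Q S.P) (hell : ∀ᵐ ω ∂Pe, ∀ x w, Q ω x (cyl w) ≠ 0) (K : ℕ) (y : G) :
    S.P {ζ | (∀ n, S.ht (pre n ζ) ≤ K) ∧ ∀ m, ∃ n, m ≤ n ∧ pos v (pre n ζ) = y} = 0 := by
  have hm : MeasurableSet {ζ : ℕ → σ | (∀ n, S.ht (pre n ζ) ≤ K) ∧
      ∀ m, ∃ n, m ≤ n ∧ pos v (pre n ζ) = y} := measurableSet_setOfPred.2
    ((Measurable.forall fun n => measurable_pre n fun w => S.ht w ≤ K).and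
      (.forall fun m => .exists fun n => measurable_const.and
        (measurable_pre n fun w => pos v w = y)))
  rw [← hE.avg 0 _ hm, lintegral_eq_zero_iff (hE.meas 0 _ hm)]
  filter_upwards [hell] with ω hω
  have := (hE.mk' ω).prob 0
  obtain ⟨r, hr⟩ := exists_nat_gt (K - S.h y)
  refine levy _ hm (hω y (List.replicate r S.es)) fun m =>
    ⟨{w | m ≤ w.length ∧ pos v w = y}, fun ζ hζ => ?_, fun w hw =>
      ⟨hw.1, _, measurableSet_cyl (List.replicate r S.es), fun ζ hζ h => ?_, ?_⟩⟩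
  · obtain ⟨n, h1, h2⟩ := hζ.2 m
    exact ⟨pre n ζ, ⟨by simpa using h1, h2⟩, mem_cyl_pre n ζ⟩
  · rw [← cyl_append] at hζ
    have h1 := h.1 (w ++ List.replicate r S.es).length
    rw [mem_cyl.1 hζ, ht_append, ht_replicate, ht, hw.2] at h1
    linarith
  · rw [(hE.mk' ω).markov _ _ _ (measurableSet_cyl _), hw.2, zero_add, mul_comm]

theorem null_rec (T : Tr S) (K : ℕ) : S.P {ζ | (∀ n, S.ht (pre n ζ) ≤ K) ∧
    ∀ t : ℕ, ∃ n, -K ≤ S.ht (pre n ζ) ∧ t < T.ρ (pos v (pre n ζ))} = 0 := by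
  have h0 : ∀ w : List σ, T.ρ (pos v w) ≤ w.length := by
    intro w
    induction w with
    | nil => simp [T.zero]
    | cons e w ih =>
      have := T.add (v e) (pos v w)
      have := T.step e
      simp only [pos_cons, List.length_cons]; push_cast; linarith
  have h1 : ∀ j, T.ρ (pos v (List.replicate j S.es)) ≤ 0 := by
    intro j
    induction j with
    | zero => simp [T.zero]
    | succ j ih =>
      have := T.add (v S.es) (pos v (List.replicate j S.es))
      rw [List.replicate_succ, pos_cons]; linarith [T.es]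
  refine levy _ (measurableSet_setOfPred.2 ?_) (S.q_ne (List.replicate (2 * K + 1) S.es)) fun m =>
    ⟨mn {w | -K ≤ S.ht w ∧ m < T.ρ (pos v w)}, ?_, fun w hw =>
      ⟨?_, _, measurableSet_cyl (List.replicate (2 * K + 1) S.es), fun ζ hζ h => ?_, ?_⟩⟩
  · exact (Measurable.forall fun n => measurable_pre n fun w => S.ht w ≤ K).and
      (.forall fun t => .exists fun n => measurable_pre n fun w =>
        -K ≤ S.ht w ∧ t < T.ρ (pos v w))
  · intro ζ hζ
    obtain ⟨n, hn⟩ := hζ.2 m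
    exact mem_opn_mn ⟨pre n ζ, hn, mem_cyl_pre n ζ⟩
  · exact_mod_cast (hw.1.2.trans_le (h0 w)).le
  · rw [← cyl_append] at hζ
    have h2 := h.1 (w ++ List.replicate (2 * K + 1) S.es).length
    have h3 := hw.1.1
    rw [mem_cyl.1 hζ, ht_append, ht_replicate] at h2
    push_cast at h2
    linarith
  · rw [← cyl_append, S.ann.mul, mul_comm]
    · rfl
    · intro u hu hne u' hu' _ h
      obtain ⟨-, h2⟩ := List.prefix_replicate_iff.1 hu'
      have h3 := h1 u'.length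
      have h4 := ht_replicate (S := S) u'.length
      rw [← h2] at h3 h4
      refine hw.2 u hu hne ⟨?_, ?_⟩
      · have := hw.1.1
        have : (0 : ℝ) ≤ u'.length := by positivity
        simp only [ht, h, map_add] at *
        linarith
      · have := hw.1.2
        have h5 := T.add (pos v u) (-pos v u')
        rw [T.neg, h, add_neg_cancel_right, ← h] at h5
        linarith

theorem measurableSet_AL : MeasurableSet S.AL := by
  refine measurableSet_tendsto atTop fun n => ?_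
  exact fun B _ => measurableSet_pre n fun w => S.ht w ∈ B

theorem zero_one [Countable G] {Ω : Type} [MeasurableSpace Ω] {Pe : Measure Ω}
    {Q : Ω → G → Measure (ℕ → σ)} (hh : ∀ x, S'.h x = -S.h x) (hP : S'.P = S.P)
    (hE : EnvP v Pe Q S.P) (hell : ∀ᵐ ω ∂Pe, ∀ x w, Q ω x (cyl w) ≠ 0)
    (T : Tr S) (lev : G → ℕ) (D : ℕ) (hlev : ∀ z m, |S.h z| + T.ρ z < 2 ^ m → lev z ≤ m)
    (hμ : ∑' z, (2⁻¹ : ℝ≥0∞) ^ (D * (lev z + 1)) ≤ 1) : S.P S.AL = 0 ∨ S.P S.AL = 1 := by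
  by_cases hc : S.c = 0
  · exact Or.inl (AL_null hc)
  right
  have h1 := AL_null ((no_both' hh hP hE T lev D hlev hμ).resolve_left hc)
  rw [hP] at h1
  rw [← prob_compl_eq_zero_iff measurableSet_AL]
  refine measure_mono_null ?_ (measure_union_null (measure_union_null
    (measure_iUnion_null (null_unbdd hc)) h1) (measure_union_null
    (measure_iUnion_null (null_rec T)) (measure_iUnion_null fun K => measure_iUnion_null
      (null_site hE hell K))))
  intro ζ hζ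
  by_cases h2 : ∀ s : ℕ, ∃ n, s < S.ht (pre n ζ)
  · obtain ⟨K, hK⟩ := not_mem_AL hζ
    exact Or.inl (Or.inl (mem_iUnion.2 ⟨K, h2, hK⟩))
  by_cases h3 : ζ ∈ S'.AL
  · exact Or.inl (Or.inr h3)
  right
  push Not at h2
  obtain ⟨K0, h2⟩ := h2
  obtain ⟨K1, h3⟩ := not_mem_AL h3
  have h4 : ∀ n, S.ht (pre n ζ) ≤ (K0 + K1 : ℕ) := fun n => (h2 n).trans (by simp)
  by_cases h5 : ∀ t : ℕ, ∃ n, -(K0 + K1 : ℕ) ≤ S.ht (pre n ζ) ∧ t < T.ρ (pos v (pre n ζ))
  · exact Or.inl (mem_iUnion.2 ⟨K0 + K1, h4, h5⟩)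
  right
  push Not at h5
  obtain ⟨t, h5⟩ := h5
  have hfin := ENNReal.finite_const_le_of_tsum_ne_top (ne_top_of_le_ne_top ENNReal.one_ne_top hμ)
    (ε := 2⁻¹ ^ (D * (K0 + K1 + t + 1))) (by simp)
  by_contra h6
  simp only [mem_iUnion, mem_ofPred_eq, not_exists, not_and, not_forall] at h6
  have h7 := (eventually_all_finite hfin (l := atTop)
    (p := fun y n => pos v (pre n ζ) ≠ y)).2 fun y _ => by
      obtain ⟨m, hm⟩ := h6 _ y h4
      exact eventually_atTop.2 ⟨m, hm⟩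
  obtain ⟨m, hm⟩ := eventually_atTop.1 h7
  obtain ⟨n, h8, h9⟩ := h3 m
  refine hm n h8 _ ?_ rfl
  have h10 : -((K0 + K1 : ℕ) : ℝ) ≤ S.ht (pre n ζ) := by
    have : (0 : ℝ) ≤ K0 := by positivity
    simp only [ht, hh] at h9 ⊢
    push_cast; linarith
  have h11 := hlev (pos v (pre n ζ)) (K0 + K1 + t) (by
    have h12 : |S.h (pos v (pre n ζ))| ≤ (K0 + K1 : ℕ) := abs_le.2 ⟨h10, h4 n⟩
    have h13 := h5 n h10
    have h14 : ((K0 + K1 + t : ℕ) : ℝ) < 2 ^ (K0 + K1 + t) := by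
      exact_mod_cast Nat.lt_two_pow_self
    push_cast at h12 h14
    linarith)
  exact pow_le_pow_right_of_le_one' (ENNReal.inv_le_one.2 one_le_two) (Nat.mul_le_mul_left D (by omega))

end Sys

end Vale.Agent.P147
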