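import Vale.Agent.P147.Renewal

open MeasureTheory Set
open scoped ENNReal

namespace Vale.Agent.P147

variable {σ G : Type} [AddCommGroup G] [MeasurableSpace σ] {v : σ → G}

/-- transversal seminorm -/
structure Tr (S : Sys v) where
  ρ : G → ℝ
  add : ∀ x y, ρ (x + y) ≤ ρ x + ρ y
  neg : ∀ x, ρ (-x) = ρ x
  zero : ρ 0 = 0
  step : ∀ e, ρ (v e) ≤ 1
  es : ρ (v S.es) = 0

namespace Sys
def Strip (S : Sys v) (k : ℝ) (w : List σ) : Prop := ∀ u, u <+: w → 0 ≤ S.ht u ∧ S.ht u ≤ k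
theorem Strip.pfx {S : Sys v} {k : ℝ} {w u : List σ} (h : S.Strip k w) (hu : u <+: w) :
    S.Strip k u := fun u' h' => h u' (h'.trans hu)
end Sys

namespace Tr

variable {S : Sys v} (T : Tr S)

def Cone (s k : ℝ) : Set (List σ) :=
  {w | (∀ u, u <+: w → 0 ≤ S.ht u ∧ T.ρ (pos v u) ≤ s * S.ht u) ∧ k < S.ht w}
noncomputable def β (s k : ℝ) : ℝ≥0∞ := S.P (opn (T.Cone s k))
def Trial (s : ℝ) (w : List σ) : Prop :=
  ∀ u, u <+: w → u ≠ w → s * (S.ht u - S.ht w) < T.ρ (pos v u - pos v w)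
def TT (s k t : ℝ) : Set (List σ) := {w | S.Strip k w ∧ T.Trial s w ∧ t ≤ T.ρ (pos v w)}
def Ext (k t : ℝ) : Set (List σ) := {w | S.Strip k w ∧ t ≤ T.ρ (pos v w)}

theorem nonneg (x : G) : 0 ≤ T.ρ x := by
  have := T.add x (-x)
  rw [add_neg_cancel, T.zero, T.neg] at this
  linarith

theorem tri (x y z : G) : T.ρ (x - z) ≤ T.ρ (x - y) + T.ρ (y - z) := by
  simpa using T.add (x - y) (y - z)

theorem symm (x y : G) : T.ρ (x - y) = T.ρ (y - x) := by rw [← T.neg, neg_sub]

variable {T}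

theorem exists_trial {s k : ℝ} (hs : 0 ≤ s) {w : List σ} (hw : S.Strip k w) :
    ∃ u, u <+: w ∧ T.Trial s u ∧ T.ρ (pos v w) ≤ T.ρ (pos v u) + s * k := by
  let φ : List σ → ℝ := fun u => s * S.ht u - T.ρ (pos v u - pos v w)
  have hfin : {u | u <+: w}.Finite := by
    convert List.finite_toSet w.inits using 1
    ext; simp
  obtain ⟨u0, hu0, hmax⟩ := Set.exists_max_image _ φ hfin ⟨w, List.prefix_rfl⟩
  obtain ⟨u, ⟨⟨h1, h2⟩, h3⟩, -⟩ := exists_mn
    (A := {u | u <+: w ∧ ∀ u', u' <+: w → φ u' ≤ φ u}) (w := u0) ⟨hu0, hmax⟩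
  refine ⟨u, h1, fun u' hu' hne => ?_, ?_⟩
  · have := h3 u' hu' hne
    simp only [mem_ofPred_eq, not_and, not_forall, not_le] at this
    obtain ⟨u'', h4, h5⟩ := this (hu'.trans h1)
    have h6 := h5.trans_le (h2 u'' h4)
    have := T.tri (pos v u') (pos v u) (pos v w)
    simp only [φ] at h6
    linarith
  · have h4 := h2 w List.prefix_rfl
    simp only [φ, sub_self, T.zero] at h4
    have h5 := T.add (pos v u) (pos v w - pos v u)
    rw [add_sub_cancel, T.symm] at h5
    have := mul_nonneg hs (hw w List.prefix_rfl).1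
    have := mul_le_mul_of_nonneg_left (hw u h1).2 hs
    linarith

theorem Trial.disj {s k : ℝ} {w r : List σ} (hw : T.Trial s w) (hr : r ∈ T.Cone s k) :
    Disj v w (pos v w) r := by
  intro u hu hne u' hu' _ h
  have h1 := hw u hu hne
  have h2 := (hr.1 u' hu').2
  simp only [Sys.ht, h, map_add, add_sub_cancel_left] at h1 h2
  linarith

theorem mn_TT_lt {s k t : ℝ} (hs : 0 ≤ s) (hk : 0 ≤ k) (ht : 0 ≤ t) {w : List σ}
    (hw : w ∈ mn (T.TT s k t)) : T.ρ (pos v w) < t + s * k + 1 := by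
  by_contra h
  rcases List.eq_nil_or_concat w with rfl | ⟨w0, e, rfl⟩
  · rw [pos_nil, T.zero] at h
    have := mul_nonneg hs hk
    linarith
  · rw [List.concat_eq_append] at h hw
    obtain ⟨u, h1, h2, h3⟩ := exists_trial (T := T) hs (hw.1.1.pfx (List.prefix_append w0 [e]))
    have h4 := T.add (pos v w0) (v e)
    have h5 := T.step e
    simp only [pos_append, pos_cons, pos_nil, add_zero] at h
    have h6 := h1.trans (List.prefix_append w0 [e])
    refine hw.2 u h6 (fun h7 => ?_) ⟨hw.1.1.pfx h6, h2, by linarith⟩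
    have := h1.length_le
    simp [h7] at this

theorem β_mono {s s' k k' : ℝ} (hs : s ≤ s') (hk : k' ≤ k) : T.β s k ≤ T.β s' k' :=
  measure_mono (opn_mono fun w hw => ⟨w, ⟨fun u hu => ⟨(hw.1 u hu).1, (hw.1 u hu).2.trans
    (mul_le_mul_of_nonneg_right hs (hw.1 u hu).1)⟩, hk.trans_lt hw.2⟩, List.prefix_rfl⟩)

variable [DiscreteMeasurableSpace σ] [Countable σ]

theorem trial_step {s k t : ℝ} (hs : 0 ≤ s) (hk : 0 ≤ k) (ht : 0 ≤ t) :
    S.P (opn (T.TT s k (t + (2 * s * k + 1)))) + S.P (opn (T.TT s k t)) * T.β s k ≤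
      S.P (opn (T.TT s k t)) := by
  have hsk := mul_nonneg hs hk
  have hsub : T.TT s k (t + (2 * s * k + 1)) ⊆ T.TT s k t :=
    fun w hw => ⟨hw.1, hw.2.1, by linarith [hw.2.2]⟩
  have h1 := S.ann.success (T.TT s k t) (T.Cone s k)
    (opn (T.TT s k t) \ opn (T.TT s k (t + (2 * s * k + 1))))
    (fun w hw r hr => hw.1.2.1.disj hr) ?_
  · refine le_trans (add_le_add le_rfl h1) (le_of_eq ?_)
    rw [measure_add_sdiff (measurableSet_opn _).nullMeasurableSet, union_eq_right.2]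
    exact opn_mono fun w hw => ⟨w, hsub hw, List.prefix_rfl⟩
  · intro w hw r hr ζ hζ
    have hζw := cyl_mono (List.prefix_append w r) hζ
    refine ⟨⟨w, hw.1, hζw⟩, ?_⟩
    rintro ⟨w', hw', hζ'⟩
    obtain ⟨r', rfl⟩ := mn_pfx hw (hsub hw') hζw hζ'
    have h0 := (hw.1.1 w List.prefix_rfl).1
    rcases cyl_cmp hζ hζ' with h | h
    · have := (hw'.1 _ h).2
      have := hr.2
      simp only [Sys.ht_append] at *; linarith
    · have h2 := (hr.1 r' ((List.prefix_append_right_inj w).1 h)).2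
      have h3 := (hw'.1 _ List.prefix_rfl).2
      have h4 := mn_TT_lt hs hk ht hw
      have h5 := hw'.2.2
      have h6 := T.add (pos v w) (pos v r')
      have h7 : s * S.ht r' ≤ s * k := by
        refine mul_le_mul_of_nonneg_left ?_ hs
        simp only [Sys.ht_append] at h3; linarith
      simp only [pos_append] at h5
      linarith

theorem trial_bound {s k : ℝ} (hs : 0 ≤ s) (hk : 0 ≤ k) (j : ℕ) :
    T.β s k * j * S.P (opn (T.Ext k (j * (2 * s * k + 1) + s * k))) ≤ 1 := by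
  have hsk := mul_nonneg hs hk
  have key : ∀ j : ℕ, T.β s k * j * S.P (opn (T.TT s k (j * (2 * s * k + 1)))) +
      S.P (opn (T.TT s k (j * (2 * s * k + 1)))) ≤ 1 := by
    intro j
    induction j with
    | zero => simpa using prob_le_one
    | succ j ih =>
      have h1 := trial_step (T := T) hs hk (t := j * (2 * s * k + 1)) (by positivity)
      rw [show ((j + 1 : ℕ) : ℝ) * (2 * s * k + 1) = j * (2 * s * k + 1) + (2 * s * k + 1) by
        push_cast; ring]
      set x := S.P (opn (T.TT s k (j * (2 * s * k + 1))))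
      set y := S.P (opn (T.TT s k (j * (2 * s * k + 1) + (2 * s * k + 1))))
      have h2 : y ≤ x := le_trans le_self_add h1
      calc T.β s k * (j + 1 : ℕ) * y + y ≤ T.β s k * (j + 1 : ℕ) * x + y := by gcongr
        _ = T.β s k * j * x + (y + x * T.β s k) := by push_cast; ring
        _ ≤ T.β s k * j * x + x := by gcongr
        _ ≤ 1 := ih
  refine le_trans ?_ (le_trans le_self_add (key j))
  refine mul_le_mul_right (measure_mono (opn_mono fun w hw => ?_)) _
  obtain ⟨u, h1, h2, h3⟩ := exists_trial (T := T) hs hw.1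
  exact ⟨u, ⟨hw.1.pfx h1, h2, by linarith [hw.2]⟩, h1⟩

theorem β_mul (s k k' : ℝ) : T.β s k * T.β s k' ≤ T.β s (k + k') := by
  refine S.ann.success _ _ _ (fun w hw r hr => Sys.Rec.disj (fun u hu hne => ?_)
    fun u hu => (hr.1 u hu).1) fun w hw r hr => cyl_subset_opn ⟨fun u hu => ?_, ?_⟩ List.prefix_rfl
  · by_contra h
    exact hw.2 u hu hne ⟨fun u' h' => hw.1.1 u' (h'.trans hu), hw.1.2.trans_le (not_lt.1 h)⟩
  · rcases pfx_append_iff.1 hu with h | ⟨r', h, rfl⟩
    · exact hw.1.1 u h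
    · have h1 := hw.1.1 w List.prefix_rfl
      have h2 := hr.1 r' h
      have h3 := T.add (pos v w) (pos v r')
      simp only [Sys.ht_append, pos_append]
      constructor <;> linarith [h1.1, h1.2, h2.1, h2.2]
  · have := hw.1.2
    have := hr.2
    simp only [Sys.ht_append]; linarith

theorem β_pow (s k : ℝ) (n : ℕ) : T.β s k ^ (n + 1) ≤ T.β s ((n + 1 : ℕ) * k) := by
  induction n with
  | zero => simp
  | succ n ih =>
    rw [pow_succ]
    refine le_trans (mul_le_mul_left ih _) ((β_mul _ _ _).trans (le_of_eq ?_))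
    congr 1; push_cast; ring

omit [DiscreteMeasurableSpace σ] [Countable σ] in
theorem β_base : S.κ ^ 2 ≤ T.β 1 1 := by
  have h1 : S.q ([S.es] ++ [S.es]) = S.κ ^ 2 := by
    rw [Sys.q_append Sys.block_es.1.2 Sys.block_es.1.1, sq]; rfl
  rw [← h1]
  refine measure_mono (cyl_subset_opn ⟨fun u hu => ?_, by rw [Sys.ht_append]; simp⟩ List.prefix_rfl)
  have h2 : T.ρ (v S.es + v S.es) ≤ 0 := by simpa [T.es] using T.add (v S.es) (v S.es)
  rcases List.prefix_cons_iff.1 hu with rfl | ⟨t, rfl, h⟩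
  · simp [T.zero]
  · rcases List.prefix_cons_iff.1 h with rfl | ⟨t', rfl, h'⟩
    · simp [T.es]
    · rw [List.prefix_nil.1 h']
      simp only [Sys.ht, pos_cons, pos_nil, add_zero, map_add, S.h_es]
      constructor <;> linarith

end Tr

end Vale.Agent.P147
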