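import Mathlib

open MeasureTheory Set
open scoped ENNReal

namespace Vale.Agent.P147

/-- Iverson bracket -/
noncomputable def ind (p : Prop) : ℝ≥0∞ := by classical exact if p then 1 else 0

theorem ind_pos {p : Prop} (h : p) : ind p = 1 := by simp [ind, h]
theorem ind_neg {p : Prop} (h : ¬ p) : ind p = 0 := by simp [ind, h]
@[simp] theorem ind_true : ind True = 1 := ind_pos trivial
@[simp] theorem ind_false : ind False = 0 := ind_neg not_false
theorem ind_le_one (p : Prop) : ind p ≤ 1 := by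
  by_cases h : p
  · simp [ind_pos h]
  · simp [ind_neg h]
theorem ind_ne_top (p : Prop) : ind p ≠ ∞ := ne_top_of_le_ne_top ENNReal.one_ne_top (ind_le_one p)
theorem ind_mono {p q : Prop} (h : p → q) : ind p ≤ ind q := by
  by_cases hp : p
  · simp [ind_pos hp, ind_pos (h hp)]
  · simp [ind_neg hp]
theorem ind_congr {p q : Prop} (h : p ↔ q) : ind p = ind q := by rw [propext h]
theorem ind_and (p q : Prop) : ind (p ∧ q) = ind p * ind q := by
  by_cases hp : p <;> by_cases hq : q <;> simp [ind_pos, ind_neg, hp, hq]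
theorem ind_or_le (p q : Prop) : ind (p ∨ q) ≤ ind p + ind q := by
  by_cases hp : p <;> by_cases hq : q <;> simp [ind_pos, ind_neg, hp, hq]
theorem ind_mul_le {p : Prop} {a b : ℝ≥0∞} (h : p → a ≤ b) : ind p * a ≤ b := by
  by_cases hp : p
  · simpa [ind_pos hp] using h hp
  · simp [ind_neg hp]
theorem ind_mul_le_ind_mul {p q : Prop} {a b : ℝ≥0∞} (h : p → q ∧ a ≤ b) :
    ind p * a ≤ ind q * b := ind_mul_le fun hp => by simpa [ind_pos (h hp).1] using (h hp).2
theorem ind_mul_congr {p : Prop} {a b : ℝ≥0∞} (h : p → a = b) : ind p * a = ind p * b := by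
  by_cases hp : p
  · rw [h hp]
  · simp [ind_neg hp]
theorem ind_add_not (p : Prop) : ind p + ind (¬ p) = 1 := by
  by_cases hp : p <;> simp [ind_pos, ind_neg, hp]

theorem tsum_ind_eq {ι : Type*} (i : ι) (f : ι → ℝ≥0∞) : ∑' j, ind (j = i) * f j = f i := by
  rw [tsum_eq_single i]
  · simp
  · intro j hj; simp [ind_neg hj]

theorem tsum_ind_eq' {ι : Type*} (i : ι) (f : ι → ℝ≥0∞) : ∑' j, ind (i = j) * f j = f i := by
  simp_rw [eq_comm (a := i)]; exact tsum_ind_eq i f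

theorem tsum_ind_unique {ι : Type*} (p : ι → Prop) (h : ∀ i j, p i → p j → i = j) :
    ∑' i, ind (p i) = ind (∃ i, p i) := by
  by_cases hp : ∃ i, p i
  · obtain ⟨i, hi⟩ := hp
    rw [ind_pos ⟨i, hi⟩, tsum_eq_single i, ind_pos hi]
    intro j hj
    exact ind_neg fun h' => hj (h _ _ h' hi)
  · rw [ind_neg hp]
    simp only [not_exists] at hp
    simp [ind_neg (hp _)]

theorem tsum_ind_mul_le {ι : Type*} (p : ι → Prop) (h : ∀ i j, p i → p j → i = j)
    (f : ι → ℝ≥0∞) (b : ℝ≥0∞) (hb : ∀ i, p i → f i ≤ b) : ∑' i, ind (p i) * f i ≤ b := by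
  calc ∑' i, ind (p i) * f i ≤ ∑' i, ind (p i) * b :=
        ENNReal.tsum_le_tsum fun i => ind_mul_le_ind_mul fun hi => ⟨hi, hb i hi⟩
    _ = ind (∃ i, p i) * b := by rw [ENNReal.tsum_mul_right, tsum_ind_unique p h]
    _ ≤ b := ind_mul_le fun _ => le_rfl

theorem ind_exists_le {ι : Type*} (p : ι → Prop) : ind (∃ i, p i) ≤ ∑' i, ind (p i) := by
  by_cases hp : ∃ i, p i
  · obtain ⟨i, hi⟩ := hp
    rw [ind_pos ⟨i, hi⟩, ← ind_pos hi]
    exact ENNReal.le_tsum (f := fun i => ind (p i)) i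
  · simp [ind_neg hp]

section meas
variable {Ω ι : Type*} [MeasurableSpace Ω] (P : Measure Ω)

theorem meas_sep (p : Prop) (S : Set Ω) : P {x | p ∧ x ∈ S} = ind p * P S := by
  by_cases hp : p <;> simp [ind_pos, ind_neg, hp]

theorem meas_le_sum [Countable ι] (p : ι → Prop) (S : ι → Set Ω) (T : Set Ω)
    (h : ∀ x ∈ T, ∃ i, p i ∧ x ∈ S i) : P T ≤ ∑' i, ind (p i) * P (S i) := by
  calc P T ≤ P (⋃ i, {x | p i ∧ x ∈ S i}) := measure_mono fun x hx => by
        simpa using h x hx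
    _ ≤ ∑' i, P {x | p i ∧ x ∈ S i} := measure_iUnion_le _
    _ = _ := by simp_rw [meas_sep]

theorem sum_eq_meas [Countable ι] (p : ι → Prop) (S : ι → Set Ω)
    (hd : ∀ i j x, p i → p j → x ∈ S i → x ∈ S j → i = j)
    (hm : ∀ i, p i → MeasurableSet (S i)) :
    ∑' i, ind (p i) * P (S i) = P {x | ∃ i, p i ∧ x ∈ S i} := by
  have : {x | ∃ i, p i ∧ x ∈ S i} = ⋃ i, {x | p i ∧ x ∈ S i} := by ext; simp
  rw [this, measure_iUnion]
  · simp_rw [meas_sep]
  · intro i j hij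
    rw [Function.onFun, Set.disjoint_left]
    rintro x ⟨h1, h2⟩ ⟨h3, h4⟩
    exact hij (hd i j x h1 h3 h2 h4)
  · intro i
    by_cases hp : p i
    · simpa [hp] using hm i hp
    · simp [hp]

theorem sum_le_meas [Countable ι] (p : ι → Prop) (S : ι → Set Ω) (T : Set Ω)
    (hd : ∀ i j x, p i → p j → x ∈ S i → x ∈ S j → i = j)
    (hm : ∀ i, p i → MeasurableSet (S i)) (hT : ∀ i, p i → S i ⊆ T) :
    ∑' i, ind (p i) * P (S i) ≤ P T := by
  rw [sum_eq_meas P p S hd hm]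
  refine measure_mono ?_
  rintro x ⟨i, hi, hx⟩
  exact hT i hi hx

theorem lintegral_ind {S : Set Ω} (hS : MeasurableSet S) : ∫⁻ x, ind (x ∈ S) ∂P = P S := by
  rw [← lintegral_indicator_one hS]
  refine lintegral_congr fun x => ?_
  by_cases hx : x ∈ S <;> simp [hx, ind_pos, ind_neg]

theorem measurable_ind {S : Set Ω} (hS : MeasurableSet S) : Measurable fun x => ind (x ∈ S) := by
  have : (fun x => ind (x ∈ S)) = S.indicator 1 := by
    ext x; by_cases hx : x ∈ S <;> simp [hx, ind_pos, ind_neg]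
  rw [this]; exact measurable_one.indicator hS

end meas

section words
variable {σ : Type}

theorem pfx_append_iff {u w r : List σ} :
    u <+: w ++ r ↔ u <+: w ∨ ∃ r', r' <+: r ∧ u = w ++ r' := by
  constructor
  · intro h
    rcases List.prefix_or_prefix_of_prefix h (List.prefix_append w r) with h1 | ⟨r', rfl⟩
    · exact Or.inl h1
    · exact Or.inr ⟨r', (List.prefix_append_right_inj w).1 h, rfl⟩
  · rintro (h | ⟨r', h, rfl⟩)
    · exact h.trans (List.prefix_append w r)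
    · exact (List.prefix_append_right_inj w).2 h

theorem pfx_antisymm {u w : List σ} (h1 : u <+: w) (h2 : w <+: u) : u = w :=
  h1.eq_of_length_le h2.length_le

/-- first `n` letters of a sequence -/
def pre (n : ℕ) (ζ : ℕ → σ) : List σ := (List.range n).map ζ
/-- shift -/
def sh (n : ℕ) (ζ : ℕ → σ) : ℕ → σ := fun i => ζ (n + i)
/-- cylinder -/
def cyl (w : List σ) : Set (ℕ → σ) := {ζ | pre w.length ζ = w}
/-- `w` followed by a sequence in `B` -/
def aft (w : List σ) (B : Set (ℕ → σ)) : Set (ℕ → σ) := {ζ | ζ ∈ cyl w ∧ sh w.length ζ ∈ B}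
/-- sequences with an initial word in `A` -/
def opn (A : Set (List σ)) : Set (ℕ → σ) := {ζ | ∃ w, w ∈ A ∧ ζ ∈ cyl w}
/-- minimal words -/
def mn (A : Set (List σ)) : Set (List σ) := {w | w ∈ A ∧ ∀ u, u <+: w → u ≠ w → u ∉ A}

@[simp] theorem pre_length (n : ℕ) (ζ : ℕ → σ) : (pre n ζ).length = n := by simp [pre]
@[simp] theorem pre_zero (ζ : ℕ → σ) : pre 0 ζ = [] := by simp [pre]
theorem pre_add (m n : ℕ) (ζ : ℕ → σ) : pre (m + n) ζ = pre m ζ ++ pre n (sh m ζ) := by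
  simp [pre, List.range_add, sh, Function.comp_def]
theorem pre_succ (n : ℕ) (ζ : ℕ → σ) : pre (n + 1) ζ = pre n ζ ++ [ζ n] := by
  simp [pre, List.range_succ]
theorem pre_one (ζ : ℕ → σ) : pre 1 ζ = [ζ 0] := by simp [pre]
theorem sh_sh (m n : ℕ) (ζ : ℕ → σ) : sh n (sh m ζ) = sh (m + n) ζ := by
  ext i; simp [sh, add_assoc]
@[simp] theorem sh_zero (ζ : ℕ → σ) : sh 0 ζ = ζ := by ext i; simp [sh]
theorem mem_cyl_pre (n : ℕ) (ζ : ℕ → σ) : ζ ∈ cyl (pre n ζ) := by simp [cyl]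
theorem pre_pfx {m n : ℕ} (h : m ≤ n) (ζ : ℕ → σ) : pre m ζ <+: pre n ζ := by
  obtain ⟨k, rfl⟩ := Nat.exists_eq_add_of_le h
  rw [pre_add]; exact List.prefix_append _ _
theorem mem_cyl {w : List σ} {ζ : ℕ → σ} : ζ ∈ cyl w ↔ pre w.length ζ = w := Iff.rfl
@[simp] theorem cyl_nil : cyl ([] : List σ) = univ := by ext; simp [cyl]

theorem mem_cyl_append {w r : List σ} {ζ : ℕ → σ} :
    ζ ∈ cyl (w ++ r) ↔ ζ ∈ cyl w ∧ sh w.length ζ ∈ cyl r := by
  simp only [mem_cyl, List.length_append, pre_add]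
  constructor
  · intro h; exact List.append_inj h (by simp)
  · rintro ⟨h1, h2⟩; rw [h1, h2]

theorem cyl_append (w r : List σ) : cyl (w ++ r) = aft w (cyl r) := by
  ext ζ; exact mem_cyl_append

theorem cyl_mono {u w : List σ} (h : u <+: w) : cyl w ⊆ cyl u := by
  obtain ⟨r, rfl⟩ := h
  intro ζ hζ; exact (mem_cyl_append.1 hζ).1

theorem pfx_of_cyl {u w : List σ} {ζ : ℕ → σ} (hu : ζ ∈ cyl u) (hw : ζ ∈ cyl w)
    (h : u.length ≤ w.length) : u <+: w := by
  rw [← mem_cyl.1 hu, ← mem_cyl.1 hw]; exact pre_pfx h ζ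

theorem cyl_cmp {u w : List σ} {ζ : ℕ → σ} (hu : ζ ∈ cyl u) (hw : ζ ∈ cyl w) :
    u <+: w ∨ w <+: u := by
  rcases le_total u.length w.length with h | h
  · exact Or.inl (pfx_of_cyl hu hw h)
  · exact Or.inr (pfx_of_cyl hw hu h)

theorem mem_cyl_singleton {e : σ} {ζ : ℕ → σ} : ζ ∈ cyl [e] ↔ ζ 0 = e := by
  simp [mem_cyl, pre_one]

theorem aft_aft (w u : List σ) (B : Set (ℕ → σ)) : aft w (aft u B) = aft (w ++ u) B := by
  ext ζ; simp only [aft, mem_ofPred_eq, mem_cyl_append, sh_sh, List.length_append, and_assoc]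

@[simp] theorem aft_nil (B : Set (ℕ → σ)) : aft [] B = B := by ext; simp [aft]
@[simp] theorem aft_univ (w : List σ) : aft w univ = cyl w := by ext; simp [aft]
theorem aft_mono (w : List σ) {B C : Set (ℕ → σ)} (h : B ⊆ C) : aft w B ⊆ aft w C :=
  fun _ hζ => ⟨hζ.1, h hζ.2⟩
theorem aft_subset (w : List σ) (B : Set (ℕ → σ)) : aft w B ⊆ cyl w := fun _ h => h.1

theorem mem_aft_opn {w : List σ} {R : Set (List σ)} {ζ : ℕ → σ} :
    ζ ∈ aft w (opn R) ↔ ∃ r, r ∈ R ∧ ζ ∈ cyl (w ++ r) := by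
  simp only [aft, opn, mem_ofPred_eq, mem_cyl_append]
  constructor
  · rintro ⟨h, r, hr, h'⟩; exact ⟨r, hr, h, h'⟩
  · rintro ⟨r, hr, h, h'⟩; exact ⟨h, r, hr, h'⟩

theorem exists_mn {A : Set (List σ)} {w : List σ} (hw : w ∈ A) : ∃ u, u ∈ mn A ∧ u <+: w := by
  induction hn : w.length using Nat.strong_induction_on generalizing w with
  | _ n ih =>
    by_cases h : ∀ u, u <+: w → u ≠ w → u ∉ A
    · exact ⟨w, ⟨hw, h⟩, List.prefix_rfl⟩
    · push Not at h
      obtain ⟨u, hu, hne, huA⟩ := h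
      have : u.length < n := by
        rw [← hn]; exact lt_of_le_of_ne hu.length_le fun h => hne (hu.eq_of_length h)
      obtain ⟨u', h1, h2⟩ := ih _ this huA rfl
      exact ⟨u', h1, h2.trans hu⟩

theorem mn_eq {A : Set (List σ)} {u w : List σ} (hu : u ∈ A) (hw : w ∈ mn A) (h : u <+: w) :
    u = w := by
  by_contra hne; exact hw.2 u h hne hu

theorem mn_cyl_eq {A : Set (List σ)} {u w : List σ} {ζ : ℕ → σ} (hu : u ∈ mn A) (hw : w ∈ mn A)
    (h1 : ζ ∈ cyl u) (h2 : ζ ∈ cyl w) : u = w := by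
  rcases cyl_cmp h1 h2 with h | h
  · exact mn_eq hu.1 hw h
  · exact (mn_eq hw.1 hu h).symm

theorem mn_pfx_eq {A : Set (List σ)} {u w η : List σ} (hu : u ∈ mn A) (hw : w ∈ mn A)
    (h1 : u <+: η) (h2 : w <+: η) : u = w := by
  rcases List.prefix_or_prefix_of_prefix h1 h2 with h | h
  · exact mn_eq hu.1 hw h
  · exact (mn_eq hw.1 hu h).symm

theorem mn_pfx {A : Set (List σ)} {u w : List σ} {ζ : ℕ → σ} (hu : u ∈ mn A) (hw : w ∈ A)
    (h1 : ζ ∈ cyl u) (h2 : ζ ∈ cyl w) : u <+: w := by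
  rcases cyl_cmp h1 h2 with h | h
  · exact h
  · rw [mn_eq hw hu h]

theorem mem_opn_mn {A : Set (List σ)} {ζ : ℕ → σ} (h : ζ ∈ opn A) : ∃ u, u ∈ mn A ∧ ζ ∈ cyl u := by
  obtain ⟨w, hw, hζ⟩ := h
  obtain ⟨u, hu, huw⟩ := exists_mn hw
  exact ⟨u, hu, cyl_mono huw hζ⟩

theorem opn_mono {A B : Set (List σ)} (h : ∀ w ∈ A, ∃ u ∈ B, u <+: w) : opn A ⊆ opn B := by
  rintro ζ ⟨w, hw, hζ⟩
  obtain ⟨u, hu, huw⟩ := h w hw
  exact ⟨u, hu, cyl_mono huw hζ⟩

theorem cyl_subset_opn {A : Set (List σ)} {u w : List σ} (hu : u ∈ A) (h : u <+: w) :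
    cyl w ⊆ opn A := fun _ hζ => ⟨u, hu, cyl_mono h hζ⟩

variable [MeasurableSpace σ] [DiscreteMeasurableSpace σ] [Countable σ]

omit [DiscreteMeasurableSpace σ] [Countable σ] in
theorem measurable_sh (n : ℕ) : Measurable (sh n : (ℕ → σ) → ℕ → σ) :=
  measurable_pi_lambda _ fun _ => measurable_pi_apply _

omit [Countable σ] in
theorem measurableSet_cyl (w : List σ) : MeasurableSet (cyl w) := by
  induction w with
  | nil => simp
  | cons e w ih =>
    have : cyl (e :: w) = {ζ : ℕ → σ | ζ 0 = e} ∩ sh 1 ⁻¹' cyl w := by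
      ext ζ
      rw [show e :: w = [e] ++ w from rfl, mem_cyl_append, mem_cyl_singleton]; rfl
    rw [this]
    exact (measurable_pi_apply 0 (measurableSet_singleton e)).inter (measurable_sh 1 ih)

omit [Countable σ] in
theorem measurableSet_aft (w : List σ) {B : Set (ℕ → σ)} (hB : MeasurableSet B) :
    MeasurableSet (aft w B) := (measurableSet_cyl w).inter (measurable_sh _ hB)

theorem measurableSet_opn (A : Set (List σ)) : MeasurableSet (opn A) := by
  have : opn A = ⋃ w ∈ A, cyl w := by ext; simp [opn]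
  rw [this]
  exact MeasurableSet.biUnion (Set.to_countable A) fun w _ => measurableSet_cyl w

theorem measurableSet_pre (n : ℕ) (p : List σ → Prop) :
    MeasurableSet {ζ : ℕ → σ | p (pre n ζ)} := by
  have : {ζ : ℕ → σ | p (pre n ζ)} = opn {w | w.length = n ∧ p w} := by
    ext ζ; constructor
    · intro h; exact ⟨_, ⟨pre_length n ζ, h⟩, mem_cyl_pre n ζ⟩
    · rintro ⟨w, ⟨rfl, h⟩, hζ⟩
      rw [mem_ofPred_eq, mem_cyl.1 hζ]; exact h
  rw [this]; exact measurableSet_opn _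

variable (P : Measure (ℕ → σ))

theorem sum_mn_aft (A : Set (List σ)) (B : List σ → Set (ℕ → σ)) (T : Set (ℕ → σ))
    (hB : ∀ w ∈ mn A, MeasurableSet (B w)) (hT : ∀ w ∈ mn A, aft w (B w) ⊆ T) :
    ∑' w, ind (w ∈ mn A) * P (aft w (B w)) ≤ P T :=
  sum_le_meas P _ _ T (fun _ _ _ h1 h2 h3 h4 => mn_cyl_eq h1 h2 h3.1 h4.1)
    (fun w hw => measurableSet_aft w (hB w hw)) hT

theorem meas_opn (A : Set (List σ)) : P (opn A) = ∑' w, ind (w ∈ mn A) * P (cyl w) := by
  apply le_antisymm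
  · exact meas_le_sum P _ _ _ fun ζ h => mem_opn_mn h
  · exact sum_le_meas P _ _ _ (fun _ _ _ h1 h2 h3 h4 => mn_cyl_eq h1 h2 h3 h4)
      (fun w _ => measurableSet_cyl w) fun w hw => cyl_subset_opn hw.1 List.prefix_rfl

theorem meas_aft_opn (w : List σ) (A : Set (List σ)) :
    P (aft w (opn A)) = ∑' r, ind (r ∈ mn A) * P (cyl (w ++ r)) := by
  apply le_antisymm
  · refine meas_le_sum P _ _ _ fun ζ h => ?_
    obtain ⟨u, hu, h'⟩ := mem_opn_mn h.2
    exact ⟨u, hu, mem_cyl_append.2 ⟨h.1, h'⟩⟩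
  · exact sum_le_meas P _ _ _ (fun _ _ _ h1 h2 h3 h4 =>
        mn_cyl_eq h1 h2 (mem_cyl_append.1 h3).2 (mem_cyl_append.1 h4).2)
      (fun w _ => measurableSet_cyl _) fun r hr ζ h => mem_aft_opn.2 ⟨r, hr.1, h⟩

omit [DiscreteMeasurableSpace σ] in
theorem meas_opn_le (A : Set (List σ)) : P (opn A) ≤ ∑' w, ind (w ∈ A) * P (cyl w) :=
  meas_le_sum P _ _ _ fun _ h => h

end words

end Vale.Agent.P147
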